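import Crest.Agent.R113.Op

/-! Row 113: what is used of irrational rotations. -/

set_option autoImplicit false

namespace Crest.Agent.R113

open MeasureTheory Finset Filter Topology

lemma denseRange_zsmul_T {θ : ℝ} (hθ : Irrational θ) : DenseRange fun k : ℤ => k • (θ : T) :=
  AddCircle.denseRange_zsmul_coe_iff.2 (by simpa using hθ)

/-- Mean ergodic theorem for a bounded function of mean zero. -/
lemma exists_avg {θ : ℝ} (hθ : Irrational θ) {g : T → ℝ} (hg : Bd g) (h0 : ∫ x, g x = 0) {δ : ℝ}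
    (hδ : 0 < δ) : ∃ J : ℕ, 0 < J ∧
      ∫ x, |(J : ℝ)⁻¹ * ∑ j ∈ range J, g (x + j • (θ : T))| ≤ δ := by
  have herg : Ergodic (fun x : T => x + (θ : T)) volume :=
    AddCircle.ergodic_add_right.2 (AddCircle.denseRange_zsmul_iff.1 (denseRange_zsmul_T hθ))
  have hmp := herg.toMeasurePreserving
  set U : Lp ℝ 2 (volume : Measure T) →L[ℝ] Lp ℝ 2 (volume : Measure T) :=
    (Lp.compMeasurePreservingₗᵢ ℝ _ hmp).toContinuousLinearMap with hU
  have hUa : ∀ f, U f =ᵐ[volume] fun x => f (x + (θ : T)) := fun f =>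
    Lp.coeFn_compMeasurePreserving f hmp
  have hg2 : MemLp g 2 (volume : Measure T) :=
    MemLp.of_bound hg.1.aestronglyMeasurable hg.2.choose (ae_of_all _ hg.2.choose_spec)
  have hlim := U.tendsto_birkhoffAverage_orthogonalProjection
    (LinearIsometry.norm_toContinuousLinearMap_le _) (hg2.toLp g)
  have hP : (U.eqLocus (1 : Lp ℝ 2 (volume : Measure T) →L[ℝ]
      Lp ℝ 2 (volume : Measure T))).orthogonalProjectionOnto (hg2.toLp g) = 0 := by
    rw [Submodule.orthogonalProjectionOnto_eq_zero_iff, Submodule.mem_orthogonal]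
    intro f hf
    have hf' : U f = f := hf
    obtain ⟨c, hc⟩ := herg.ae_eq_const_of_ae_eq_comp_ae (Lp.aestronglyMeasurable f)
      (by have := (hUa f).symm; rwa [hf'] at this)
    rw [L2.inner_def]
    have : ∫ x, inner ℝ (f x) (hg2.toLp g x) = ∫ x, c * g x := by
      refine integral_congr_ae ?_
      filter_upwards [hc, hg2.coeFn_toLp] with x h1 h2
      rw [h1, h2]; simp [mul_comm]
    rw [this, integral_const_mul, h0, mul_zero]
  rw [hP] at hlim
  have hit : ∀ n : ℕ, U^[n] (hg2.toLp g) =ᵐ[volume] fun x => g (x + n • (θ : T)) := by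
    intro n
    induction n with
    | zero => simpa using hg2.coeFn_toLp
    | succ n ih =>
      rw [Function.iterate_succ_apply']
      filter_upwards [hUa (U^[n] (hg2.toLp g)), hmp.quasiMeasurePreserving.ae ih] with x h1 h2
      rw [h1, h2, succ_nsmul', add_assoc]
  have hsum : ∀ n : ℕ, (birkhoffSum U id n (hg2.toLp g) : Lp ℝ 2 (volume : Measure T)) =ᵐ[volume]
      fun x => ∑ j ∈ range n, g (x + j • (θ : T)) := by
    intro n
    induction n with
    | zero => rw [birkhoffSum_zero]; exact Lp.coeFn_zero ℝ 2 (volume : Measure T)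
    | succ n ih =>
      rw [birkhoffSum_succ]
      filter_upwards [Lp.coeFn_add (birkhoffSum U id n (hg2.toLp g)) (id (U^[n] (hg2.toLp g))),
        ih, hit n] with x h1 h2 h3
      rw [h1, Pi.add_apply, h2, id, h3, Finset.sum_range_succ]
  obtain ⟨J, hJ, hJ0⟩ := ((Metric.tendsto_nhds.1 hlim δ hδ).and (eventually_gt_atTop 0)).exists
  refine ⟨J, hJ0, ?_⟩
  rw [ZeroMemClass.coe_zero, dist_zero_right] at hJ
  set f := birkhoffAverage ℝ U id J (hg2.toLp g) with hf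
  have hfa : f =ᵐ[volume] fun x => (J : ℝ)⁻¹ * ∑ j ∈ range J, g (x + j • (θ : T)) := by
    filter_upwards [Lp.coeFn_smul (J : ℝ)⁻¹ (birkhoffSum U id J (hg2.toLp g)), hsum J] with x h1 h2
    rw [hf, birkhoffAverage, h1, Pi.smul_apply, h2, smul_eq_mul]
  have h1 : ∫ x, |(J : ℝ)⁻¹ * ∑ j ∈ range J, g (x + j • (θ : T))| = ∫ x, ‖f x‖ := by
    refine integral_congr_ae ?_
    filter_upwards [hfa] with x h
    rw [h, Real.norm_eq_abs]
  rw [h1, integral_norm_eq_lintegral_enorm (Lp.aestronglyMeasurable f),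
    ← eLpNorm_one_eq_lintegral_enorm]
  refine le_trans ?_ hJ.le
  rw [Lp.norm_def]
  exact ENNReal.toReal_mono (Lp.eLpNorm_ne_top f)
    (eLpNorm_le_eLpNorm_of_exponent_le one_le_two (Lp.aestronglyMeasurable f))

/-- Mean ergodic theorem in coboundary form: `ψ = J⁻¹ ∑_{j<J} (φ - ∫ φ) (x + j θ)`,
`ζ = J⁻¹ ∑_{j<J} ∑_{u<j} (φ - ∫ φ) (x + u θ)`. For `∫ |ψ| → 0` use e.g.
`ContinuousLinearMap.tendsto_birkhoffAverage_orthogonalProjection` on real `L²` with ergodicity of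
the rotation (`AddCircle.denseRange_zsmul_coe_iff`, `ergodic_add_right_of_denseRange_zsmul` or
similar), or approximate `φ` in `L²` by trigonometric polynomials. -/
theorem exists_cob {θ : ℝ} (hθ : Irrational θ) {φ : T → ℝ} (hφ : Bd φ) {δ : ℝ} (hδ : 0 < δ) :
    ∃ (J : ℝ) (ψ ζ : T → ℝ), Bd ψ ∧ Bd ζ ∧
      (∀ x, φ x - ∫ y, φ y = ψ x + ζ x - ζ (x + (θ : T))) ∧ ∫ x, |ψ x| ≤ δ ∧ ∀ x, |ζ x| ≤ J := by
  have hg : Bd fun x => φ x - ∫ y, φ y := hφ.sub (Bd.const _)
  have h0 : ∫ x, (φ x - ∫ y, φ y) = 0 := by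
    rw [integral_sub (hφ.integrable _) (integrable_const _)]; simp
  obtain ⟨g, hgd⟩ : ∃ g : T → ℝ, g = fun x => φ x - ∫ y, φ y := ⟨_, rfl⟩
  rw [← hgd] at hg h0
  obtain ⟨J, hJ, h⟩ := exists_avg hθ hg h0 hδ
  have hb : ∀ j : ℕ, Bd fun x => g (x + j • (θ : T)) := fun j => hg.comp (measurable_add_const _)
  have hζ : Bd fun x => (J : ℝ)⁻¹ * ∑ j ∈ range J, ∑ u ∈ range j, g (x + u • (θ : T)) :=
    (Bd.const _).mul (Bd.sum _ fun j _ => Bd.sum _ fun u _ => hb u)
  obtain ⟨C, -, hC⟩ := hζ.exists_abs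
  refine ⟨C, _, _, (Bd.const _).mul (Bd.sum _ fun j _ => hb j), hζ, fun x => ?_, h, hC⟩
  have h1 : ∀ j : ℕ, ∑ u ∈ range j, g (x + u • (θ : T)) -
      ∑ u ∈ range j, g (x + (θ : T) + u • (θ : T)) = g x - g (x + j • (θ : T)) := by
    intro j
    induction j with
    | zero => simp
    | succ j ih =>
      rw [Finset.sum_range_succ, Finset.sum_range_succ, succ_nsmul', ← add_assoc]
      linarith
  have hJ' : (J : ℝ) ≠ 0 := by exact_mod_cast hJ.ne'
  rw [show φ x - ∫ y, φ y = g x by rw [hgd], add_sub_assoc, ← mul_sub, ← Finset.sum_sub_distrib, Finset.sum_congr rfl fun j _ => h1 j,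
    Finset.sum_sub_distrib, Finset.sum_const, card_range, nsmul_eq_mul]
  field_simp
  ring

/-- Forward orbits are dense; compactness makes the hitting time uniform. -/
theorem exists_hit {θ : ℝ} (hθ : Irrational θ) {r : ℝ} (hr : 0 < r) :
    ∃ R : ℕ, ∀ x : T, ∃ u : ℕ, u ≤ R ∧ ‖x + u • (θ : T)‖ < r := by
  have hd : DenseRange fun k : ℕ => k • (θ : T) :=
    denseRange_zsmul_iff_nsmul.1 (denseRange_zsmul_T hθ)
  obtain ⟨t, ht⟩ := isCompact_univ.elim_finite_subcover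
    (fun u : ℕ => {x : T | ‖x + u • (θ : T)‖ < r})
    (fun u => isOpen_lt (by fun_prop) continuous_const) fun x _ => by
      obtain ⟨u, hu⟩ := hd.exists_dist_lt (-x) hr
      refine Set.mem_iUnion.2 ⟨u, ?_⟩
      rwa [dist_comm, dist_eq_norm, sub_neg_eq_add, add_comm] at hu
  refine ⟨t.sup id, fun x => ?_⟩
  obtain ⟨u, hu, h⟩ := Set.mem_iUnion₂.1 (ht (Set.mem_univ x))
  exact ⟨u, Finset.le_sup (f := id) hu, h⟩

/-- Let the radius shrink slowly (radius `1` works with `R = 0` since `‖x‖ ≤ 1/2`;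
`Nat.findGreatest`). -/
theorem exists_rad {θ : ℝ} (hθ : Irrational θ) :
    ∃ (rad : ℕ → ℝ) (R : ℕ → ℕ), Tendsto rad atTop (𝓝 0) ∧ (∀ j, 0 < rad j) ∧
      (∀ j, R j + 1 ≤ 2 ^ j) ∧ ∀ j (x : T), ∃ u : ℕ, u ≤ R j ∧ ‖x + u • (θ : T)‖ < rad j := by
  obtain ⟨R, hR0, hR⟩ : ∃ R : ℕ → ℕ, R 0 = 0 ∧
      ∀ (k : ℕ) (x : T), ∃ u : ℕ, u ≤ R k ∧ ‖x + u • (θ : T)‖ < 1 / ((k : ℝ) + 1) := by
    choose R hR using fun k : ℕ => exists_hit hθ (r := 1 / ((k : ℝ) + 1)) (by positivity)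
    refine ⟨fun k => if k = 0 then 0 else R k, by simp, fun k x => ?_⟩
    beta_reduce
    split_ifs with hk
    · subst hk
      refine ⟨0, le_rfl, ?_⟩
      have := AddCircle.norm_le_half_period (1 : ℝ) (x := x) one_ne_zero
      simp only [zero_smul, add_zero, Nat.cast_zero, zero_add, abs_one] at this ⊢
      linarith
    · exact hR k x
  set k : ℕ → ℕ := fun j => Nat.findGreatest (fun k => R k + 1 ≤ 2 ^ j) j with hk
  refine ⟨fun j => 1 / ((k j : ℝ) + 1), fun j => R (k j), ?_, fun j => by positivity, fun j => ?_,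
    fun j x => hR (k j) x⟩
  · refine tendsto_one_div_add_atTop_nhds_zero_nat.comp (tendsto_atTop.2 fun m => ?_)
    filter_upwards [eventually_ge_atTop m, eventually_ge_atTop (R m + 1)] with j h1 h2
    exact Nat.le_findGreatest h1 (h2.trans Nat.lt_two_pow_self.le)
  · exact Nat.findGreatest_spec (P := fun k => R k + 1 ≤ 2 ^ j) (Nat.zero_le j)
      (by rw [hR0]; exact Nat.one_le_two_pow)

/-- From `exists_hit` started at a suitable point. -/
theorem exists_fract {θ : ℝ} (hθ : Irrational θ) {lo hi : ℝ} (h0 : 0 ≤ lo) (h : lo < hi)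
    (h1 : hi ≤ 1) (n₀ : ℕ) : ∃ n : ℕ, n₀ ≤ n ∧ lo < Int.fract (n * θ) ∧ Int.fract (n * θ) < hi := by
  obtain ⟨R, hR⟩ := exists_hit hθ (r := (hi - lo) / 2) (by linarith)
  obtain ⟨u, -, hu⟩ := hR ((n₀ * θ - (lo + hi) / 2 : ℝ) : T)
  rw [← AddCircle.coe_nsmul, ← AddCircle.coe_add, UnitAddCircle.norm_eq, nsmul_eq_mul,
    abs_lt] at hu
  set k := round (n₀ * θ - (lo + hi) / 2 + u * θ)
  have h2 : Int.fract (((n₀ + u : ℕ) : ℝ) * θ) = ((n₀ + u : ℕ) : ℝ) * θ - k :=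
    Int.fract_eq_iff.2 ⟨by push_cast; linarith [hu.1], by push_cast; linarith [hu.2], k, by ring⟩
  refine ⟨n₀ + u, Nat.le_add_right _ _, ?_, ?_⟩
  · rw [h2]; push_cast; linarith [hu.1]
  · rw [h2]; push_cast; linarith [hu.2]

end Crest.Agent.R113
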