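import Crest.Agent.R113.NRAux

/-! Row 113: nonresonant angles (a tree-code type greedy construction). -/

set_option autoImplicit false

namespace Crest.Agent.R113

open MeasureTheory Finset

/-- Sketch: `ρ = 64`, `β = ρ²`, `c₀ = 1 / (24 ρ³)`, `ψ θ t = β` if `dz (t θ) < c₀`, else `1 / β`.
`Z_{M}(t) = ψ θ_M t · (1 + Z_{M-1}(t))`, `Φ_M = ∑_{t ≥ ρ^{M+1}} Z_M(t) ρ^{M+1} / t²` (over naturals
`t`, in `ℝ≥0∞`). Given `θ_0 … θ_{M-1}` average over `θ_M` uniform in `[ρ^{-M-1}, 2 ρ^{-M-1}]`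
(`lintegral_tsum`, `exists_le_lintegral`/`exists_le_setLAverage`): for `t ≥ ρ^{M+1}` the event
`dz (t θ) < c₀` has probability `≤ 6 c₀`, so `E ψ ≤ 1 / (2 ρ)` and
`Φ_M ≤ (2 + ρ Φ_{M-1}) / (2 ρ) ≤ 1`. If `b` of the levels `M - k`, `k < K`, have
`dz (D θ) < c₀ / 2`, then for all `t ∈ [D, D + δ]`, `δ = c₀ ρ^{M-K+2} / 4` (at least `δ` integers,
all `≤ 2 ρ^{M+2}`) `Z_M(t) ≥ β^{2 b - K}`, so `c₀ ρ^{-K-1} β^{2b-K} / 16 ≤ 1`. -/
theorem exists_greedy : ∃ θ : ℕ → ℝ, (∀ j, 1 / 64 ^ (j + 1) ≤ θ j ∧ θ j ≤ 2 / 64 ^ (j + 1)) ∧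
    ∀ M K D : ℕ, K ≤ M + 1 → 64 ^ (M + 1) ≤ D → D < 64 ^ (M + 2) →
      4 * #{k ∈ range K | dz (D * θ (M - k)) < 1 / (48 * 64 ^ 3)} ≤ 3 * K + 6 :=
  Greedy.greedy

lemma Greedy.dz_nonneg (x : ℝ) : 0 ≤ dz x := abs_nonneg _

lemma Greedy.dz_neg (x : ℝ) : dz (-x) = dz x := by
  have h : ∀ y : ℝ, dz (-y) ≤ dz y := fun y => by
    refine (round_le (-y) (-round y)).trans_eq ?_
    rw [dz, ← abs_neg]
    push_cast
    congr 1
    ring
  exact le_antisymm (h x) (by simpa using h (-x))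

lemma Greedy.dz_natAbs (D : ℤ) (x : ℝ) : dz (D * x) = dz (D.natAbs * x) := by
  rcases Int.natAbs_eq D with h | h
  · conv_lhs => rw [h, Int.cast_natCast]
  · conv_lhs => rw [h, Int.cast_neg, Int.cast_natCast, neg_mul, Greedy.dz_neg]

lemma Greedy.dz_small {x : ℝ} (h0 : 0 ≤ x) (h1 : x < 1 / 2) : dz x = x := by
  rw [dz, round_eq_zero_iff.2 ⟨by linarith, h1⟩, Int.cast_zero, sub_zero, abs_of_nonneg h0]

/-- Sketch: `tol m = c₀ 64^{-2m-2} / 4` (`c₀ = 1 / (24 · 64³)`), `lo = max (θ - tol) 64^{-m-1}`,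
`hi = min (θ + tol) (2 · 64^{-m-1})`. WLOG `ε ≤ 1`, `D > 0` (`dz` is even). Let
`64^{M'} ≤ D < 64^{M'+1}`. If `M' ≤ i + 100` use the single level `m = max i (M' + 1)`:
`dz (D α) = D α ≥ ε / 64²`, weight `≥ 1 / 102`. Otherwise `M = M' - 1`, `K' = (M - i) / 2`: the
levels `m = M - k`, `k < K'`, satisfy `i ≤ m`, `M ≤ 2 m`, so `D |α m - θ m| ≤ c₀ / 4`; at least
`K'/4 - 3/2 ≥ (M - i + 1) / 16` of them have `dz (D α m) ≥ c₀ / 4`, weight `≥ 1 / (M - i + 1)`. -/
theorem exists_nonres : ∃ lo hi : ℕ → ℝ,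
    (∀ j, 1 / 64 ^ (j + 1) ≤ lo j ∧ lo j < hi j ∧ hi j ≤ 2 / 64 ^ (j + 1)) ∧
    ∀ α : ℕ → ℝ, (∀ j, lo j < α j ∧ α j < hi j) → NonRes α := by
  obtain ⟨θ, hθ, hg⟩ := exists_greedy
  set c : ℝ := 1 / (48 * 64 ^ 3) with hc
  have hc0 : 0 < c := by positivity
  refine ⟨fun m => max (θ m - c / 2 / 64 ^ (2 * m + 2)) (1 / 64 ^ (m + 1)),
    fun m => min (θ m + c / 2 / 64 ^ (2 * m + 2)) (2 / 64 ^ (m + 1)), fun j => ⟨le_max_right _ _, ?_,
      min_le_right _ _⟩, fun α hα ε hε => ?_⟩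
  · have h1 : 0 < c / 2 / 64 ^ (2 * j + 2) := by positivity
    have h2 : (1 : ℝ) / 64 ^ (j + 1) < 2 / 64 ^ (j + 1) := by gcongr; norm_num
    obtain ⟨h3, h4⟩ := hθ j
    exact max_lt (lt_min (by linarith) (by linarith)) (lt_min (by linarith) h2)
  have a1 : ∀ m, 1 / 64 ^ (m + 1) ≤ α m := fun m => (le_max_right _ _).trans (hα m).1.le
  have a2 : ∀ m, α m ≤ 2 / 64 ^ (m + 1) := fun m => (hα m).2.le.trans (min_le_right _ _)
  have a3 : ∀ m, |θ m - α m| ≤ c / 2 / 64 ^ (2 * m + 2) := fun m => by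
    have h1 := (le_max_left _ _).trans (hα m).1.le
    have h2 := (hα m).2.le.trans (min_le_left _ _)
    rw [abs_le]
    constructor <;> linarith
  refine ⟨min (min ε 1 / 64 ^ 2 / 102) (c / 2 / 16), by positivity, fun i D hD => ?_⟩
  simp only [Greedy.dz_natAbs D]
  rw [← Int.cast_abs, ← Int.natCast_natAbs, Int.cast_natCast] at hD
  set N := D.natAbs
  have hN : N ≠ 0 := by
    intro h0
    rw [h0, Nat.cast_zero] at hD
    exact absurd hD (not_le.2 (by positivity))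
  have l1 : 64 ^ Nat.log 64 N ≤ N := Nat.pow_log_le_self 64 hN
  have l2 : N < 64 ^ (Nat.log 64 N + 1) := Nat.lt_pow_succ_log_self (by norm_num) N
  generalize Nat.log 64 N = M at l1 l2
  have hnn : ∀ k : ℕ, 0 ≤ dz (N * α (i + k)) / (k + 1) := fun k =>
    div_nonneg (Greedy.dz_nonneg _) (by positivity)
  by_cases hM : M ≤ i + 100
  · obtain ⟨k, hk1, hk2, hk3⟩ : ∃ k, k ≤ 101 ∧ M + 1 ≤ i + k ∧ (k = 0 ∨ i + k = M + 1) :=
      ⟨M + 1 - i, by omega, by omega, by omega⟩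
    refine ⟨k + 1, (min_le_left _ _).trans (le_trans ?_
      (single_le_sum (fun k _ => hnn k) (self_mem_range_succ k)))⟩
    have l1' : (64 : ℝ) ^ M ≤ N := by exact_mod_cast l1
    have l2' : (N : ℝ) ≤ 64 ^ (i + k) := by
      exact_mod_cast l2.le.trans (Nat.pow_le_pow_right (by norm_num) hk2)
    have b1 : min ε 1 / 64 ^ 2 ≤ N * α (i + k) := by
      refine le_trans ?_ (mul_le_mul_of_nonneg_left (a1 _) (Nat.cast_nonneg _))
      rw [mul_one_div, div_le_div_iff₀ (by positivity) (by positivity)]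
      rcases hk3 with rfl | h
      · have h1 : min ε 1 * 64 ^ i ≤ N := le_trans (by gcongr; exact min_le_left _ _) hD
        have h2 : (0 : ℝ) ≤ N := Nat.cast_nonneg _
        rw [add_zero, pow_succ]
        linarith
      · rw [h, add_assoc, pow_add]
        have h1 : min ε 1 * 64 ^ M ≤ N :=
          le_trans (mul_le_of_le_one_left (by positivity) (min_le_right _ _)) l1'
        rw [← mul_assoc]
        exact mul_le_mul_of_nonneg_right h1 (by positivity)
    have b2 : N * α (i + k) < 1 / 2 := by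
      have h1 : N * α (i + k) ≤ 64 ^ (i + k) * (2 / 64 ^ (i + k + 1)) :=
        mul_le_mul l2' (a2 _) (le_trans (by positivity) (a1 _)) (by positivity)
      have h2 : (64 : ℝ) ^ (i + k) * (2 / 64 ^ (i + k + 1)) = 1 / 32 := by
        rw [pow_succ]
        field_simp
        norm_num
      linarith
    rw [Greedy.dz_small (le_trans (by positivity) b1) b2]
    have hk' : (k : ℝ) + 1 ≤ 102 := by exact_mod_cast (by omega : k + 1 ≤ 102)
    exact div_le_div₀ (le_trans (by positivity) b1) b1 (by positivity) hk'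
  · obtain ⟨n, rfl⟩ : ∃ n, M = i + n + 1 := ⟨M - i - 1, by omega⟩
    have hb := hg (i + n) (n / 2) N (by omega) l1 l2
    set G := {k ∈ range (n / 2) | ¬ dz (N * θ (i + n - k)) < c} with hG
    have hcard := card_filter_add_card_filter_not (s := range (n / 2)) fun k => dz (N * θ (i + n - k)) < c
    rw [card_range, ← hG] at hcard
    have hG16 : ((n : ℝ) + 1) ≤ 16 * #G := by exact_mod_cast (by omega : n + 1 ≤ 16 * #G)
    refine ⟨n + 1, (min_le_right _ _).trans ?_⟩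
    rw [← sum_range_reflect]
    have hsub : G ⊆ range (n + 1) := fun k hk => by
      have := mem_range.1 (mem_filter.1 hk).1
      exact mem_range.2 (by omega)
    refine le_trans ?_ (sum_le_sum_of_subset_of_nonneg hsub fun k _ _ => hnn _)
    refine le_trans ?_ (card_nsmul_le_sum G _ (c / 2 / (n + 1)) fun k hk => ?_)
    · rw [nsmul_eq_mul, mul_div_assoc', div_le_div_iff₀ (by positivity) (by positivity)]
      nlinarith
    · obtain ⟨h1, h2⟩ := mem_filter.1 hk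
      have h3 := mem_range.1 h1
      rw [show i + (n + 1 - 1 - k) = i + n - k by omega]
      have h4 := Greedy.dz_add_le (N * α (i + n - k)) (N * (θ (i + n - k) - α (i + n - k)))
      rw [← mul_add, add_sub_cancel, abs_mul, Nat.abs_cast] at h4
      have h5 : (N : ℝ) ≤ 64 ^ (2 * (i + n - k) + 2) := by
        exact_mod_cast l2.le.trans (Nat.pow_le_pow_right (by norm_num) (by omega))
      have h6 : (N : ℝ) * |θ (i + n - k) - α (i + n - k)| ≤ c / 2 :=
        (mul_le_mul h5 (a3 _) (abs_nonneg _) (by positivity)).trans_eq (by field_simp)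
      have h7 : ((n + 1 - 1 - k : ℕ) : ℝ) + 1 ≤ n + 1 := by
        exact_mod_cast (by omega : n + 1 - 1 - k + 1 ≤ n + 1)
      have h8 := ((not_lt.1 h2).trans h4).trans (add_le_add_right h6 _)
      refine div_le_div₀ (Greedy.dz_nonneg _) ?_ (by positivity) h7
      generalize dz (N * α (i + n - k)) = x at h8
      linarith

end Crest.Agent.R113
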