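import Crest.Agent.R113.Op

/-! Row 113: elementary facts on `hit`, `rk`, `Bars`. -/

set_option autoImplicit false

namespace Crest.Agent.R113

open MeasureTheory Finset

variable {a : T}

lemma hit_le (B : Set T) (u : ℕ) (x : T) : hit a B u x ≤ 1 := by
  unfold hit; split_ifs <;> simp

lemma measurable_hit {B : Set T} (hB : MeasurableSet B) (u : ℕ) : Measurable (hit a B u) := by
  unfold hit
  refine Measurable.ite ?_ measurable_const measurable_const
  have : {x : T | ∃ v : ℕ, v < u ∧ x + v • a ∈ B} = ⋃ v, ⋃ _ : v < u, (· + v • a) ⁻¹' B := by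
    ext x; simp
  rw [this]
  exact MeasurableSet.iUnion fun v => MeasurableSet.iUnion fun _ => measurable_add_const _ hB

lemma measurable_rk {B : ℕ → Set T} (hB : ∀ j, MeasurableSet (B j)) (m u : ℕ) :
    Measurable (rk a B m u) := by
  unfold rk
  exact Finset.measurable_sum _ fun j _ => (measurable_hit (hB j) u).const_mul _

lemma sum_two_pow_lt (m M : ℕ) : ∑ j ∈ Ico m M, 2 ^ (j - m) < 2 ^ (M - m) := by
  rw [sum_Ico_eq_sum_range]
  simpa using Nat.geomSum_lt (m := 2) le_rfl (s := range (M - m)) (n := M - m)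
    fun k hk => mem_range.1 hk

lemma rk_le (B : ℕ → Set T) (m u : ℕ) (x : T) : rk a B m u x ≤ 2 ^ (m + 1) := by
  have h := sum_two_pow_lt m (2 * m + 1)
  rw [show 2 * m + 1 - m = m + 1 by omega] at h
  refine le_trans ?_ h.le
  rw [rk, ← Finset.Ico_add_one_right_eq_Icc]
  exact sum_le_sum fun j _ => by simpa using hit_le (B j) u x

lemma rk_mod (B : ℕ → Set T) (m u : ℕ) (x : T) : rk a B m u x % 2 = hit a (B m) u x := by
  rw [rk, ← Finset.add_sum_Ioc_eq_sum_Icc (by omega)]
  have h : 2 ∣ ∑ j ∈ Ioc m (2 * m), 2 ^ (j - m) * hit a (B j) u x :=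
    dvd_sum fun j hj => Dvd.dvd.mul_right (dvd_pow_self 2 (by have := mem_Ioc.1 hj; omega)) _
  have := hit_le (a := a) (B m) u x
  simp only [Nat.sub_self, pow_zero, one_mul]
  omega

/-- Parity. -/
lemma abs_hit_le_abs_rk (B : ℕ → Set T) (m u : ℕ) (x y : T) :
    |(hit a (B m) u x : ℝ) - hit a (B m) u y| ≤ |(rk a B m u x : ℝ) - rk a B m u y| := by
  have h1 := rk_mod (a := a) B m u x
  have h2 := rk_mod (a := a) B m u y
  have h : |(hit a (B m) u x : ℤ) - hit a (B m) u y| ≤ |(rk a B m u x : ℤ) - rk a B m u y| := by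
    rw [← h1, ← h2]
    rcases abs_cases ((rk a B m u x : ℤ) - rk a B m u y) with h | h <;> rw [abs_le] <;> omega
  exact_mod_cast h

/-- At most one visit in `u ≤ N` steps. -/
lemma sum_indicator_eq_hit {B : Set T} {N : ℕ}
    (hgap : ∀ x ∈ B, ∀ u : ℕ, 0 < u → u < N → x + u • a ∉ B) {u : ℕ} (hu : u ≤ N) (c : ℝ) (x : T) :
    ∑ v ∈ range u, B.indicator (fun _ => c) (x + v • a) = c * hit a B u x := by
  unfold hit
  split_ifs with h
  · obtain ⟨v, hv, hx⟩ := h
    rw [sum_eq_single_of_mem v (mem_range.2 hv), Set.indicator_of_mem hx]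
    · simp
    · intro w hw hne
      have hw' := mem_range.1 hw
      refine Set.indicator_of_notMem (fun hxw => ?_) _
      rcases lt_or_gt_of_ne hne with hlt | hlt
      · refine hgap _ hxw (v - w) (by omega) (by omega) ?_
        rwa [add_assoc, ← add_nsmul, Nat.add_sub_cancel' hlt.le]
      · refine hgap _ hx (w - v) (by omega) (by omega) ?_
        rwa [add_assoc, ← add_nsmul, Nat.add_sub_cancel' hlt.le]
  · simp only [Nat.cast_zero, mul_zero]
    exact sum_eq_zero fun v hv => Set.indicator_of_notMem (fun hx => h ⟨v, mem_range.1 hv, hx⟩) _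

/-- Lexicographic order: look at the largest `j` where the bits differ. -/
lemma lex {b b' : ℕ → ℕ} (hb : ∀ j, b j ≤ 1) (hb' : ∀ j, b' j ≤ 1) {c : ℕ → ℝ} (hc : ∀ j, 0 ≤ c j)
    {m M : ℕ} (h : ∑ j ∈ Icc m M, 2 ^ (j - m) * b' j < ∑ j ∈ Icc m M, 2 ^ (j - m) * b j) :
    ∃ j ∈ Icc m M, c j - ∑ l ∈ range j, c l ≤
      ∑ j ∈ Icc m M, c j * b j - ∑ j ∈ Icc m M, c j * b' j := by
  induction M with
  | zero =>
    obtain rfl | hm := Nat.eq_zero_or_pos m
    · refine ⟨0, by simp, ?_⟩
      have h1 := hb 0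
      simp only [Icc_self, sum_singleton, Nat.sub_self, pow_zero, one_mul] at h ⊢
      obtain ⟨e1, e2⟩ : b 0 = 1 ∧ b' 0 = 0 := by omega
      simp [e1, e2]
    · rw [Icc_eq_empty (by omega)] at h; simp at h
  | succ M ih =>
    by_cases hm : m ≤ M + 1
    · rw [← Finset.Ico_add_one_right_eq_Icc] at h ih ⊢
      rw [sum_Ico_succ_top hm, sum_Ico_succ_top hm] at h
      rw [sum_Ico_succ_top hm, sum_Ico_succ_top hm]
      have h1 := hb (M + 1)
      have h2 := hb' (M + 1)
      rcases lt_trichotomy (b (M + 1)) (b' (M + 1)) with hlt | heq | hlt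
      · exfalso
        obtain ⟨e1, e2⟩ : b (M + 1) = 0 ∧ b' (M + 1) = 1 := by omega
        have h3 : ∑ j ∈ Ico m (M + 1), 2 ^ (j - m) * b j ≤ ∑ j ∈ Ico m (M + 1), 2 ^ (j - m) :=
          sum_le_sum fun j _ => by simpa using hb j
        have h4 := sum_two_pow_lt m (M + 1)
        rw [e1, e2] at h
        omega
      · rw [heq] at h ⊢
        obtain ⟨j, hj, hj'⟩ := ih (by omega)
        exact ⟨j, mem_Ico.2 ⟨(mem_Ico.1 hj).1, by have := (mem_Ico.1 hj).2; omega⟩, by linarith⟩
      · obtain ⟨e1, e2⟩ : b (M + 1) = 1 ∧ b' (M + 1) = 0 := by omega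
        refine ⟨M + 1, mem_Ico.2 ⟨hm, by omega⟩, ?_⟩
        have h3 : 0 ≤ ∑ j ∈ Ico m (M + 1), c j * b j :=
          sum_nonneg fun j _ => mul_nonneg (hc j) (Nat.cast_nonneg _)
        have h4 : ∑ j ∈ Ico m (M + 1), c j * b' j ≤ ∑ j ∈ Ico m (M + 1), c j :=
          sum_le_sum fun j _ => mul_le_of_le_one_right (hc j) (by exact_mod_cast hb' j)
        have h5 : ∑ j ∈ Ico m (M + 1), c j ≤ ∑ j ∈ range (M + 1), c j :=
          sum_le_sum_of_subset_of_nonneg (fun j hj => mem_range.2 (mem_Ico.1 hj).2)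
            fun j _ _ => hc j
        rw [e1, e2]; push_cast; linarith
    · rw [Icc_eq_empty hm] at h; simp at h

lemma measure_preimage_add' (c : T) (B : Set T) :
    volume.real ((· + c) ⁻¹' B) = volume.real B := by
  simp only [measureReal_def, measure_preimage_add_right]

/-- The translates `B - u a`, `u < N`, are disjoint. -/
lemma Bars.measure_le (b : Bars a) (j : ℕ) : volume.real (b.B j) ≤ 1 / (16 * 64 ^ j) := by
  have h1 : ∀ x, ∑ v ∈ range (b.N j), (b.B j).indicator (fun _ => (1 : ℝ)) (x + v • a) ≤ 1 :=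
    fun x => by
      rw [sum_indicator_eq_hit (b.gap j) le_rfl, one_mul]; exact_mod_cast hit_le _ _ _
  have hb : Bd ((b.B j).indicator fun _ => (1 : ℝ)) := (Bd.const 1).indicator (b.meas j)
  have h2 := integral_mono (μ := volume) (integrable_finsetSum _ fun v _ =>
    (hb.comp (measurable_add_const (v • a))).integrable _) (integrable_const 1) h1
  rw [integral_finsetSum _ fun v _ => (hb.comp (measurable_add_const (v • a))).integrable _] at h2
  simp only [integral_add_right_eq_self, integral_indicator_const _ (b.meas j), sum_const,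
    card_range, nsmul_eq_mul, smul_eq_mul, mul_one, integral_const, probReal_univ] at h2
  have h3 : (16 : ℝ) * 64 ^ j ≤ b.N j := by exact_mod_cast b.N_ge j
  rw [le_div_iff₀ (by positivity)]
  nlinarith [measureReal_nonneg (μ := volume) (s := b.B j)]

/-- The translates `B - u a`, `u < Λ`, cover. -/
lemma Bars.measure_ge (b : Bars a) (j : ℕ) : 1 ≤ b.Λ j * volume.real (b.B j) := by
  have h1 : (Set.univ : Set T) ⊆ ⋃ u ∈ range (b.Λ j), (· + u • a) ⁻¹' b.B j := fun x _ => by
    obtain ⟨u, hu, hx⟩ := b.ret j x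
    exact Set.mem_iUnion₂.2 ⟨u, mem_range.2 hu, hx⟩
  have h2 := (measureReal_mono (μ := volume) h1 (measure_ne_top _ _)).trans (measureReal_biUnion_finset_le _ _)
  simpa [measure_preimage_add'] using h2

lemma Bars.measure_tail (b : Bars a) (i : ℕ) :
    volume.real (⋃ j, ⋃ _ : i ≤ j, b.B j) ≤ 1 / (8 * 64 ^ i) := by
  have h1 : (⋃ j, ⋃ _ : i ≤ j, b.B j) = ⋃ k, b.B (i + k) := by
    ext x
    simp only [Set.mem_iUnion, exists_prop]
    exact ⟨fun ⟨j, hj, hx⟩ => ⟨j - i, by rwa [Nat.add_sub_cancel' hj]⟩,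
      fun ⟨k, hk⟩ => ⟨i + k, by omega, hk⟩⟩
  have h2 : HasSum (fun k : ℕ => 1 / (16 * 64 ^ i) * (1 / 2 : ℝ) ^ k) (1 / (16 * 64 ^ i) * 2) :=
    hasSum_geometric_two.mul_left _
  have h3 : ∀ k, volume.real (b.B (i + k)) ≤ 1 / (16 * 64 ^ i) * (1 / 2 : ℝ) ^ k := fun k => by
    refine (b.measure_le _).trans ?_
    rw [one_div_pow, one_div_mul_one_div, pow_add, mul_assoc]
    gcongr; norm_num
  have h4 : volume (⋃ k, b.B (i + k)) ≤ ENNReal.ofReal (1 / (16 * 64 ^ i) * 2) := by
    rw [← h2.tsum_eq, ENNReal.ofReal_tsum_of_nonneg (fun k => by positivity) h2.summable]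
    refine (measure_iUnion_le _).trans (ENNReal.tsum_le_tsum fun k => ?_)
    rw [← ofReal_measureReal]
    exact ENNReal.ofReal_le_ofReal (h3 k)
  rw [h1]
  refine (ENNReal.toReal_le_of_le_ofReal (by positivity) h4).trans (le_of_eq ?_)
  field_simp; norm_num

end Crest.Agent.R113
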