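import Crest.Agent.R113.Cov

/-! Row 113: auxiliary lemmas for `test_layer`. -/

set_option autoImplicit false
set_option maxHeartbeats 400000

namespace Crest.Agent.R113

open MeasureTheory Finset

lemma tla_quad (s : Finset ℕ) {f : ℕ → T → ℝ} (hf : ∀ k, Bd (f k)) {c : ℕ → ℕ → ℝ}
    (hc : ∀ k k', ∫ x, f k x * f k' x ≤ c k k') :
    ∫ x, (∑ k ∈ s, f k x) ^ 2 ≤ ∑ k ∈ s, ∑ k' ∈ s, c k k' := by
  simp only [sq, Finset.sum_mul_sum]
  rw [integral_finsetSum _ fun k _ =>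
    (Bd.sum s fun k' _ => (hf k).mul (hf k')).integrable _]
  refine Finset.sum_le_sum fun k _ => ?_
  rw [integral_finsetSum _ fun k' _ => ((hf k).mul (hf k')).integrable _]
  exact Finset.sum_le_sum fun k' _ => hc k k'

lemma tla_avg (A B : Finset ℕ) {e e' : ℕ → T → ℝ} (he : ∀ u, Bd (e u)) (he' : ∀ u, Bd (e' u))
    {c : ℝ} (hc : ∀ u ∈ A, ∀ u' ∈ B, ∫ x, e u x * e' u' x ≤ c) :
    ∫ x, (∑ u ∈ A, e u x) * ∑ u ∈ B, e' u x ≤ #A * #B * c := by
  simp only [Finset.sum_mul_sum]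
  rw [integral_finsetSum _ fun u _ =>
    (Bd.sum B fun u' _ => (he u).mul (he' u')).integrable _]
  calc _ ≤ ∑ u ∈ A, ∑ u' ∈ B, c := by
        refine Finset.sum_le_sum fun u hu => ?_
        rw [integral_finsetSum _ fun u' _ => ((he u).mul (he' u')).integrable _]
        exact Finset.sum_le_sum fun u' hu' => hc u hu u' hu'
    _ = _ := by simp [mul_assoc]

lemma tla_cov4 {n n' : ℕ} (hn : 1 ≤ n) (hn' : 1 ≤ n') (s₁ s₂ t₁ t₂ : ℝ) {l l' : ℝ} (h0 : 0 ≤ l)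
    (h1 : l ≤ 1) (h0' : 0 ≤ l') (h1' : l' ≤ 1) :
    ∫ x, (ia n s₁ l x - ia n s₂ l x) * (ia n' t₁ l' x - ia n' t₂ l' x) ≤ 8 * (n / n') := by
  have hi : ∀ s t, Integrable (fun x => ia n s l x * ia n' t l' x) := fun s t =>
    ((bd_ia n s l).mul (bd_ia n' t l')).integrable _
  have e : (fun x => (ia n s₁ l x - ia n s₂ l x) * (ia n' t₁ l' x - ia n' t₂ l' x)) =
      fun x => (ia n s₁ l x * ia n' t₁ l' x - ia n s₁ l x * ia n' t₂ l' x) -
        (ia n s₂ l x * ia n' t₁ l' x - ia n s₂ l x * ia n' t₂ l' x) := by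
    funext x; ring
  have i1 : Integrable fun x => ia n s₁ l x * ia n' t₁ l' x - ia n s₁ l x * ia n' t₂ l' x :=
    (hi _ _).sub (hi _ _)
  have i2 : Integrable fun x => ia n s₂ l x * ia n' t₁ l' x - ia n s₂ l x * ia n' t₂ l' x :=
    (hi _ _).sub (hi _ _)
  rw [e, integral_sub i1 i2, integral_sub (hi _ _) (hi _ _), integral_sub (hi _ _) (hi _ _)]
  have c1 := abs_le.1 (cov hn hn' s₁ t₁ h0 h1 h0' h1')
  have c2 := abs_le.1 (cov hn hn' s₁ t₂ h0 h1 h0' h1')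
  have c3 := abs_le.1 (cov hn hn' s₂ t₁ h0 h1 h0' h1')
  have c4 := abs_le.1 (cov hn hn' s₂ t₂ h0 h1 h0' h1')
  rw [mul_div_assoc] at c1 c2 c3 c4
  linarith [c1.2, c2.1, c3.1, c4.2]

lemma tla_ia01 (n : ℕ) (s l : ℝ) (x : T) : ia n s l x = 0 ∨ ia n s l x = 1 := by
  unfold ia
  by_cases h : n • x ∈ arc s l <;> simp [h]

lemma tla_diag {n : ℕ} (hn : 1 ≤ n) (n' : ℕ) (s₁ s₂ t₁ t₂ : ℝ) {l : ℝ} (l' : ℝ) (h0 : 0 ≤ l)
    (h1 : l ≤ 1) :
    ∫ x, (ia n s₁ l x - ia n s₂ l x) * (ia n' t₁ l' x - ia n' t₂ l' x) ≤ 2 * l := by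
  calc _ ≤ ∫ x, (ia n s₁ l x + ia n s₂ l x) := by
        refine integral_mono ((((bd_ia _ _ _).sub (bd_ia _ _ _)).mul
          ((bd_ia _ _ _).sub (bd_ia _ _ _))).integrable _)
          (((bd_ia _ _ _).add (bd_ia _ _ _)).integrable _) fun x => ?_
        rcases tla_ia01 n s₁ l x with a | a <;> rcases tla_ia01 n s₂ l x with b | b <;>
          rcases tla_ia01 n' t₁ l' x with c | c <;> rcases tla_ia01 n' t₂ l' x with d | d <;>
          simp only [a, b, c, d] <;> norm_num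
    _ = 2 * l := by
        rw [integral_add ((bd_ia _ _ _).integrable _) ((bd_ia _ _ _).integrable _),
          integral_ia hn _ h0 h1, integral_ia hn _ h0 h1]
        ring

lemma tla_inv_sq (s : Finset ℕ) : ∑ k ∈ s, 1 / (((k : ℝ) + 1) * (k + 1)) ≤ 2 := by
  have h : ∀ M : ℕ, ∑ k ∈ range M, 1 / (((k : ℝ) + 1) * (k + 1)) ≤ 2 - 2 / (M + 1) := by
    intro M
    induction M with
    | zero => norm_num
    | succ M ih =>
      rw [Finset.sum_range_succ]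
      have : 1 / (((M : ℝ) + 1) * (M + 1)) ≤ 2 / (M + 1) - 2 / (M + 1 + 1) := by
        rw [div_sub_div _ _ (by positivity) (by positivity),
          div_le_div_iff₀ (by positivity) (by positivity)]
        have : (0 : ℝ) ≤ M := Nat.cast_nonneg M
        nlinarith [mul_nonneg this this, mul_nonneg this (mul_nonneg this this)]
      push_cast
      linarith
  obtain ⟨M, hM⟩ := s.exists_nat_subset_range
  calc _ ≤ ∑ k ∈ range M, 1 / (((k : ℝ) + 1) * (k + 1)) :=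
        Finset.sum_le_sum_of_subset_of_nonneg hM fun _ _ _ => by positivity
    _ ≤ 2 - 2 / (M + 1) := h M
    _ ≤ 2 := by have : (0 : ℝ) ≤ 2 / (M + 1) := by positivity
                linarith

lemma tla_geom (s : Finset ℕ) : ∑ k ∈ s, (1 / 4 : ℝ) ^ k ≤ 2 := by
  refine ((summable_geometric_of_lt_one (by norm_num) (by norm_num)).sum_le_tsum s
    fun _ _ => by positivity).trans ?_
  rw [tsum_geometric_of_lt_one (by norm_num) (by norm_num)]
  norm_num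

lemma tla_lac {n : ℕ → ℕ} (hpos : ∀ j, 1 ≤ n j) (lac : ∀ j, 16 ^ (j + 1) * n j ≤ n (j + 1))
    {j j' : ℕ} (h : j < j') : (n j : ℝ) / n j' ≤ (1 / 16) ^ j' := by
  have hm : Monotone n := monotone_nat_of_le_succ fun j =>
    le_trans (Nat.le_mul_of_pos_left _ (by positivity)) (lac j)
  obtain ⟨m, rfl⟩ : ∃ m, j' = m + 1 := ⟨j' - 1, by omega⟩
  have h1 : 16 ^ (m + 1) * n j ≤ n (m + 1) :=
    le_trans (Nat.mul_le_mul_left _ (hm (by omega))) (lac m)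
  have h2 : (16 : ℝ) ^ (m + 1) * n j ≤ n (m + 1) := by exact_mod_cast h1
  have h3 : (0 : ℝ) < n (m + 1) := by exact_mod_cast hpos _
  rw [one_div_pow, div_le_div_iff₀ h3 (by positivity)]
  linarith

lemma tla_pow {i l k k' : ℕ} (h : k ≤ k') :
    (1 / 16 : ℝ) ^ (i + k' + l) ≤ (1 / 16) ^ l * ((1 / 4) ^ k * (1 / 4) ^ k') := by
  have e : (1 / 16 : ℝ) = (1 / 4) ^ 2 := by norm_num
  rw [e, ← pow_mul, ← pow_mul, ← pow_add, ← pow_add]
  exact pow_le_pow_of_le_one (by norm_num) (by norm_num) (by omega)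

lemma tla_final (s : Finset ℕ) (l : ℕ) :
    ∑ k ∈ s, ∑ k' ∈ s, ((if k = k' then 4 * (1 / 16 : ℝ) ^ l * (1 / (((k : ℝ) + 1) * (k + 1)))
      else 0) + 8 * ((1 / 16) ^ l * ((1 / 4) ^ k * (1 / 4) ^ k'))) ≤ 100 / 16 ^ l := by
  simp only [Finset.sum_add_distrib, Finset.sum_ite_eq, ← Finset.mul_sum, ← Finset.sum_mul]
  rw [Finset.sum_ite_of_true fun _ h => h, ← Finset.mul_sum]
  have h1 := tla_inv_sq s
  have h2 := tla_geom s
  have h3 : (0 : ℝ) ≤ ∑ k ∈ s, (1 / 4 : ℝ) ^ k := by positivity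
  have h4 : (∑ k ∈ s, (1 / 4 : ℝ) ^ k) * ∑ k ∈ s, (1 / 4 : ℝ) ^ k ≤ 2 * 2 :=
    mul_le_mul h2 h2 h3 (by norm_num)
  have h5 : (0 : ℝ) ≤ (1 / 16) ^ l := by positivity
  have h6 : (100 : ℝ) / 16 ^ l = 100 * (1 / 16) ^ l := by rw [one_div_pow]; ring
  rw [h6]
  nlinarith [mul_le_mul_of_nonneg_left h1 h5, mul_le_mul_of_nonneg_left h4 h5]

end Crest.Agent.R113
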