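import Crest.Agent.R113.Cov
import Crest.Agent.R113.Hit

/-! Row 113: the `L²` bound for the test functions, from the layer estimate. -/

set_option autoImplicit false

namespace Crest.Agent.R113

open MeasureTheory Finset

lemma tb_cs {f g : T → ℝ} (hf : Bd f) (hg : Bd g) :
    ∫ x, f x * g x ≤ √(∫ x, f x ^ 2) * √(∫ x, g x ^ 2) := by
  have hff : Integrable (fun x => f x ^ 2) volume := by
    simpa only [sq] using (hf.mul hf).integrable volume
  have hgg : Integrable (fun x => g x ^ 2) volume := by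
    simpa only [sq] using (hg.mul hg).integrable volume
  have hfg := (hf.mul hg).integrable (volume : Measure T)
  have h := discrim_le_zero (a := ∫ x, f x ^ 2) (b := 2 * ∫ x, f x * g x) (c := ∫ x, g x ^ 2)
    fun t => by
      have h1 : 0 ≤ ∫ x, (t * f x + g x) ^ 2 := integral_nonneg fun x => sq_nonneg _
      have h2 : (fun x => (t * f x + g x) ^ 2) =
          fun x => (t * t) * f x ^ 2 + (2 * t) * (f x * g x) + g x ^ 2 := by
        funext x; ring
      rw [h2, integral_add (by exact (hff.const_mul _).add (hfg.const_mul _)) hgg,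
        integral_add (hff.const_mul _) (hfg.const_mul _), integral_const_mul,
        integral_const_mul] at h1
      linarith
  rw [← Real.sqrt_mul (integral_nonneg fun x => sq_nonneg _)]
  refine Real.le_sqrt_of_sq_le ?_
  rw [discrim] at h
  linarith

lemma tb_geom (K : ℕ) : ∑ k ∈ range K, (1 / 2 : ℝ) ^ k ≤ 2 := by
  have := Summable.sum_le_tsum (range K) (fun k _ => by positivity) summable_geometric_two
  rwa [tsum_geometric_two] at this

lemma tb_rk (a : T) (B : ℕ → Set T) (m u : ℕ) (x : T) :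
    (rk a B m u x : ℝ) = ∑ l ∈ range (m + 1), 2 ^ l * (hit a (B (m + l)) u x : ℝ) := by
  rw [rk, ← Finset.Ico_add_one_right_eq_Icc, Finset.sum_Ico_eq_sum_range,
    show 2 * m + 1 - m = m + 1 by omega]
  push_cast
  simp

lemma tb_bd_hit {a : T} {B : Set T} (hB : MeasurableSet B) (u : ℕ) :
    Bd fun x => (hit a B u x : ℝ) :=
  Bd.of_abs (measurable_from_top.comp (measurable_hit hB u)) (C := 1) fun x => by
    rw [abs_of_nonneg (by positivity)]
    exact_mod_cast hit_le B u x

lemma tb_replace {ψ f g : T → ℝ} (hψ : Bd ψ) (hψ1 : ∀ x, |ψ x| ≤ 1) (hf : Bd f) (hg : Bd g)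
    (c : T) {ε : ℝ} (h : ∫ x, |f x - g x| ≤ ε) :
    ∫ x, ψ x * (f x - f (x - c)) ≤ (∫ x, ψ x * (g x - g (x - c))) + 2 * ε := by
  have hm : Measurable fun x : T => x - c := measurable_sub_const c
  have habs : Bd fun x => |f x - g x| :=
    ⟨(hf.sub hg).1.abs, (hf.sub hg).2.imp fun _ hC x => by simpa using hC x⟩
  have h2 : ∫ x, |f (x - c) - g (x - c)| = ∫ x, |f x - g x| :=
    integral_sub_right_eq_self (fun x => |f x - g x|) c
  have h3 : ∫ x, ψ x * (f x - f (x - c)) ≤
      ∫ x, (ψ x * (g x - g (x - c)) + (|f x - g x| + |f (x - c) - g (x - c)|)) := by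
    refine integral_mono ((hψ.mul (hf.sub (hf.comp hm))).integrable _)
      (((hψ.mul (hg.sub (hg.comp hm))).add (habs.add (habs.comp hm))).integrable _) fun x => ?_
    have e1 : ∀ y : ℝ, ψ x * y ≤ |y| := fun y => (le_abs_self _).trans (by
      rw [abs_mul]; exact mul_le_of_le_one_left (abs_nonneg _) (hψ1 x))
    have e2 := e1 (f x - g x)
    have e3 := e1 (-(f (x - c) - g (x - c)))
    rw [abs_neg] at e3
    simp only []
    linarith
  rw [integral_add ((hψ.mul (hg.sub (hg.comp hm))).integrable _)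
    ((habs.add (habs.comp hm)).integrable _), integral_add (habs.integrable _)
    ((habs.comp hm).integrable _), h2] at h3
  linarith

theorem testBd_aux {a : T} {N : ℕ → ℕ} (hN : ∀ j, 1 ≤ N j) (hmono : Monotone N) {B : ℕ → Set T}
    (hB : ∀ j, MeasurableSet (B j)) {I : ℕ → ℕ → T → ℝ} (hI : ∀ j u, Bd (I j u))
    (hlayer : ∀ (i l : ℕ) (s : Finset ℕ), ∫ x, (∑ k ∈ s, (∑ u ∈ Icc 1 (N (i + k)),
      (I (i + k + l) u x - I (i + k + l) u (x - u • a))) / (N (i + k) * (k + 1))) ^ 2 ≤
        100 / 16 ^ l)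
    (hid : ∀ j u, u ≤ N j → ∫ x, |(hit a (B j) u x : ℝ) - I j u x| ≤
      2 * 2 ^ j * (2 / 64 ^ (j + 1))) : TestBd a B N := by
  refine ⟨20, by norm_num, fun i K ψ hψm hψ1 => ?_⟩
  have hψ : Bd ψ := Bd.of_abs hψm hψ1
  have hm : ∀ c : T, Measurable fun x : T => x - c := fun c => measurable_sub_const c
  set Y : ℕ → ℕ → T → ℝ := fun k l x => (∑ u ∈ Icc 1 (N (i + k)),
    (I (i + k + l) u x - I (i + k + l) u (x - u • a))) / (N (i + k) * (k + 1)) with hY
  have hYb : ∀ k l, Bd (Y k l) := fun k l => by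
    simp only [hY, div_eq_mul_inv]
    exact (Bd.sum _ fun u _ => (hI _ _).sub ((hI _ _).comp (hm _))).mul (Bd.const _)
  have hYi : ∀ k l, ∫ x, ψ x * Y k l x = (∑ u ∈ Icc 1 (N (i + k)),
      ∫ x, ψ x * (I (i + k + l) u x - I (i + k + l) u (x - u • a))) / (N (i + k) * (k + 1)) := by
    intro k l
    rw [← integral_finsetSum _ fun u _ =>
      (hψ.mul ((hI _ _).sub ((hI _ _).comp (hm _)))).integrable _, ← integral_div]
    simp only [hY, ← mul_sum, mul_div_assoc]
  have step : ∀ k, (∑ u ∈ Icc 1 (N (i + k)),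
        ∫ x, ψ x * ((rk a B (i + k) u x : ℝ) - rk a B (i + k) u (x - u • a))) /
          (N (i + k) * (k + 1)) ≤
      ∑ l ∈ range (i + k + 1), (2 ^ l * ∫ x, ψ x * Y k l x) + 2 * (1 / 2) ^ (i + k) := by
    intro k
    have hN0 : (0 : ℝ) < N (i + k) := by exact_mod_cast hN (i + k)
    have hk0 : (0 : ℝ) ≤ k := by positivity
    have h1 : ∀ u ∈ Icc 1 (N (i + k)),
        ∫ x, ψ x * ((rk a B (i + k) u x : ℝ) - rk a B (i + k) u (x - u • a)) ≤
        ∑ l ∈ range (i + k + 1), (2 ^ l *
          ∫ x, ψ x * (I (i + k + l) u x - I (i + k + l) u (x - u • a))) + 2 * (1 / 2) ^ (i + k) := by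
      intro u hu
      have e1 : (fun x => ψ x * ((rk a B (i + k) u x : ℝ) - rk a B (i + k) u (x - u • a))) =
          fun x => ∑ l ∈ range (i + k + 1), 2 ^ l * (ψ x * ((hit a (B (i + k + l)) u x : ℝ) -
            hit a (B (i + k + l)) u (x - u • a))) := by
        funext x
        rw [tb_rk, tb_rk, ← sum_sub_distrib, mul_sum]
        exact sum_congr rfl fun l _ => by ring
      rw [e1, integral_finsetSum _ fun l _ => ((hψ.mul ((tb_bd_hit (hB _) u).sub
        ((tb_bd_hit (hB _) u).comp (hm _)))).integrable _).const_mul _]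
      have e2 : 2 * (1 / 2 : ℝ) ^ (i + k) ≥
          ∑ l ∈ range (i + k + 1), (1 / 2 : ℝ) ^ (i + k) * (1 / 2) ^ l := by
        rw [← mul_sum, mul_comm]
        exact mul_le_mul_of_nonneg_left (tb_geom _) (by positivity)
      refine le_trans ?_ (add_le_add_right e2 _)
      rw [← sum_add_distrib]
      refine sum_le_sum fun l _ => ?_
      have e3 := tb_replace hψ hψ1 (tb_bd_hit (a := a) (hB (i + k + l)) u) (hI (i + k + l) u) (u • a)
        (hid (i + k + l) u ((mem_Icc.1 hu).2.trans (hmono (by omega))))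
      have e4 : (2 : ℝ) ^ l * (2 * (2 * 2 ^ (i + k + l) * (2 / 64 ^ (i + k + l + 1)))) ≤
          (1 / 2) ^ (i + k) * (1 / 2) ^ l := by
        have e5 : (2 : ℝ) ^ l ≤ 2 ^ (i + k + l) := pow_le_pow_right₀ (by norm_num) (by omega)
        have e6 : (64 : ℝ) ^ (i + k + l + 1) = 64 * (2 ^ (i + k + l)) ^ 6 := by
          rw [← pow_mul, mul_comm (i + k + l), pow_mul]; norm_num; ring
        have e7 : (1 : ℝ) ≤ 2 ^ (i + k + l) := one_le_pow₀ (by norm_num)
        rw [← pow_add, one_div_pow, e6]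
        generalize (2 : ℝ) ^ (i + k + l) = y at e5 e7 ⊢
        have e8 : y ^ 3 ≤ y ^ 6 := pow_le_pow_right₀ e7 (by norm_num)
        have e9 : (0 : ℝ) < y := by linarith
        refine le_trans (mul_le_mul_of_nonneg_right e5 (by positivity)) ?_
        rw [le_div_iff₀ e9]
        have : y * (2 * (2 * y * (2 / (64 * y ^ 6)))) * y = y ^ 3 / (8 * y ^ 6) := by
          field_simp; ring
        rw [this, div_le_one (by positivity)]
        nlinarith [pow_pos e9 6]
      rw [integral_const_mul]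
      have e5 := mul_le_mul_of_nonneg_left e3 (show (0 : ℝ) ≤ 2 ^ l by positivity)
      linarith
    refine le_trans (div_le_div_of_nonneg_right (sum_le_sum h1) (by positivity)) ?_
    rw [sum_add_distrib, add_div, sum_comm, sum_div, sum_const, Nat.card_Icc, Nat.add_sub_cancel,
      nsmul_eq_mul]
    refine add_le_add (le_of_eq (sum_congr rfl fun l _ => ?_)) ?_
    · rw [hYi, ← mul_sum, mul_div_assoc]
    · rw [mul_div_mul_left _ _ hN0.ne']
      exact div_le_self (by positivity) (by linarith)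
  refine le_trans (sum_le_sum fun k _ => step k) ?_
  rw [sum_add_distrib]
  refine add_le_add ?_ ?_
  · have e1 : ∑ k ∈ range K, ∑ l ∈ range (i + k + 1), (2 ^ l * ∫ x, ψ x * Y k l x) =
        ∑ l ∈ range (i + K), 2 ^ l *
          ∫ x, ψ x * ∑ k ∈ (range K).filter (fun k => l ≤ i + k), Y k l x := by
      rw [sum_comm' (t' := range (i + K)) (s' := fun l => (range K).filter fun k => l ≤ i + k)
        (by intro k l; simp only [mem_range, mem_filter]; omega)]
      refine sum_congr rfl fun l _ => ?_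
      rw [← mul_sum, ← integral_finsetSum _ fun k _ => (hψ.mul (hYb k l)).integrable _]
      simp only [mul_sum]
    rw [e1]
    have e2 : ∀ l ∈ range (i + K), (2 : ℝ) ^ l *
        ∫ x, ψ x * ∑ k ∈ (range K).filter (fun k => l ≤ i + k), Y k l x ≤
        10 * √(∫ x, ψ x ^ 2) * (1 / 2) ^ l := by
      intro l _
      have e3 := tb_cs hψ (Bd.sum ((range K).filter fun k => l ≤ i + k) fun k _ => hYb k l)
      have e4 : √(∫ x, (∑ k ∈ (range K).filter (fun k => l ≤ i + k), Y k l x) ^ 2) ≤
          10 / 4 ^ l := by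
        refine Real.sqrt_le_iff.2 ⟨by positivity, (hlayer i l _).trans (le_of_eq ?_)⟩
        rw [div_pow, ← pow_mul, mul_comm l, pow_mul]; norm_num
      have e5 := mul_le_mul_of_nonneg_left (e3.trans (mul_le_mul_of_nonneg_left e4
        (Real.sqrt_nonneg _))) (show (0 : ℝ) ≤ 2 ^ l by positivity)
      refine e5.trans (le_of_eq ?_)
      rw [show (4 : ℝ) ^ l = 2 ^ l * 2 ^ l by rw [← mul_pow]; norm_num, one_div_pow]
      field_simp
    refine le_trans (sum_le_sum e2) ?_
    rw [← mul_sum]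
    have := mul_le_mul_of_nonneg_left (tb_geom (i + K))
      (show 0 ≤ 10 * √(∫ x, ψ x ^ 2) by positivity)
    linarith
  · simp only [pow_add, ← mul_assoc, ← mul_sum]
    have := mul_le_mul_of_nonneg_left (tb_geom K) (show (0 : ℝ) ≤ 2 * (1 / 2) ^ i by positivity)
    refine this.trans ?_
    rw [one_div_pow, div_eq_mul_one_div 20]
    have : (0 : ℝ) ≤ 1 / 2 ^ i := by positivity
    linarith

end Crest.Agent.R113
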