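import Crest.Agent.R113.Cov
import Crest.Agent.R113.Hit
import Crest.Agent.R113.TestAuxA
import Crest.Agent.R113.TestAuxB

/-! Row 113: the `L²` bound for the test functions. -/

set_option autoImplicit false

namespace Crest.Agent.R113

open MeasureTheory Finset

/-- Hypotheses on the sequence of clocks. -/
structure Clks (θ : ℝ) (n N : ℕ → ℕ) : Prop where
  n_pos : ∀ j, 1 ≤ n j
  lac : ∀ j, 16 ^ (j + 1) * n j ≤ n (j + 1)
  α_le : ∀ j, Int.fract (n j * θ) ≤ 2 / 64 ^ (j + 1)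
  N_pos : ∀ j, 1 ≤ N j
  N_le : ∀ j, N j ≤ 64 ^ (j + 1)
  N_mul : ∀ j, N j * Int.fract (n j * θ) ≤ 1
  N_mono : Monotone N

/-- Ideal version of `hit` at level `j`. -/
noncomputable def ide (θ : ℝ) (n : ℕ → ℕ) (j u : ℕ) : T → ℝ :=
  ia (n j) (1 - u * Int.fract (n j * θ)) (u * Int.fract (n j * θ))

/-- `Y k = N⁻¹ ∑_u (ide (i+k+l) u x - ide (i+k+l) u (x - u θ))`, `N = N (i+k)`, satisfies
`∫ Y k ² ≤ 4 / 64^l` (each term `e` has `e² ≤` sum of two indicators of measure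
`u α ≤ 2 / 64^l`; Cauchy-Schwarz over `u`) and for `k < k'`: `|∫ Y k Y k'| ≤ 8 n_j / n_j' ≤
8 / 16^(k'+l)` (`cov` four times, `ia_sub`). Expand the square; `∑ 1/(k+1)² ≤ 2`. -/
theorem test_layer {θ : ℝ} {n N : ℕ → ℕ} (h : Clks θ n N) (i l : ℕ) (s : Finset ℕ) :
    ∫ x, (∑ k ∈ s, (∑ u ∈ Icc 1 (N (i + k)),
      (ide θ n (i + k + l) u x - ide θ n (i + k + l) u (x - u • (θ : T)))) /
        (N (i + k) * (k + 1))) ^ 2 ≤ 100 / 16 ^ l := by
  set α : ℕ → ℝ := fun j => Int.fract (n j * θ) with hα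
  have hα0 : ∀ j, 0 ≤ α j := fun j => Int.fract_nonneg _
  let e : ℕ → ℕ → T → ℝ := fun k u x =>
    ia (n (i + k + l)) (1 - u * α (i + k + l)) (u * α (i + k + l)) x -
      ia (n (i + k + l)) (1 - u * α (i + k + l) + u * α (i + k + l)) (u * α (i + k + l)) x
  have he : ∀ k u, Bd (e k u) := fun k u => (bd_ia _ _ _).sub (bd_ia _ _ _)
  have h0 : ∀ k (u : ℕ), 0 ≤ u * α (i + k + l) := fun k u => mul_nonneg (Nat.cast_nonneg _) (hα0 _)
  have h1 : ∀ k, ∀ u ∈ Icc 1 (N (i + k)), u * α (i + k + l) ≤ 1 := by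
    intro k u hu
    refine le_trans (mul_le_mul_of_nonneg_right ?_ (hα0 _)) (h.N_mul (i + k + l))
    exact_mod_cast (mem_Icc.1 hu).2.trans (h.N_mono (Nat.le_add_right _ _))
  have h2 : ∀ k, ∀ u ∈ Icc 1 (N (i + k)), u * α (i + k + l) ≤ 2 * (1 / 16) ^ l := by
    intro k u hu
    have hu' : (u : ℝ) ≤ 64 ^ (i + k + 1) := by
      exact_mod_cast (mem_Icc.1 hu).2.trans (h.N_le _)
    calc u * α (i + k + l) ≤ 64 ^ (i + k + 1) * (2 / 64 ^ (i + k + l + 1)) :=
          mul_le_mul hu' (h.α_le _) (hα0 _) (by positivity)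
      _ = 2 * (1 / 64) ^ l := by
          rw [show i + k + l + 1 = i + k + 1 + l by ring, pow_add (64 : ℝ) (i + k + 1) l,
            one_div_pow]
          field_simp
      _ ≤ 2 * (1 / 16) ^ l := by gcongr; norm_num
  have hN : ∀ k, (0 : ℝ) < N (i + k) := fun k => by exact_mod_cast h.N_pos _
  -- the bound for single terms
  have key : ∀ k k', ∀ u ∈ Icc 1 (N (i + k)), ∀ u' ∈ Icc 1 (N (i + k')), ∫ x, e k u x * e k' u' x ≤
      (if k = k' then 4 * (1 / 16 : ℝ) ^ l else 0) +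
        8 * ((1 / 16) ^ l * ((1 / 4) ^ k * (1 / 4) ^ k')) := by
    intro k k' u hu u' hu'
    rcases lt_trichotomy k k' with hk | hk | hk
    · rw [if_neg hk.ne, zero_add]
      refine (tla_cov4 (h.n_pos _) (h.n_pos _) _ _ _ _ (h0 k u) (h1 k u hu) (h0 k' u')
        (h1 k' u' hu')).trans ?_
      gcongr
      exact (tla_lac h.n_pos h.lac (by omega)).trans (tla_pow hk.le)
    · rw [if_pos hk]
      refine (tla_diag (h.n_pos _) _ _ _ _ _ _ (h0 k u) (h1 k u hu)).trans ?_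
      have : (0 : ℝ) ≤ 8 * ((1 / 16) ^ l * ((1 / 4) ^ k * (1 / 4) ^ k')) := by positivity
      linarith [h2 k u hu]
    · rw [if_neg hk.ne', zero_add]
      simp only [mul_comm (e k u _), mul_comm ((1 / 4 : ℝ) ^ k)]
      refine (tla_cov4 (h.n_pos _) (h.n_pos _) _ _ _ _ (h0 k' u') (h1 k' u' hu') (h0 k u)
        (h1 k u hu)).trans ?_
      gcongr
      exact (tla_lac h.n_pos h.lac (by omega)).trans (tla_pow hk.le)
  have hE : ∀ k u x, ide θ n (i + k + l) u x - ide θ n (i + k + l) u (x - u • (θ : T)) =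
      e k u x := by
    intro k u x
    simp only [ide, ia_sub, e, hα]
  simp only [hE]
  refine le_trans (tla_quad s (f := fun k x => (∑ u ∈ Icc 1 (N (i + k)), e k u x) /
    (N (i + k) * (k + 1))) (fun k => ?_) fun k k' => ?_) (tla_final s l)
  · simpa only [div_eq_mul_inv] using (Bd.sum _ fun u _ => he k u).mul (Bd.const _)
  · have hk := tla_avg _ _ (he k) (he k') (key k k')
    simp only [Nat.card_Icc, Nat.add_sub_cancel] at hk
    simp only [div_mul_div_comm]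
    have hp : (0 : ℝ) < N (i + k) * (k + 1) * (N (i + k') * (k' + 1)) := by
      have := hN k; have := hN k'; positivity
    rw [integral_div, div_le_iff₀ hp]
    refine hk.trans ?_
    have hNN : (0 : ℝ) ≤ N (i + k) * N (i + k') := by positivity
    have hone : (1 : ℝ) ≤ (k + 1) * (k' + 1) := by
      have : (0 : ℝ) ≤ k := Nat.cast_nonneg k
      have : (0 : ℝ) ≤ k' := Nat.cast_nonneg k'
      nlinarith
    have hc : (0 : ℝ) ≤ 8 * ((1 / 16) ^ l * ((1 / 4) ^ k * (1 / 4) ^ k')) := by positivity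
    rw [show (N (i + k) : ℝ) * (k + 1) * (N (i + k') * (k' + 1)) =
      ((k + 1) * (k' + 1)) * (N (i + k) * N (i + k')) by ring, mul_comm,
      ← mul_assoc _ (((k : ℝ) + 1) * (k' + 1))]
    refine mul_le_mul_of_nonneg_right ?_ hNN
    rw [add_mul]
    refine add_le_add (le_of_eq ?_) (le_mul_of_one_le_right hc hone)
    split_ifs with hkk
    · subst hkk; field_simp
    · simp

/-- Write `j = m + l`, `l ≤ m = i + k`, in `rk`; replace `hit` by `ide` (error at most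
`∑_k ∑_l 2^l · 2 · 2 · 2^j · 2 / 64^(j+1) ≤ C / 2^i`); exchange the sums over `k` and `l`;
Cauchy-Schwarz with `test_layer` for each `l`: `∑_l 2^l · 10 / 4^l ≤ 20`. -/
theorem testBd {θ : ℝ} {n N : ℕ → ℕ} (h : Clks θ n N) {B : ℕ → Set T}
    (hB : ∀ j, MeasurableSet (B j))
    (hid : ∀ j u, u ≤ N j → ∫ x, |(hit (θ : T) (B j) u x : ℝ) - ide θ n j u x| ≤
      2 * 2 ^ j * Int.fract (n j * θ)) : TestBd (θ : T) B N :=
  testBd_aux h.N_pos h.N_mono hB (I := ide θ n) (fun _ _ => bd_ia _ _ _) (test_layer h)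
    fun j u hu => (hid j u hu).trans (mul_le_mul_of_nonneg_left (h.α_le j) (by positivity))

end Crest.Agent.R113
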