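import Crest.Agent.R113.Clock
import Crest.Agent.R113.Test
import Crest.Agent.R113.NR
import Crest.Agent.R113.Erg

/-! Row 113: existence of the barrier sets. -/

set_option autoImplicit false

namespace Crest.Agent.R113

/-- `lo, hi` from `exists_nonres`, `rad, R` from `exists_rad`, `n j` recursively from `exists_fract`
(`n 0 ≥ 1`, `n (j+1) ≥ 16^(j+1) n j`), `α j = fract (n j θ)`, `N j = ⌊1/α j⌋₊ - R j - 1`
(`32 · 64^j ≤ ⌊1/α j⌋₊ ≤ 64^(j+1)`), `Λ j = N j + 2 R j + 2`, `B j = bar θ (n j) (rad j)`. -/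
theorem exists_bars {θ : ℝ} (hθ : Irrational θ) : Nonempty (Bars (θ : T)) := by
  obtain ⟨lo, hi, hlh, hnr⟩ := exists_nonres
  obtain ⟨rad, R, hlim, hrad, hR, hvis⟩ := exists_rad hθ
  have hex : ∀ j n₀ : ℕ, ∃ n : ℕ, n₀ ≤ n ∧ lo j < Int.fract (n * θ) ∧ Int.fract (n * θ) < hi j := by
    intro j n₀
    refine exists_fract hθ (le_trans (by positivity) (hlh j).1) (hlh j).2.1
      ((hlh j).2.2.trans ?_) n₀
    rw [div_le_one (by positivity), pow_succ]
    have : (1 : ℝ) ≤ 64 ^ j := one_le_pow₀ (by norm_num)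
    linarith
  choose f hf using hex
  obtain ⟨n, n0, ns⟩ : ∃ n : ℕ → ℕ, n 0 = f 0 1 ∧ ∀ j, n (j + 1) = f (j + 1) (16 ^ (j + 1) * n j) :=
    ⟨fun j => Nat.rec (motive := fun _ => ℕ) (f 0 1)
      (fun j m => f (j + 1) (16 ^ (j + 1) * m)) j, rfl, fun _ => rfl⟩
  have lac : ∀ j, 16 ^ (j + 1) * n j ≤ n (j + 1) := fun j => ns j ▸ (hf (j + 1) _).1
  have npos : ∀ j, 1 ≤ n j := by
    intro j
    induction j with
    | zero => exact n0 ▸ (hf 0 1).1
    | succ j ih => exact le_trans (Nat.mul_pos (by positivity) ih) (lac j)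
  let α : ℕ → ℝ := fun j => Int.fract (n j * θ)
  have hα : ∀ j, lo j < α j ∧ α j < hi j := by
    intro j
    cases j with
    | zero => simp only [α, n0]; exact (hf 0 1).2
    | succ j => simp only [α, ns]; exact (hf (j + 1) _).2
  have a1 : ∀ j, 1 / 64 ^ (j + 1) ≤ α j := fun j => (hlh j).1.trans (hα j).1.le
  have a2 : ∀ j, α j ≤ 2 / 64 ^ (j + 1) := fun j => (hα j).2.le.trans (hlh j).2.2
  have a0 : ∀ j, 0 < α j := fun j => lt_of_lt_of_le (by positivity) (a1 j)
  have m1 : ∀ j, 32 * 64 ^ j ≤ ⌊1 / α j⌋₊ := by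
    intro j
    refine Nat.le_floor ?_
    have h := a2 j
    rw [le_div_iff₀ (by positivity), pow_succ] at h
    rw [le_div_iff₀ (a0 j)]
    push_cast
    linarith
  have m2 : ∀ j, ⌊1 / α j⌋₊ ≤ 64 * 64 ^ j := by
    intro j
    refine Nat.floor_le_of_le ?_
    have h := a1 j
    rw [div_le_iff₀ (by positivity), pow_succ] at h
    rw [div_le_iff₀ (a0 j)]
    push_cast
    linarith
  have hR' : ∀ j, R j + 1 ≤ 64 ^ j := fun j => (hR j).trans (Nat.pow_le_pow_left (by norm_num) j)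
  let N : ℕ → ℕ := fun j => ⌊1 / α j⌋₊ - R j - 1
  have hN : ∀ j, N j + R j + 1 = ⌊1 / α j⌋₊ := fun j => by
    have := m1 j; have := hR' j; simp only [N]; omega
  have N1 : ∀ j, 16 * 64 ^ j ≤ N j := fun j => by
    have := m1 j; have := hR' j; have := hN j; omega
  have N2 : ∀ j, N j ≤ 64 ^ (j + 1) := fun j => by
    have := m2 j; have := hN j; rw [pow_succ]; omega
  have Nm : Monotone N := monotone_nat_of_le_succ fun j => by
    have := N1 (j + 1); have := N2 j; omega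
  have hC : ∀ j, Clk θ (rad j) (n j) (R j) (N j) := fun j => ⟨a0 j, hvis j, hN j⟩
  have hCs : Clks θ n N := by
    refine ⟨npos, lac, a2, fun j => ?_, N2, fun j => ?_, Nm⟩
    · have := N1 j; have : 0 < 64 ^ j := by positivity
      omega
    · have h1 : (N j : ℝ) ≤ ⌊1 / α j⌋₊ := by exact_mod_cast (by have := hN j; omega)
      exact (le_div_iff₀ (a0 j)).1 (h1.trans (Nat.floor_le (one_div_pos.2 (a0 j)).le))
  refine ⟨⟨fun j => bar θ (n j) (rad j), N, fun j => N j + 2 * R j + 2, α, rad,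
    fun j => measurableSet_bar, hlim, hrad, fun j x hx => hx.1, Nm, N1, fun j => by omega,
    fun j => ?_, fun j => (hC j).gap, fun j => (hC j).ret, fun j x D => ?_, hnr α hα,
    testBd hCs (fun j => measurableSet_bar) fun j u hu => ?_⟩⟩
  · have := m2 j; have := hN j; have := hR' j; omega
  · refine le_trans ?_ ((hC j).sep x D)
    have h1 : ((R j : ℝ) + 1) ≤ 2 ^ j := by exact_mod_cast hR j
    have h2 : (16 : ℝ) * 64 ^ j ≤ N j := by exact_mod_cast N1 j
    have h3 : (2 : ℝ) ^ j * 2 ^ j ≤ 64 ^ j := by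
      rw [← mul_pow]; exact pow_le_pow_left₀ (by norm_num) (by norm_num) j
    have h4 : 4 * (2 : ℝ) ^ j ≤ N j * (1 / 2 ^ j) := by
      rw [mul_one_div, le_div_iff₀ (by positivity)]
      have : (0 : ℝ) ≤ 64 ^ j := by positivity
      linarith
    rw [mul_sub]
    exact sub_le_sub_left (by linarith) _
  · refine ((hC j).ideal hu).trans (mul_le_mul_of_nonneg_right ?_ (a0 j).le)
    have h1 : ((R j : ℝ) + 1) ≤ 2 ^ j := by exact_mod_cast hR j
    linarith

end Crest.Agent.R113
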