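import Crest.Agent.R113.Op

/-! Row 113: blocks between visits to a barrier set. -/

set_option autoImplicit false

namespace Crest.Agent.R113

open MeasureTheory Finset

variable {a : T} {B : Set T} {Λ : ℕ}

/-- Every orbit segment of length `Λ` meets `B`. -/
def Ret (a : T) (B : Set T) (Λ : ℕ) : Prop := ∀ x, ∃ u : ℕ, u < Λ ∧ x + u • a ∈ B

lemma Ret.ex_dep_lt (h : Ret a B Λ) (x : T) : ∃ j : ℕ, j < Λ ∧ x - (j + 1) • a ∈ B := by
  obtain ⟨u, hu, hx⟩ := h (x - Λ • a)
  obtain ⟨j, rfl⟩ := Nat.exists_eq_add_of_lt hu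
  refine ⟨j, by omega, ?_⟩
  convert hx using 1
  rw [add_assoc, add_nsmul a u]
  abel

lemma Ret.ex_dep (h : Ret a B Λ) (x : T) : ∃ j : ℕ, x - (j + 1) • a ∈ B :=
  (h.ex_dep_lt x).imp fun _ hj => hj.2

lemma Ret.ex_len (h : Ret a B Λ) (y : T) : ∃ j : ℕ, y + j • a ∈ B := (h y).imp fun _ hj => hj.2

lemma dep_eq_iff (h : Ret a B Λ) (x : T) (j : ℕ) :
    dep a B x = j ↔ x - (j + 1) • a ∈ B ∧ ∀ i < j, x - (i + 1) • a ∉ B := by
  classical
  rw [dep, dif_pos (h.ex_dep x), Nat.find_eq_iff]

lemma lt_len_iff (h : Ret a B Λ) (y : T) (j : ℕ) :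
    j < len a B y ↔ ∀ i < j, y + i • a ∉ B := by
  classical
  rw [len, dif_pos (h.ex_len y), Nat.lt_succ_iff, Nat.le_find_iff]

lemma dep_add_eq_iff (h : Ret a B Λ) (y : T) (j : ℕ) :
    dep a B (y + j • a) = j ↔ y ∈ start a B ∧ j < len a B y := by
  rw [dep_eq_iff h, lt_len_iff h]
  have e1 : y + j • a - (j + 1) • a = y - a := by rw [succ_nsmul]; abel
  have e2 : ∀ i k : ℕ, y + (i + k + 1) • a - (i + 1) • a = y + k • a := fun i k => by
    simp only [add_nsmul, one_nsmul]; abel
  rw [e1]
  refine and_congr Iff.rfl ⟨fun H k hk => ?_, fun H i hi => ?_⟩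
  · obtain ⟨i, rfl⟩ := Nat.exists_eq_add_of_lt hk
    have := H i (by omega)
    rwa [add_comm k i, e2] at this
  · obtain ⟨k, rfl⟩ := Nat.exists_eq_add_of_lt hi
    rw [e2]
    exact H k (by omega)

lemma measurable_sum_range {X : Type*} [MeasurableSpace X] {n : X → ℕ} (hn : Measurable n)
    {f : ℕ → X → ℝ} (hf : ∀ j, Measurable (f j)) :
    Measurable fun x => ∑ j ∈ range (n x), f j x := by
  have h1 : Measurable fun p : X × ℕ => ∑ j ∈ range p.2, f j p.1 :=
    measurable_from_prod_countable_left fun k => Finset.measurable_sum (range k) fun j _ => hf j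
  exact h1.comp (measurable_id.prodMk hn)

lemma measurable_dep (hB : MeasurableSet B) (h : Ret a B Λ) : Measurable (dep a B) := by
  classical
  have e : dep a B = fun x => Nat.find (h.ex_dep x) := funext fun x => by
    rw [dep, dif_pos (h.ex_dep x)]
  rw [e]
  exact measurable_find h.ex_dep fun k => measurable_sub_const _ hB

lemma measurable_len (hB : MeasurableSet B) (h : Ret a B Λ) : Measurable (len a B) := by
  classical
  have e : len a B = fun x => Nat.find (h.ex_len x) + 1 := funext fun x => by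
    rw [len, dif_pos (h.ex_len x)]
  rw [e]
  exact (measurable_find h.ex_len fun k => measurable_add_const _ hB).add_const 1

lemma measurableSet_start (hB : MeasurableSet B) : MeasurableSet (start a B) := by
  exact measurable_sub_const a hB

lemma measure_start (hB : MeasurableSet B) : volume.real (start a B) = volume.real B := by
  exact (measurePreserving_sub_right volume a).measureReal_preimage hB.nullMeasurableSet

/-- Apply `h` to `x - Λ • a`. -/
lemma dep_lt (h : Ret a B Λ) (x : T) : dep a B x < Λ := by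
  classical
  obtain ⟨j, hj, hx⟩ := h.ex_dep_lt x
  rw [dep, dif_pos (h.ex_dep x)]
  exact lt_of_le_of_lt (Nat.find_min' _ hx) hj

lemma len_le (h : Ret a B Λ) (y : T) : len a B y ≤ Λ := by
  classical
  obtain ⟨j, hj, hx⟩ := h y
  rw [len, dif_pos (h.ex_len y)]
  exact Nat.succ_le_of_lt (lt_of_le_of_lt (Nat.find_min' _ hx) hj)

lemma one_le_len (h : Ret a B Λ) (y : T) : 1 ≤ len a B y := by
  exact (lt_len_iff h y 0).2 fun i hi => absurd hi (Nat.not_lt_zero i)

lemma dep_add (h : Ret a B Λ) {x : T} (hx : x ∉ B) : dep a B (x + a) = dep a B x + 1 := by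
  obtain ⟨h1, h2⟩ := (dep_eq_iff h x _).1 rfl
  have e : ∀ i : ℕ, x + a - (i + 1) • a = x - i • a := fun i => by rw [succ_nsmul]; abel
  rw [dep_eq_iff h, e]
  refine ⟨h1, fun i hi => ?_⟩
  rw [e]
  rcases i with _ | i
  · simpa using hx
  · exact h2 i (by omega)

lemma dep_add_mem {x : T} (hx : x ∈ B) : dep a B (x + a) = 0 := by
  classical
  have h0 : x + a - (0 + 1) • a ∈ B := by simpa using hx
  rw [dep, dif_pos ⟨0, h0⟩, Nat.find_eq_zero]
  exact h0

lemma not_mem_of_lt_len {y : T} {j : ℕ} (hj : j + 1 < len a B y) : y + j • a ∉ B := by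
  classical
  intro hy
  rw [len, dif_pos ⟨j, hy⟩] at hj
  exact Nat.find_min ⟨j, hy⟩ (Nat.lt_of_succ_lt_succ hj) hy

lemma dep_start (h : Ret a B Λ) {y : T} (hy : y ∈ start a B) {j : ℕ} (hj : j < len a B y) :
    dep a B (y + j • a) = j := by
  exact (dep_add_eq_iff h y j).2 ⟨hy, hj⟩

lemma sub_dep_mem (h : Ret a B Λ) (x : T) :
    x - dep a B x • a ∈ start a B ∧ dep a B x < len a B (x - dep a B x • a) := by
  exact (dep_add_eq_iff h _ _).1 (by rw [sub_add_cancel])

lemma bd_dep (hB : MeasurableSet B) (h : Ret a B Λ) : Bd fun x => (dep a B x : ℝ) := by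
  refine Bd.of_abs ((measurable_from_top (f := fun n : ℕ => (n : ℝ))).comp (measurable_dep hB h))
    (C := Λ) fun x => ?_
  rw [Nat.abs_cast]
  exact_mod_cast (dep_lt h x).le

lemma bd_bsum (hB : MeasurableSet B) (h : Ret a B Λ) {ψ : T → ℝ} (hψ : Bd ψ) :
    Bd (bsum a B ψ) := by
  obtain ⟨C, hC0, hC⟩ := hψ.exists_abs
  refine Bd.of_abs (measurable_sum_range (measurable_len hB h)
    fun j => hψ.1.comp (measurable_add_const (j • a))) (C := Λ * C) fun y => ?_
  refine (abs_sum_le_sum_abs _ _).trans ((sum_le_sum fun j _ => hC _).trans ?_)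
  rw [sum_const, card_range, nsmul_eq_mul]
  exact mul_le_mul_of_nonneg_right (by exact_mod_cast len_le h y) hC0

/-- Kac formula: `ψ = ∑_{j<Λ} ψ 1{dep = j}` and `dep (y + j a) = j ↔ y ∈ start ∧ j < len y`. -/
theorem kac (hB : MeasurableSet B) (h : Ret a B Λ) {ψ : T → ℝ} (hψ : Bd ψ) :
    ∫ x, ψ x = ∫ y in start a B, bsum a B ψ y := by
  have hm : ∀ j : ℕ, MeasurableSet {x | dep a B x = j} := fun j =>
    measurable_dep hB h (measurableSet_singleton j)
  have hb : ∀ j : ℕ, Bd ({x | dep a B x = j}.indicator ψ) := fun j => hψ.indicator (hm j)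
  have e1 : ∀ x, ψ x = ∑ j ∈ range Λ, {x | dep a B x = j}.indicator ψ x := fun x => by
    rw [sum_eq_single (dep a B x)]
    · rw [Set.indicator_of_mem (by rfl)]
    · exact fun j _ hj => Set.indicator_of_notMem (s := {x | dep a B x = j})
        (fun h' => hj (Eq.symm h')) _
    · exact fun h' => absurd (mem_range.2 (dep_lt h x)) h'
  have e2 : ∀ y, (start a B).indicator (bsum a B ψ) y =
      ∑ j ∈ range Λ, {x | dep a B x = j}.indicator ψ (y + j • a) := fun y => by
    by_cases hy : y ∈ start a B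
    · rw [Set.indicator_of_mem hy, bsum]
      symm
      rw [← sum_subset (range_subset_range.2 (len_le h y))]
      · exact sum_congr rfl fun j hj =>
          Set.indicator_of_mem (s := {x | dep a B x = j}) (dep_start h hy (mem_range.1 hj)) _
      · exact fun j _ hj => Set.indicator_of_notMem (s := {x | dep a B x = j})
          (fun h' => hj (mem_range.2 ((dep_add_eq_iff h y j).1 h').2)) _
    · rw [Set.indicator_of_notMem hy]
      exact (sum_eq_zero fun j _ => Set.indicator_of_notMem (s := {x | dep a B x = j})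
        (fun h' => hy ((dep_add_eq_iff h y j).1 h').1) _).symm
  rw [← integral_indicator (measurableSet_start hB)]
  simp only [e2]
  rw [integral_finsetSum _ fun j _ =>
    ((hb j).comp (measurable_add_const (j • a))).integrable volume]
  simp only [integral_add_right_eq_self]
  rw [← integral_finsetSum _ fun j _ => (hb j).integrable volume]
  simp only [← e1]

/-- `b x = - sign (bsum ψ (x - dep x • a))`. -/
theorem exists_sign (hB : MeasurableSet B) (h : Ret a B Λ) {ψ : T → ℝ} (hψ : Bd ψ) :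
    ∃ b : T → ℝ, Measurable b ∧ (∀ x, |b x| ≤ 1) ∧ (∀ x, x ∉ B → b (x + a) = b x) ∧
      ∫ x, b x * ψ x = -∫ y in start a B, |bsum a B ψ y| := by
  have hm : Measurable fun x => bsum a B ψ (x - dep a B x • a) :=
    (bd_bsum hB h hψ).1.comp (measurable_id.sub
      ((measurable_from_top (f := fun n : ℕ => n • a)).comp (measurable_dep hB h)))
  obtain ⟨b, hb⟩ : ∃ b : T → ℝ,
      b = fun x => if 0 ≤ bsum a B ψ (x - dep a B x • a) then -1 else 1 := ⟨_, rfl⟩
  have hbm : Measurable b := by
    rw [hb]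
    exact Measurable.ite (measurableSet_le measurable_const hm) measurable_const measurable_const
  have hb1 : ∀ x, |b x| ≤ 1 := fun x => by
    simp only [hb]
    split_ifs <;> simp
  refine ⟨b, hbm, hb1, fun x hx => ?_, ?_⟩
  · have e : x + a - (dep a B x + 1) • a = x - dep a B x • a := by rw [succ_nsmul]; abel
    simp only [hb, dep_add h hx, e]
  · rw [kac hB h ((Bd.of_abs hbm hb1).mul hψ), ← integral_neg]
    refine setIntegral_congr_fun (measurableSet_start hB) fun y hy => ?_
    have e : ∀ j ∈ range (len a B y), b (y + j • a) * ψ (y + j • a) =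
        (if 0 ≤ bsum a B ψ y then -1 else 1) * ψ (y + j • a) := fun j hj => by
      simp only [hb, dep_start h hy (mem_range.1 hj), add_sub_cancel_right]
    have e2 : bsum a B (fun x => b x * ψ x) y =
        (if 0 ≤ bsum a B ψ y then -1 else 1) * bsum a B ψ y := by
      rw [bsum, sum_congr rfl e, ← mul_sum]; rfl
    simp only [e2]
    split_ifs with h0
    · rw [abs_of_nonneg h0]; ring
    · rw [abs_of_neg (not_le.1 h0)]; ring

/-- `H x = ∑_{u < dep x} G (x - (u + 1) a)`. -/
theorem exists_untwist (hB : MeasurableSet B) (h : Ret a B Λ) {G : T → ℝ} (hG : Measurable G)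
    {Γ : ℝ} (hΓ : ∀ x, |G x| ≤ Γ) :
    ∃ H : T → ℝ, Measurable H ∧ (∀ x, |H x| ≤ Λ * Γ) ∧ ∀ x, x ∉ B → H (x + a) = H x + G x := by
  have hΓ0 : 0 ≤ Γ := (abs_nonneg _).trans (hΓ 0)
  refine ⟨fun x => ∑ u ∈ range (dep a B x), G (x - (u + 1) • a),
    measurable_sum_range (measurable_dep hB h) fun j => hG.comp (measurable_sub_const _),
    fun x => ?_, fun x hx => ?_⟩
  · refine (abs_sum_le_sum_abs _ _).trans ((sum_le_sum fun j _ => hΓ _).trans ?_)
    rw [sum_const, card_range, nsmul_eq_mul]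
    exact mul_le_mul_of_nonneg_right (by exact_mod_cast (dep_lt h x).le) hΓ0
  · have e : ∀ i : ℕ, x + a - (i + 1) • a = x - i • a := fun i => by rw [succ_nsmul]; abel
    simp only [dep_add h hx, e, sum_range_succ', zero_nsmul, sub_zero]

end Crest.Agent.R113
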