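import Crest.Agent.R113.Block

/-! Row 113: an almost monotone density with right block means and first moment is constant. -/

set_option autoImplicit false

namespace Crest.Agent.R113

open MeasureTheory Finset

lemma pair_sum_le (ψ : ℕ → ℝ) {N : ℝ} (hN : 0 ≤ N) (l : ℕ)
    (h : ∀ j < l, ∀ k ≤ j, ψ k - ψ j ≤ N) :
    ∑ j ∈ range l, ∑ k ∈ range l, |ψ j - ψ k| ≤
      4 * ∑ j ∈ range l, ((j : ℝ) - (l - 1) / 2) * ψ j + 2 * l ^ 2 * N := by
  induction l with
  | zero => simp
  | succ l ih =>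
    have h1 := ih fun j hj k hk => h j (by omega) k hk
    have h2 : ∑ k ∈ range l, |ψ l - ψ k| ≤ l * ψ l - ∑ k ∈ range l, ψ k + l * (2 * N) := by
      calc _ ≤ ∑ k ∈ range l, (ψ l - ψ k + 2 * N) := sum_le_sum fun k hk => by
            have := h l (by omega) k (mem_range.1 hk).le
            rw [abs_le]; constructor <;> linarith
        _ = _ := by
            rw [sum_add_distrib, sum_sub_distrib]
            simp only [sum_const, card_range, nsmul_eq_mul]
    have h3 : ∑ j ∈ range (l + 1), ∑ k ∈ range (l + 1), |ψ j - ψ k| =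
        ∑ j ∈ range l, ∑ k ∈ range l, |ψ j - ψ k| + 2 * ∑ k ∈ range l, |ψ l - ψ k| := by
      simp only [sum_range_succ, sum_add_distrib, sub_self, abs_zero, add_zero]
      rw [sum_congr rfl fun j _ => abs_sub_comm (ψ j) (ψ l)]
      ring
    have h4 : ∑ j ∈ range (l + 1), ((j : ℝ) - ((l + 1 : ℕ) - 1) / 2) * ψ j =
        ∑ j ∈ range l, ((j : ℝ) - (l - 1) / 2) * ψ j - (∑ k ∈ range l, ψ k) / 2 + l / 2 * ψ l := by
      rw [sum_range_succ, sum_div, ← sum_sub_distrib]
      push_cast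
      congr 1
      · exact sum_congr rfl fun j _ => by ring
      · ring
    rw [h3, h4]
    push_cast
    nlinarith

lemma sub_le_sum_max (φ : ℕ → ℝ) {j k n : ℕ} (hk : k ≤ j) (hj : j ≤ n) :
    φ k - φ j ≤ ∑ u ∈ range n, max (φ u - φ (u + 1)) 0 := by
  have h1 : φ k - φ j ≤ ∑ u ∈ Ico k j, max (φ u - φ (u + 1)) 0 := by
    clear hj
    induction j, hk using Nat.le_induction with
    | base => simp
    | succ j hk ih =>
      rw [sum_Ico_succ_top hk]
      have := le_max_left (φ j - φ (j + 1)) 0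
      linarith
  refine h1.trans (sum_le_sum_of_subset_of_nonneg (fun u hu => ?_) fun u _ _ => le_max_right _ _)
  exact mem_range.2 (lt_of_lt_of_le (mem_Ico.1 hu).2 hj)

/-- Sketch: `δ_u = φ (u+1) - φ u`, `N = ∑ (δ_u)₋`, `C = ∑ (j - (l-1)/2) (φ j - t)`, `M` the mean.
`C = ½ ∑_u δ_u (u+1)(l-u-1) ≥ -l² N / 8`, and
`∑ |φ j - M| ≤ (2/l) ∑_u |δ_u| (u+1)(l-u-1) ≤ 4 C / l + l N`. If `l ≤ l₀` use `∑ ≤ l`. -/
lemma fin_ineq (φ : ℕ → ℝ) (t l₀ : ℝ) (l Λ : ℕ) (hφ : ∀ j, 0 ≤ φ j ∧ φ j ≤ 1) (ht0 : 0 ≤ t)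
    (ht1 : t ≤ 1) (hl₀ : 0 < l₀) (hl : l ≤ Λ) :
    ∑ j ∈ range l, |φ j - t| ≤ l₀ +
      4 / l₀ * (∑ j ∈ range l, ((j : ℝ) - (l - 1) / 2) * (φ j - t) +
        Λ ^ 2 * ∑ j ∈ range (l - 1), max (φ j - φ (j + 1)) 0) +
      Λ * ∑ j ∈ range (l - 1), max (φ j - φ (j + 1)) 0 + |∑ j ∈ range l, (φ j - t)| := by
  obtain ⟨N, hN⟩ : ∃ N, N = ∑ j ∈ range (l - 1), max (φ j - φ (j + 1)) 0 := ⟨_, rfl⟩
  obtain ⟨C, hC⟩ : ∃ C, C = ∑ j ∈ range l, ((j : ℝ) - (l - 1) / 2) * (φ j - t) := ⟨_, rfl⟩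
  obtain ⟨S, hS⟩ : ∃ S, S = ∑ j ∈ range l, (φ j - t) := ⟨_, rfl⟩
  rw [← hN, ← hC, ← hS]
  have hN0 : 0 ≤ N := hN ▸ sum_nonneg fun j _ => le_max_right _ _
  have h1 := pair_sum_le (fun j => φ j - t) hN0 l fun j hj k hk => by
    have := sub_le_sum_max φ hk (Nat.le_sub_one_of_lt hj)
    rw [← hN] at this
    linarith
  rw [← hC] at h1
  have h2 : 0 ≤ ∑ j ∈ range l, ∑ k ∈ range l, |(φ j - t) - (φ k - t)| :=
    sum_nonneg fun j _ => sum_nonneg fun k _ => abs_nonneg _
  have hlΛ : (l : ℝ) ≤ Λ := by exact_mod_cast hl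
  have hl0 : (0 : ℝ) ≤ l := Nat.cast_nonneg l
  have hsq : (l : ℝ) ^ 2 * N ≤ Λ ^ 2 * N := by gcongr
  have hsq0 : 0 ≤ (l : ℝ) ^ 2 * N := by positivity
  have hX : 0 ≤ C + Λ ^ 2 * N := by linarith
  have hΛN : 0 ≤ (Λ : ℝ) * N := by positivity
  rcases le_or_gt (l : ℝ) l₀ with hle | hlt
  · have h3 : ∑ j ∈ range l, |φ j - t| ≤ l := by
      calc _ ≤ ∑ j ∈ range l, (1 : ℝ) := sum_le_sum fun j _ => by
            have := hφ j
            rw [abs_le]; constructor <;> linarith [this.1, this.2]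
        _ = l := by simp
    have h4 : 0 ≤ 4 / l₀ * (C + Λ ^ 2 * N) := by positivity
    linarith [abs_nonneg S]
  · have hlp : (0 : ℝ) < l := hl₀.trans hlt
    have h3 : l * ∑ j ∈ range l, |φ j - t| ≤
        ∑ j ∈ range l, ∑ k ∈ range l, |(φ j - t) - (φ k - t)| + l * |S| := by
      rw [mul_sum]
      calc _ ≤ ∑ j ∈ range l, (∑ k ∈ range l, |(φ j - t) - (φ k - t)| + |S|) :=
            sum_le_sum fun j _ => by
              have e : l * (φ j - t) = ∑ k ∈ range l, ((φ j - t) - (φ k - t)) + S := by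
                rw [sum_sub_distrib, ← hS]
                simp only [sum_const, card_range, nsmul_eq_mul]
                ring
              rw [← abs_of_pos hlp, ← abs_mul, e]
              exact (abs_add_le _ _).trans (by gcongr; exact abs_sum_le_sum_abs _ _)
        _ = _ := by
            rw [sum_add_distrib]
            simp only [sum_const, card_range, nsmul_eq_mul]
    have h4 : 4 / (l : ℝ) * (C + Λ ^ 2 * N) ≤ 4 / l₀ * (C + Λ ^ 2 * N) := by gcongr
    have h5 : ∑ j ∈ range l, |φ j - t| ≤ 4 / (l : ℝ) * (C + Λ ^ 2 * N) + |S| := by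
      refine le_of_mul_le_mul_left ?_ hlp
      have e : l * (4 / (l : ℝ) * (C + Λ ^ 2 * N) + |S|) = 4 * (C + Λ ^ 2 * N) + l * |S| := by
        field_simp
      rw [e]
      linarith
    linarith

variable {a : T} {B : Set T} {Λ : ℕ}

lemma Bd.abs {X : Type*} [MeasurableSpace X] {f : X → ℝ} (h : Bd f) : Bd fun x => |f x| :=
  ⟨h.1.abs, h.2.imp fun _ hC x => by simpa using hC x⟩

/-- Sketch: `kac` for `|φ - t|`, for `dep * (φ - t)` (`dep_start`) and for
`Bᶜ.indicator (max (φ x - φ (x + a)) 0)` (`not_mem_of_lt_len`); integrate `fin_ineq` over `start`. -/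
theorem block_est (hB : MeasurableSet B) (h : Ret a B Λ) {φ : T → ℝ} (hφ : Measurable φ)
    (hφ0 : ∀ x, 0 ≤ φ x) (hφ1 : ∀ x, φ x ≤ 1) {t l₀ e₁ e₂ e₃ : ℝ} (ht0 : 0 ≤ t) (ht1 : t ≤ 1)
    (hl₀ : 0 < l₀) (h1 : ∫ x in Bᶜ, max (φ x - φ (x + a)) 0 ≤ e₁)
    (h2 : ∫ y in start a B, |bsum a B (fun x => φ x - t) y| ≤ e₂)
    (h3 : ∫ x, (dep a B x : ℝ) * (φ x - t) ≤ e₃) :
    ∫ x, |φ x - t| ≤ l₀ * volume.real B + 4 / l₀ * (e₃ + Λ * e₂ / 2 + Λ ^ 2 * e₁) + Λ * e₁ + e₂ := by
  have bφ : Bd φ := Bd.of_abs hφ (C := 1) fun x => abs_le.2 ⟨by linarith [hφ0 x], hφ1 x⟩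
  have bψ : Bd fun x => φ x - t := bφ.sub (Bd.const t)
  have bm : Bd fun x => max (φ x - φ (x + a)) 0 :=
    Bd.of_abs ((hφ.sub (hφ.comp (measurable_add_const a))).max measurable_const) (C := 1)
      fun x => by
        rw [abs_of_nonneg (le_max_right _ _)]
        exact max_le (by linarith [hφ1 x, hφ0 (x + a)]) zero_le_one
  have bχ : Bd (Bᶜ.indicator fun x => max (φ x - φ (x + a)) 0) := bm.indicator hB.compl
  have bd : Bd fun x => (dep a B x : ℝ) * (φ x - t) := (bd_dep hB h).mul bψ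
  rw [← integral_indicator hB.compl, kac hB h bχ] at h1
  rw [kac hB h bd] at h3
  rw [kac hB h bψ.abs]
  generalize hχ : (Bᶜ.indicator fun x => max (φ x - φ (x + a)) 0) = χ at h1 bχ
  have i1 := (bd_bsum hB h bχ).integrable (volume.restrict (start a B))
  have i2 := (bd_bsum hB h bψ).abs.integrable (volume.restrict (start a B))
  have i3 := (bd_bsum hB h bd).integrable (volume.restrict (start a B))
  have hΛ : (0 : ℝ) ≤ Λ := Nat.cast_nonneg Λ
  have key : ∀ y ∈ start a B, bsum a B (fun x => |φ x - t|) y ≤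
      l₀ + 4 / l₀ * (bsum a B (fun x => (dep a B x : ℝ) * (φ x - t)) y +
        Λ / 2 * |bsum a B (fun x => φ x - t) y| + Λ ^ 2 * bsum a B χ y) + Λ * bsum a B χ y +
        |bsum a B (fun x => φ x - t) y| := fun y hy => by
    have h4 := fin_ineq (fun j => φ (y + j • a)) t l₀ (len a B y) Λ (fun j => ⟨hφ0 _, hφ1 _⟩)
      ht0 ht1 hl₀ (len_le h y)
    have h5 : ∑ j ∈ range (len a B y - 1), max (φ (y + j • a) - φ (y + (j + 1) • a)) 0 ≤
        bsum a B χ y := by
      rw [bsum, ← hχ]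
      refine le_trans (le_of_eq (sum_congr rfl fun j hj => ?_))
        (sum_le_sum_of_subset_of_nonneg (range_subset_range.2 (Nat.sub_le _ 1)) fun j _ _ =>
          Set.indicator_nonneg (fun x _ => le_max_right _ _) _)
      have hj' : y + j • a ∈ Bᶜ := not_mem_of_lt_len (Nat.add_lt_of_lt_sub (mem_range.1 hj))
      rw [Set.indicator_of_mem hj', succ_nsmul, add_assoc]
    have h6 : ∑ j ∈ range (len a B y), ((j : ℝ) - (len a B y - 1) / 2) * (φ (y + j • a) - t) ≤
        bsum a B (fun x => (dep a B x : ℝ) * (φ x - t)) y +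
          Λ / 2 * |bsum a B (fun x => φ x - t) y| := by
      have e : ∑ j ∈ range (len a B y), ((j : ℝ) - (len a B y - 1) / 2) * (φ (y + j • a) - t) =
          bsum a B (fun x => (dep a B x : ℝ) * (φ x - t)) y -
            (len a B y - 1) / 2 * bsum a B (fun x => φ x - t) y := by
        rw [bsum, bsum, mul_sum, ← sum_sub_distrib]
        refine sum_congr rfl fun j hj => ?_
        rw [dep_start h hy (mem_range.1 hj)]
        ring
      have hl1 : (1 : ℝ) ≤ len a B y := by exact_mod_cast one_le_len h y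
      have hl2 : (len a B y : ℝ) ≤ Λ := by exact_mod_cast len_le h y
      rw [e]
      nlinarith [neg_abs_le (bsum a B (fun x => φ x - t) y),
        abs_nonneg (bsum a B (fun x => φ x - t) y)]
    refine h4.trans ?_
    simp only [bsum] at h5 h6 ⊢
    gcongr
  have j1 := i3.fun_add (i2.const_mul (Λ / 2))
  have j2 := j1.fun_add (i1.const_mul (Λ ^ 2))
  have j3 := (integrable_const l₀).fun_add (j2.const_mul (4 / l₀))
  have j4 := j3.fun_add (i1.const_mul Λ)
  refine (setIntegral_mono_on ((bd_bsum hB h bψ.abs).integrable _) (j4.fun_add i2)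
    (measurableSet_start hB) key).trans ?_
  rw [integral_add j4 i2, integral_add j3 (i1.const_mul _),
    integral_add (integrable_const l₀) (j2.const_mul _), integral_const_mul, integral_const_mul,
    integral_add j1 (i1.const_mul _), integral_add i3 (i2.const_mul _), integral_const_mul,
    integral_const_mul, setIntegral_const, measure_start hB, smul_eq_mul, mul_comm _ l₀,
    mul_div_right_comm]
  gcongr

/-- Block sums of a coboundary telescope; `kac` for `|ψ|`. -/
theorem cob_bsum (hB : MeasurableSet B) (h : Ret a B Λ) {ψ ζ : T → ℝ} (hψ : Bd ψ) (hζ : Bd ζ)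
    {J : ℝ} (hJ : ∀ x, |ζ x| ≤ J) :
    ∫ y in start a B, |bsum a B (fun x => ψ x + ζ x - ζ (x + a)) y| ≤
      (∫ x, |ψ x|) + 2 * J * volume.real B := by
  have bζ : Bd fun x => ζ (x + a) := hζ.comp (measurable_add_const a)
  have i1 := (bd_bsum hB h hψ.abs).integrable (volume.restrict (start a B))
  have key : ∀ y ∈ start a B, |bsum a B (fun x => ψ x + ζ x - ζ (x + a)) y| ≤
      bsum a B (fun x => |ψ x|) y + 2 * J := fun y _ => by
    have e : bsum a B (fun x => ψ x + ζ x - ζ (x + a)) y =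
        bsum a B ψ y + (ζ (y + 0 • a) - ζ (y + len a B y • a)) := by
      rw [← sum_range_sub' (fun j => ζ (y + j • a)), bsum, bsum, ← sum_add_distrib]
      refine sum_congr rfl fun j _ => ?_
      rw [succ_nsmul, ← add_assoc]
      ring
    rw [e]
    refine (abs_add_le _ _).trans (add_le_add (abs_sum_le_sum_abs _ _) ?_)
    exact (abs_sub _ _).trans (by linarith [hJ (y + 0 • a), hJ (y + len a B y • a)])
  refine (setIntegral_mono_on ((bd_bsum hB h ((hψ.add hζ).sub bζ)).abs.integrable _)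
    (i1.fun_add (integrable_const _)) (measurableSet_start hB) key).trans ?_
  rw [integral_add i1 (integrable_const _), ← kac hB h hψ.abs, setIntegral_const,
    measure_start hB, smul_eq_mul, mul_comm]

/-- `∫ dep x * ζ x = ∫ dep (x + a) * ζ (x + a)`, `|dep (x + a) - dep x| ≤ 1 + Λ 1_B x`. -/
theorem cob_dep (hB : MeasurableSet B) (h : Ret a B Λ) {ψ ζ : T → ℝ} (hψ : Bd ψ) (hζ : Bd ζ)
    {J : ℝ} (hJ : ∀ x, |ζ x| ≤ J) :
    ∫ x, (dep a B x : ℝ) * (ψ x + ζ x - ζ (x + a)) ≤
      Λ * (∫ x, |ψ x|) + J * (1 + Λ * volume.real B) := by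
  have bζ : Bd fun x => ζ (x + a) := hζ.comp (measurable_add_const a)
  have bd := bd_dep hB h
  have bd' : Bd fun x => (dep a B (x + a) : ℝ) := bd.comp (measurable_add_const a)
  have hJ0 : 0 ≤ J := (abs_nonneg _).trans (hJ 0)
  have i1 := (bd.mul hψ).integrable volume
  have i2 := (bd.mul hζ).integrable volume
  have i3 := (bd.mul bζ).integrable volume
  have i4 := (bd'.mul bζ).integrable volume
  have i5 := ((Bd.const (X := T) (1 : ℝ)).indicator hB).integrable volume
  have e1 : ∫ x, (dep a B x : ℝ) * (ψ x + ζ x - ζ (x + a)) =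
      (∫ x, (dep a B x : ℝ) * ψ x) +
        ∫ x, ((dep a B (x + a) : ℝ) * ζ (x + a) - (dep a B x : ℝ) * ζ (x + a)) := by
    simp only [mul_sub, mul_add]
    rw [integral_sub (i1.fun_add i2) i3, integral_add i1 i2, integral_sub i4 i3,
      integral_add_right_eq_self (fun x => (dep a B x : ℝ) * ζ x) a]
    ring
  have hd : ∀ x, (dep a B x : ℝ) ≤ Λ := fun x => by exact_mod_cast (dep_lt h x).le
  have e2 : J * (1 + Λ * volume.real B) =
      ∫ x : T, J * (1 + Λ * B.indicator (fun _ => (1 : ℝ)) x) := by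
    rw [integral_const_mul, integral_add (integrable_const _) (i5.const_mul _), integral_const_mul,
      integral_indicator hB]
    simp
  rw [e1, e2, ← integral_const_mul]
  refine add_le_add (integral_mono i1 (hψ.abs.integrable volume |>.const_mul _) fun x => ?_)
    (integral_mono (i4.sub i3) (((integrable_const _).add (i5.const_mul _)).const_mul _)
      fun x => ?_)
  · have h0 : (0 : ℝ) ≤ dep a B x := Nat.cast_nonneg _
    calc _ ≤ (dep a B x : ℝ) * |ψ x| := by gcongr; exact le_abs_self _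
      _ ≤ _ := mul_le_mul_of_nonneg_right (hd x) (abs_nonneg _)
  · have h0 : (0 : ℝ) ≤ dep a B x := Nat.cast_nonneg _
    have h1 := abs_le.1 (hJ (x + a))
    by_cases hx : x ∈ B
    · simp only [dep_add_mem hx, Set.indicator_of_mem hx]
      push_cast
      nlinarith [hd x, h1.1, h1.2]
    · simp only [dep_add h hx, Set.indicator_of_notMem hx]
      push_cast
      linarith [h1.2]

end Crest.Agent.R113
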