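import Crest.Agent.R113.Op

/-! Row 113: continuous functional calculus of multiplication operators. -/

set_option autoImplicit false

namespace Crest.Agent.R113

open MeasureTheory

variable {X : Type*} [MeasurableSpace X] {ν : Measure X}

/-- Sketch: if `z ∉ s` then `x ↦ (z - a x)⁻¹` is bounded measurable and inverts `z - mulOp a`. -/
lemma spectrum_mulOp {a : X → ℂ} (ha : Bd a) {s : Set ℂ} (hs : IsClosed s) (h : ∀ x, a x ∈ s) :
    spectrum ℂ (mulOp ν a) ⊆ s := by
  intro z hz
  by_contra hzs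
  obtain ⟨δ, hδ, hb⟩ := Metric.isOpen_iff.1 hs.isOpen_compl z hzs
  have h1 : ∀ x, δ ≤ ‖z - a x‖ := fun x => by
    by_contra hlt
    exact hb (show a x ∈ Metric.ball z δ by
      rw [Metric.mem_ball, dist_comm, dist_eq_norm]; exact not_le.1 hlt) (h x)
  have h2 : ∀ x, z - a x ≠ 0 := fun x => norm_pos_iff.1 (hδ.trans_le (h1 x))
  have hc : Bd fun x => z - a x := (Bd.const z).sub ha
  have hi : Bd fun x => (z - a x)⁻¹ :=
    ⟨hc.1.inv, δ⁻¹, fun x => by rw [norm_inv]; exact inv_anti₀ hδ (h1 x)⟩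
  refine hz ?_
  rw [spectrum.mem_resolventSet_iff, Algebra.algebraMap_eq_smul_one, ← mulOp_const,
    ← mulOp_sub (Bd.const z) ha]
  refine ⟨⟨mulOp ν fun x => z - a x, mulOp ν fun x => (z - a x)⁻¹, ?_, ?_⟩, rfl⟩
  · rw [← mulOp_mul hc hi]
    simp only [mul_inv_cancel₀ (h2 _), mulOp_const, one_smul]
  · rw [← mulOp_mul hi hc]
    simp only [inv_mul_cancel₀ (h2 _), mulOp_const, one_smul]

/-- Sketch: `F ↦ mulOp (F ∘ a)` and `cfcHomSuperset` are continuous on `C(s, ℂ)` and agree by
`ContinuousMap.induction_on_of_compact` (const, id, star id, add, mul, closure). -/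
theorem cfc_mulOp {a : X → ℂ} (ha : Bd a) {s : Set ℂ} (hs : IsCompact s) (h : ∀ x, a x ∈ s)
    {g : ℂ → ℂ} (hg : ContinuousOn g s) :
    cfc g (mulOp ν a) = mulOp ν fun x => g (a x) := by
  have : CompactSpace s := isCompact_iff_compactSpace.1 hs
  have hm : Measurable fun x => (⟨a x, h x⟩ : s) := ha.1.subtype_mk
  have hb : ∀ F : C(s, ℂ), Bd fun x => F ⟨a x, h x⟩ := fun F =>
    ⟨F.continuous.measurable.comp hm, ‖F‖, fun x => F.norm_coe_le_norm _⟩
  let φ : C(s, ℂ) →⋆ₐ[ℂ] (H2 ν →L[ℂ] H2 ν) :=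
    { toFun := fun F => mulOp ν fun x => F ⟨a x, h x⟩
      map_one' := by simpa using mulOp_const (ν := ν) 1
      map_mul' := fun F G => mulOp_mul (hb F) (hb G)
      map_zero' := by simpa using mulOp_const (ν := ν) 0
      map_add' := fun F G => mulOp_add (hb F) (hb G)
      commutes' := fun c => by
        rw [Algebra.algebraMap_eq_smul_one (A := H2 ν →L[ℂ] H2 ν), ← mulOp_const]
        rfl
      map_star' := fun F => mulOp_star (hb F) }
  have hφ : Continuous φ := AddMonoidHomClass.continuous_of_bound φ 1 fun F => by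
    rw [one_mul]
    exact norm_mulOp_le (hb F) (norm_nonneg _) (ae_of_all _ fun x => F.norm_coe_le_norm _)
  have hn : IsStarNormal (mulOp ν a) := by
    refine ⟨?_⟩
    rw [← mulOp_star ha, Commute, SemiconjBy, ← mulOp_mul ha.conj ha, ← mulOp_mul ha ha.conj]
    simp only [mul_comm]
  have hsp := spectrum_mulOp (ν := ν) ha hs.isClosed h
  have e := ContinuousMap.UniqueHom.eq_of_continuous_of_map_id s (cfcHomSuperset hn hsp) φ
    (cfcHomSuperset_continuous hn hsp) hφ (by rw [cfcHomSuperset_id]; rfl)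
  have e2 := congrArg (fun ψ : C(s, ℂ) →⋆ₐ[ℂ] (H2 ν →L[ℂ] H2 ν) => ψ ⟨_, hg.domRestrict⟩) e
  rw [cfc_apply g _ hn (hg.mono hsp)]
  exact e2

/-- The real functional calculus of a generic C⋆-algebra. (On `H2 ν →L[ℂ] H2 ν` instance search
finds another, only propositionally equal, `ℝ`-algebra structure: always go through `cfcR`, prove
facts about it for a generic `A`, and use complex scalars in concrete algebras.) -/
noncomputable def cfcR {A : Type*} [CStarAlgebra A] (g : ℝ → ℝ) (x : A) : A := cfc g x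

/-- `cfc_real_eq_complex`. -/
lemma cfcR_eq {A : Type*} [CStarAlgebra A] (g : ℝ → ℝ) {x : A} (hx : IsSelfAdjoint x) :
    cfcR g x = cfc (fun z : ℂ => (g z.re : ℂ)) x := by
  exact cfc_real_eq_complex g hx

/-- Real version of `cfc_mulOp`. -/
theorem cfcR_mulOp {a : X → ℝ} (ha : Bd a) {s : Set ℝ} (hs : IsCompact s) (h : ∀ x, a x ∈ s)
    {g : ℝ → ℝ} (hg : ContinuousOn g s) :
    cfcR g (mulOp ν fun x => (a x : ℂ)) = mulOp ν fun x => (g (a x) : ℂ) := by
  have hsa : IsSelfAdjoint (mulOp ν fun x => (a x : ℂ)) := by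
    rw [IsSelfAdjoint, ← mulOp_star ha.ofReal]
    simp only [Complex.conj_ofReal]
  rw [cfcR_eq g hsa, cfc_mulOp ha.ofReal (hs.image Complex.continuous_ofReal)
    (fun x => ⟨a x, h x, rfl⟩)]
  · simp only [Complex.ofReal_re]
  · refine Complex.continuous_ofReal.comp_continuousOn
      (hg.comp Complex.continuous_re.continuousOn ?_)
    rintro _ ⟨y, hy, rfl⟩
    simpa using hy

lemma cfcm_pos {B : Type*} [CStarAlgebra B] (x : B) {ε : ℝ} (hε : 0 < ε) {z : ℂ}
    (hz : z ∈ spectrum ℂ (star x * x + (ε : ℂ) • (1 : B))) : 0 < z.re := by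
  rw [← Algebra.algebraMap_eq_smul_one, ← spectrum.add_singleton_eq] at hz
  obtain ⟨y, hy, _, rfl, rfl⟩ := hz
  have h1 := (IsSelfAdjoint.star_mul_self x).mem_spectrum_eq_re hy
  have h2 : y.re ∈ spectrum ℝ (star x * x) := by
    rw [← spectrum.algebraMap_mem_iff ℂ]
    exact h1 ▸ hy
  have h3 := spectrum_star_mul_self_nonneg _ h2
  simp only [Complex.add_re, Complex.ofReal_re]
  linarith

/-- `StarAlgHom.map_cfc` for the inclusion of a closed subalgebra (spectral permanence:
`StarSubalgebra.spectrum_eq`); the spectrum lies in `[ε, ∞)`. -/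
theorem coe_cfcR_log {A : Type*} [CStarAlgebra A] (S : StarSubalgebra ℂ A)
    [IsClosed (S : Set A)] (x : S) {ε : ℝ} (hε : 0 < ε) :
    ((cfcR Real.log (star x * x + (ε : ℂ) • (1 : S)) : S) : A) =
      cfcR Real.log (star (x : A) * x + (ε : ℂ) • (1 : A)) := by
  have hsa : IsSelfAdjoint (star x * x + (ε : ℂ) • (1 : S)) :=
    (IsSelfAdjoint.star_mul_self x).add (by
      rw [IsSelfAdjoint, star_smul, star_one, Complex.star_def, Complex.conj_ofReal])
  have hsa' : IsSelfAdjoint (star (x : A) * x + (ε : ℂ) • (1 : A)) := hsa.map S.subtype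
  rw [cfcR_eq _ hsa, cfcR_eq _ hsa']
  refine StarAlgHomClass.map_cfc S.subtype _ _ ?_ continuous_subtype_val hsa.isStarNormal
    hsa'.isStarNormal
  refine Complex.continuous_ofReal.comp_continuousOn
    (Real.continuousOn_log.comp Complex.continuous_re.continuousOn fun z hz => ?_)
  exact (cfcm_pos x hε hz).ne'

end Crest.Agent.R113
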