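import Crest.Agent.R113.Cov

/-! Row 113: tick arithmetic for `Clk.sep` and `Clk.ideal`. -/

set_option autoImplicit false

namespace Crest.Agent.R113

open MeasureTheory Finset

lemma coe_mem_arc_iff (s l w : ℝ) :
    (w : T) ∈ arc s l ↔ ∃ k : ℤ, s + k ≤ w ∧ w < s + l + k := by
  constructor
  · rintro ⟨r, hr, h⟩
    have h1 : ((w - r : ℝ) : T) = 0 := by rw [AddCircle.coe_sub, h, sub_self]
    obtain ⟨k, hk⟩ := (AddCircle.coe_eq_zero_iff _).1 h1
    rw [zsmul_one] at hk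
    exact ⟨k, by linarith [hr.1], by linarith [hr.2]⟩
  · rintro ⟨k, h1, h2⟩
    refine ⟨w - k, ⟨by linarith, by linarith⟩, ?_⟩
    have h3 : ((k : ℝ) : T) = 0 := (AddCircle.coe_eq_zero_iff _).2 ⟨k, zsmul_one k⟩
    rw [AddCircle.coe_sub, h3, sub_zero]

lemma nsmul_add_zsmul (n : ℕ) (θ x : ℝ) (v : ℤ) :
    n • ((x : T) + v • (θ : T)) = ((n * x + v * Int.fract (n * θ) : ℝ) : T) := by
  rw [smul_add, smul_comm, nsmul_coe n θ, AddCircle.coe_add, ← nsmul_eq_mul n x, ← zsmul_eq_mul,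
    AddCircle.coe_nsmul, AddCircle.coe_zsmul]

/-- The step `v` is a tick iff the clock passes an integer between the steps `v` and `v + 1`. -/
lemma tick_iff (n : ℕ) (θ x : ℝ) (v : ℤ) :
    n • ((x : T) + v • (θ : T)) ∈ arc (1 - Int.fract (n * θ)) (Int.fract (n * θ)) ↔
      ∃ k : ℤ, n * x + v * Int.fract (n * θ) < k ∧ k ≤ n * x + (v + 1) * Int.fract (n * θ) := by
  rw [nsmul_add_zsmul, coe_mem_arc_iff]
  constructor
  · rintro ⟨k, h1, h2⟩
    exact ⟨k + 1, by push_cast; linarith, by push_cast; linarith⟩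
  · rintro ⟨k, h1, h2⟩
    exact ⟨k - 1, by push_cast; linarith, by push_cast; linarith⟩

lemma ia_eq_one (n : ℕ) (s l x : ℝ) (h : ∃ k : ℤ, s + k ≤ n * x ∧ n * x < s + l + k) :
    ia n s l (x : T) = 1 := by
  rw [ia, Set.indicator_of_mem]
  rwa [← AddCircle.coe_nsmul, nsmul_eq_mul, coe_mem_arc_iff]

lemma ia_eq_zero (n : ℕ) (s l x : ℝ) (h : ¬∃ k : ℤ, s + k ≤ n * x ∧ n * x < s + l + k) :
    ia n s l (x : T) = 0 := by
  rw [ia, Set.indicator_of_notMem]
  rwa [← AddCircle.coe_nsmul, nsmul_eq_mul, coe_mem_arc_iff]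

lemma ia_nonneg (n : ℕ) (s l : ℝ) (x : T) : 0 ≤ ia n s l x :=
  Set.indicator_nonneg (fun _ _ => zero_le_one) _

/-- A level crossed in `u` steps is crossed at one of them. -/
lemma exists_cross {y α c : ℝ} {u : ℕ} (h1 : y < c) (h2 : c ≤ y + u * α) :
    ∃ v : ℕ, v < u ∧ y + v * α < c ∧ c ≤ y + (v + 1) * α := by
  induction u with
  | zero => simp at h2; linarith
  | succ u ih =>
    by_cases h : c ≤ y + u * α
    · obtain ⟨v, hv, h3⟩ := ih h
      exact ⟨v, by omega, h3⟩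
    · exact ⟨u, by omega, not_le.1 h, by push_cast at h2; exact h2⟩

/-- Counting the times `u ∈ [1, N]` after the first visit. -/
lemma sum_hit_eq {a : T} {B : Set T} {x : T} {τ : ℕ} (h1 : x + τ • a ∈ B)
    (h2 : ∀ v < τ, x + v • a ∉ B) (N : ℕ) :
    ∑ u ∈ Icc 1 N, (hit a B u x : ℝ) = N - min τ N := by
  have hh : ∀ u, (hit a B u x : ℝ) = if τ < u then 1 else 0 := by
    intro u
    unfold hit
    by_cases h : τ < u
    · rw [if_pos ⟨τ, h, h1⟩, if_pos h]; simp
    · rw [if_neg, if_neg h]; · simp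
      rintro ⟨v, hv, h3⟩
      exact h2 v (by omega) h3
  simp only [hh]
  induction N with
  | zero => simp
  | succ N ih =>
    rw [Finset.sum_Icc_succ_top (by omega), ih]
    by_cases h : τ < N + 1
    · rw [if_pos h, min_eq_left (by omega : τ ≤ N), min_eq_left (by omega : τ ≤ N + 1)]
      push_cast; ring
    · rw [if_neg h, min_eq_right (by omega : N ≤ τ), min_eq_right (by omega : N + 1 ≤ τ)]
      push_cast; ring

end Crest.Agent.R113
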