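import Crest.Agent.R113.Cov
import Crest.Agent.R113.Hit
import Crest.Agent.R113.ClockAux2

/-! Row 113: one clock with delayed ticks. -/

set_option autoImplicit false

namespace Crest.Agent.R113

open MeasureTheory Finset

/-- Ticks of the clock `n • x`, delayed to the first visit of the ball of radius `r`. -/
def bar (θ : ℝ) (n : ℕ) (r : ℝ) : Set T :=
  {x | ‖x‖ < r ∧ ∃ j : ℕ, n • (x - j • (θ : T)) ∈ arc (1 - Int.fract (n * θ)) (Int.fract (n * θ)) ∧
    ∀ j' : ℕ, 0 < j' → j' ≤ j → r ≤ ‖x - j' • (θ : T)‖}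

variable {θ r : ℝ} {n R N : ℕ}

/-- Standing hypotheses; `α = fract (n θ)`, `L = 1 / α`. Write `n • x = y ∈ [0,1)`. The step
`v ∈ ℤ` is a tick iff `fract (y + v α) ≥ 1 - α` iff `(k - y) L - 1 ≤ v < (k - y) L` for an integer
`k` (`coe_mem_arc`, `nsmul_coe`). A barrier time is a tick time plus a delay `≤ R`; every tick
produces a barrier within `R` steps. -/
structure Clk (θ r : ℝ) (n R N : ℕ) : Prop where
  pos : 0 < Int.fract (n * θ)
  vis : ∀ x : T, ∃ u : ℕ, u ≤ R ∧ ‖x + u • (θ : T)‖ < r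
  N_eq : N + R + 1 = ⌊1 / Int.fract (n * θ)⌋₊

lemma measurableSet_bar : MeasurableSet (bar θ n r) := by
  have h : bar θ n r = {x | ‖x‖ < r} ∩ ⋃ j : ℕ, ((fun x : T => n • (x - j • (θ : T))) ⁻¹'
      arc (1 - Int.fract (n * θ)) (Int.fract (n * θ))) ∩
      ⋂ j' : ℕ, ⋂ _ : 0 < j', ⋂ _ : j' ≤ j, {x : T | r ≤ ‖x - j' • (θ : T)‖} := by
    ext x
    simp only [bar, Set.mem_ofPred_eq, Set.mem_inter_iff, Set.mem_iUnion, Set.mem_preimage,
      Set.mem_iInter]
  rw [h]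
  refine (isOpen_lt continuous_norm continuous_const).measurableSet.inter
    (MeasurableSet.iUnion fun j => MeasurableSet.inter ?_ (MeasurableSet.iInter fun j' =>
      MeasurableSet.iInter fun _ => MeasurableSet.iInter fun _ => ?_))
  · exact (by fun_prop : Continuous fun x : T => n • (x - j • (θ : T))).measurable
      (measurableSet_arc _ _)
  · exact (isClosed_le continuous_const (by fun_prop)).measurableSet

/-- The delay is at most `R`. -/
lemma Clk.delay (h : Clk θ r n R N) {x : T} (hx : x ∈ bar θ n r) : ∃ j : ℕ, j ≤ R ∧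
    n • (x - j • (θ : T)) ∈ arc (1 - Int.fract (n * θ)) (Int.fract (n * θ)) ∧
    ∀ j' : ℕ, 0 < j' → j' ≤ j → r ≤ ‖x - j' • (θ : T)‖ := by
  obtain ⟨-, j, h1, h2⟩ := hx
  refine ⟨j, ?_, h1, h2⟩
  by_contra hj
  obtain ⟨u, hu, h3⟩ := h.vis (x - (R + 1) • (θ : T))
  have h4 := h2 (R + 1 - u) (by omega) (by omega)
  have h5 : x - (R + 1) • (θ : T) + u • (θ : T) = x - (R + 1 - u) • (θ : T) := by
    rw [show (R + 1) • (θ : T) = (R + 1 - u) • (θ : T) + u • (θ : T) by
      rw [← add_nsmul, Nat.sub_add_cancel (by omega)]]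
    abel
  rw [h5] at h3
  exact absurd h3 (not_lt.2 h4)

lemma Clk.tick (h : Clk θ r n R N) {z : T}
    (hz : n • z ∈ arc (1 - Int.fract (n * θ)) (Int.fract (n * θ))) :
    ∃ j : ℕ, j ≤ R ∧ z + j • (θ : T) ∈ bar θ n r := by
  classical
  have hex : ∃ u : ℕ, ‖z + u • (θ : T)‖ < r := (h.vis z).imp fun _ hu => hu.2
  refine ⟨Nat.find hex, ?_, Nat.find_spec hex, Nat.find hex, ?_, fun j' h0 hj => ?_⟩
  · obtain ⟨u, hu, h1⟩ := h.vis z
    exact (Nat.find_min' hex h1).trans hu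
  · rwa [add_sub_cancel_right]
  · have h1 := Nat.find_min hex (m := Nat.find hex - j') (by omega)
    have h2 : z + Nat.find hex • (θ : T) - j' • (θ : T) = z + (Nat.find hex - j') • (θ : T) := by
      rw [show Nat.find hex • (θ : T) = (Nat.find hex - j') • (θ : T) + j' • (θ : T) by
        rw [← add_nsmul, Nat.sub_add_cancel hj]]
      abel
    rw [h2]
    exact not_lt.1 h1

lemma nsmul_add_nsmul_coe (y : ℝ) {z : T} (hz : n • z = (y : T)) (v : ℕ) :
    n • (z + v • (θ : T)) = ((y + v * Int.fract (n * θ) : ℝ) : T) := by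
  rw [nsmul_add, hz, smul_comm, nsmul_coe, AddCircle.coe_add, ← nsmul_eq_mul v, AddCircle.coe_nsmul]

/-- Distinct ticks are at least `⌊L⌋` steps apart. -/
lemma Clk.tick_gap (h : Clk θ r n R N) {z : T} {v : ℕ} (hv : 0 < v)
    (hz : n • z ∈ arc (1 - Int.fract (n * θ)) (Int.fract (n * θ)))
    (hz' : n • (z + v • (θ : T)) ∈ arc (1 - Int.fract (n * θ)) (Int.fract (n * θ))) :
    N + R + 1 ≤ v := by
  by_contra hlt
  obtain ⟨y, hy, hz⟩ := hz
  have hα := h.pos
  have h1 : ((v + 1 : ℕ) : ℝ) ≤ 1 / Int.fract (n * θ) := by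
    rw [← Nat.le_floor_iff (by positivity), ← h.N_eq]
    omega
  rw [le_div_iff₀ hα] at h1
  push_cast at h1
  have h2 : (1 : ℝ) ≤ v := by exact_mod_cast hv
  rw [nsmul_add_nsmul_coe y hz, coe_mem_arc (Int.fract_lt_one _).le,
    Int.fract_eq_self.2 ⟨by nlinarith [hy.1], by nlinarith [hy.2]⟩] at hz'
  nlinarith [hy.1]

/-- A tick occurs within `⌊L⌋` steps. -/
lemma Clk.tick_ret (h : Clk θ r n R N) (x : T) : ∃ v : ℕ, v ≤ N + R + 1 ∧
    n • (x + v • (θ : T)) ∈ arc (1 - Int.fract (n * θ)) (Int.fract (n * θ)) := by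
  have hα := h.pos
  obtain ⟨y, hy, hx⟩ : ∃ y ∈ Set.Ico (0 : ℝ) (0 + 1), (y : T) = n • x := by
    obtain ⟨y, hy⟩ := (AddCircle.equivIco 1 0).symm.surjective (n • x)
    exact ⟨y, y.2, hy⟩
  have hpos : 0 < (1 - y) / Int.fract (n * θ) := div_pos (by linarith [hy.2]) hα
  obtain ⟨v, hv⟩ : ∃ v : ℕ, ⌈(1 - y) / Int.fract (n * θ)⌉₊ = v + 1 :=
    Nat.exists_eq_succ_of_ne_zero (Nat.ceil_pos.2 hpos).ne'
  have h1 := Nat.le_ceil ((1 - y) / Int.fract (n * θ))
  have h2 := Nat.ceil_lt_add_one hpos.le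
  rw [hv] at h1 h2
  push_cast at h1 h2
  rw [add_lt_add_iff_right, lt_div_iff₀ hα] at h2
  rw [div_le_iff₀ hα] at h1
  refine ⟨v, ?_, y + v * Int.fract (n * θ), ⟨by linarith, by linarith⟩,
    nsmul_add_nsmul_coe y hx.symm v⟩
  rw [h.N_eq]
  refine Nat.le_floor ?_
  rw [le_div_iff₀ hα]
  linarith [hy.1]

/-- Same tick: contradiction with "first visit"; distinct ticks are `≥ ⌊L⌋` apart. -/
theorem Clk.gap (h : Clk θ r n R N) :
    ∀ x ∈ bar θ n r, ∀ u : ℕ, 0 < u → u < N → x + u • (θ : T) ∉ bar θ n r := by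
  intro x hx u hu huN hx'
  obtain ⟨j, hj, h1, -⟩ := h.delay hx
  obtain ⟨j', -, h2, h3⟩ := h.delay hx'
  have hju : j' < u := by
    by_contra h4
    have h5 := h3 u hu (not_lt.1 h4)
    rw [add_sub_cancel_right] at h5
    exact absurd hx.1 (not_lt.2 h5)
  have h4 : x + u • (θ : T) - j' • (θ : T) = x - j • (θ : T) + (u - j' + j) • (θ : T) := by
    rw [add_nsmul, show u • (θ : T) = (u - j') • (θ : T) + j' • (θ : T) by
      rw [← add_nsmul, Nat.sub_add_cancel hju.le]]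
    abel
  rw [h4] at h2
  have := h.tick_gap (by omega) h1 h2
  omega

theorem Clk.ret (h : Clk θ r n R N) (x : T) :
    ∃ u : ℕ, u < N + 2 * R + 2 ∧ x + u • (θ : T) ∈ bar θ n r := by
  obtain ⟨v, hv, h1⟩ := h.tick_ret x
  obtain ⟨j, hj, h2⟩ := h.tick h1
  refine ⟨v + j, by omega, ?_⟩
  rwa [add_nsmul, ← add_assoc]

/-- The first barrier time and the tick it comes from. -/
lemma Clk.first (h : Clk θ r n R N) (x : ℝ) : ∃ (τ : ℕ) (k : ℤ), τ < N + 2 * R + 2 ∧
    ∑ u ∈ Icc 1 N, (hit (θ : T) (bar θ n r) u (x : T) : ℝ) = N - min τ N ∧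
    n * x + (τ - R) * Int.fract (n * θ) < k ∧ k ≤ n * x + (τ + 1) * Int.fract (n * θ) := by
  classical
  have hex : ∃ u : ℕ, (x : T) + u • (θ : T) ∈ bar θ n r := (h.ret x).imp fun _ hu => hu.2
  obtain ⟨u, hu, hu'⟩ := h.ret (x : T)
  obtain ⟨j, hj, hj', -⟩ := h.delay (Nat.find_spec hex)
  have he : (x : T) + Nat.find hex • (θ : T) - j • (θ : T) =
      (x : T) + ((Nat.find hex : ℤ) - j) • (θ : T) := by
    rw [sub_zsmul, natCast_zsmul, natCast_zsmul]; abel
  rw [he, tick_iff] at hj'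
  obtain ⟨k, h1, h2⟩ := hj'
  push_cast at h1 h2
  have hj1 : (j : ℝ) ≤ R := by exact_mod_cast hj
  have hj0 : (0 : ℝ) ≤ j := Nat.cast_nonneg j
  refine ⟨Nat.find hex, k, (Nat.find_min' hex hu').trans_lt hu,
    sum_hit_eq (Nat.find_spec hex) (fun v hv => Nat.find_min hex hv) N, ?_, ?_⟩
  · nlinarith [h.pos]
  · nlinarith [h.pos]

lemma Clk.mul_le (h : Clk θ r n R N) : (N + R + 1 : ℝ) * Int.fract (n * θ) ≤ 1 := by
  have h1 : ((N + R + 1 : ℕ) : ℝ) ≤ 1 / Int.fract (n * θ) := by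
    rw [h.N_eq]; exact Nat.floor_le (one_div_pos.2 h.pos).le
  rw [le_div_iff₀ h.pos] at h1
  exact_mod_cast h1

/-- With `τ x` the first barrier time, the sum is `|min (τ x) N - min (τ x') N|`,
`τ ≤ N + 2 R + 1`, and `τ x - (k - y) L ∈ [-1, R)` for some integer `k`, so
`|τ x - τ x'| ≥ L dz (D α) - (R + 1)`. -/
theorem Clk.sep (h : Clk θ r n R N) (x : T) (D : ℤ) :
    N * dz (D * Int.fract (n * θ)) - (4 * R + 4) ≤ ∑ u ∈ Icc 1 N,
      |(hit (θ : T) (bar θ n r) u x : ℝ) - hit (θ : T) (bar θ n r) u (x + D • (θ : T))| := by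
  induction x using QuotientAddGroup.induction_on with | H x => ?_
  have hx : (x : T) + D • (θ : T) = ((x + D * θ : ℝ) : T) := by
    rw [AddCircle.coe_add, ← zsmul_eq_mul, AddCircle.coe_zsmul]
  refine le_trans ?_ (Finset.abs_sum_le_sum_abs _ _)
  obtain ⟨τ, k, h1, h2, h3, h4⟩ := h.first x
  obtain ⟨τ', k', h1', h2', h3', h4'⟩ := h.first (x + D * θ)
  rw [hx, Finset.sum_sub_distrib, h2, h2']
  have hα := h.pos
  have hL := h.mul_le
  have hfl : (n : ℝ) * (x + D * θ) = n * x + D * ⌊(n : ℝ) * θ⌋ + D * Int.fract (n * θ) := by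
    rw [Int.fract]; ring
  rw [hfl] at h3' h4'
  set α := Int.fract ((n : ℝ) * θ)
  have hdz : dz (D * α) ≤ |D * α - ((k' - D * ⌊(n : ℝ) * θ⌋ - k : ℤ) : ℝ)| := round_le _ _
  have hdz0 : 0 ≤ dz (D * α) := abs_nonneg _
  have h5 : dz (D * α) ≤ (|(τ : ℝ) - τ'| + (R + 1)) * α := by
    refine hdz.trans (abs_le.2 ⟨?_, ?_⟩)
    · push_cast; nlinarith [le_abs_self ((τ : ℝ) - τ'), neg_abs_le ((τ : ℝ) - τ')]
    · push_cast; nlinarith [le_abs_self ((τ : ℝ) - τ'), neg_abs_le ((τ : ℝ) - τ')]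
  have hR : (0 : ℝ) ≤ R := Nat.cast_nonneg R
  have hN : (0 : ℝ) ≤ N := Nat.cast_nonneg N
  have h6 : (N : ℝ) * dz (D * α) ≤ |(τ : ℝ) - τ'| + (R + 1) := by
    have h7 : (0 : ℝ) ≤ |(τ : ℝ) - τ'| + (R + 1) := by positivity
    calc (N : ℝ) * dz (D * α) ≤ N * ((|(τ : ℝ) - τ'| + (R + 1)) * α) :=
          mul_le_mul_of_nonneg_left h5 hN
      _ = (|(τ : ℝ) - τ'| + (R + 1)) * (N * α) := by ring
      _ ≤ (|(τ : ℝ) - τ'| + (R + 1)) * 1 :=
          mul_le_mul_of_nonneg_left (by nlinarith) h7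
      _ = _ := mul_one _
  have h8 : ∀ t : ℕ, t < N + 2 * R + 2 →
      ((min t N : ℕ) : ℝ) ≤ t ∧ (t : ℝ) - (2 * R + 1) ≤ (min t N : ℕ) := by
    intro t ht
    refine ⟨by exact_mod_cast min_le_left t N, ?_⟩
    have : t ≤ min t N + (2 * R + 1) := by omega
    have : (t : ℝ) ≤ (min t N : ℕ) + (2 * R + 1) := by exact_mod_cast this
    linarith
  obtain ⟨h9, h10⟩ := h8 τ h1
  obtain ⟨h9', h10'⟩ := h8 τ' h1'
  have h11 := le_abs_self ((N : ℝ) - (min τ N : ℕ) - (N - (min τ' N : ℕ)))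
  have h12 := neg_abs_le ((N : ℝ) - (min τ N : ℕ) - (N - (min τ' N : ℕ)))
  have h13 : |(τ : ℝ) - τ'| ≤ |(N : ℝ) - (min τ N : ℕ) - (N - (min τ' N : ℕ))| + (2 * R + 1) :=
    abs_le.2 ⟨by linarith, by linarith⟩
  linarith

/-- `ia n (1 - u α) (u α) x = 1` iff a tick occurs at a step `v < u`. If the two indicators differ
there is a tick at one of the `2 R` steps `-R ≤ v < 0` or `u - R ≤ v < u`. -/
theorem Clk.ideal (h : Clk θ r n R N) {u : ℕ} (hu : u ≤ N) :
    ∫ x, |(hit (θ : T) (bar θ n r) u x : ℝ) -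
      ia n (1 - u * Int.fract (n * θ)) (u * Int.fract (n * θ)) x| ≤ 2 * R * Int.fract (n * θ) := by
  have hα := h.pos
  have hL := h.mul_le
  have hn : 1 ≤ n := by
    rcases Nat.eq_zero_or_pos n with rfl | hn
    · simp at hα
    · exact hn
  have hR : (0 : ℝ) ≤ R := Nat.cast_nonneg R
  have hN : (0 : ℝ) ≤ N := Nat.cast_nonneg N
  have h0 : 0 ≤ R * Int.fract (n * θ) := by positivity
  have h1 : R * Int.fract (n * θ) ≤ 1 := by nlinarith
  have key : ∀ x : T, |(hit (θ : T) (bar θ n r) u x : ℝ) -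
      ia n (1 - u * Int.fract (n * θ)) (u * Int.fract (n * θ)) x| ≤
      ia n 0 (R * Int.fract (n * θ)) x +
        ia n (-(u * Int.fract (n * θ))) (R * Int.fract (n * θ)) x := by
    intro x
    induction x using QuotientAddGroup.induction_on with | H x => ?_
    have n1 := ia_nonneg n 0 (R * Int.fract (n * θ)) (x : T)
    have n2 := ia_nonneg n (-(u * Int.fract (n * θ))) (R * Int.fract (n * θ)) (x : T)
    by_cases hi : ∃ k : ℤ, 1 - u * Int.fract (n * θ) + k ≤ n * x ∧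
        n * x < 1 - u * Int.fract (n * θ) + u * Int.fract (n * θ) + k
    · rw [ia_eq_one _ _ _ _ hi]
      by_cases hh : ∃ v : ℕ, v < u ∧ (x : T) + v • (θ : T) ∈ bar θ n r
      · rw [hit, if_pos hh]; simp only [Nat.cast_one, sub_self, abs_zero]; linarith
      · obtain ⟨k, h2, h3⟩ := hi
        obtain ⟨v, hv, h4, h5⟩ := exists_cross (y := n * x) (α := Int.fract (n * θ))
          (c := (k + 1 : ℝ)) (u := u) (by linarith) (by linarith)
        have ht := (tick_iff n θ x v).2 ⟨k + 1, by push_cast; linarith, by push_cast; linarith⟩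
        obtain ⟨j, hj, hj'⟩ := h.tick ht
        have hu' : u ≤ v + j := by
          by_contra hc
          refine hh ⟨v + j, by omega, ?_⟩
          rwa [natCast_zsmul, add_assoc, ← add_nsmul] at hj'
        have hu'' : (u : ℝ) ≤ v + R := by exact_mod_cast hu'.trans (by omega)
        rw [hit, if_neg hh, ia_eq_one n (-(u * Int.fract (n * θ))) _ x
          ⟨k + 1, by push_cast; linarith, by push_cast; nlinarith⟩]
        simp only [Nat.cast_zero, zero_sub, abs_neg, abs_one]; linarith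
    · rw [ia_eq_zero _ _ _ _ hi]
      by_cases hh : ∃ v : ℕ, v < u ∧ (x : T) + v • (θ : T) ∈ bar θ n r
      · rw [hit, if_pos hh]
        obtain ⟨v, hv, hv'⟩ := hh
        obtain ⟨j, hj, hj', -⟩ := h.delay hv'
        have he : (x : T) + v • (θ : T) - j • (θ : T) = (x : T) + ((v : ℤ) - j) • (θ : T) := by
          rw [sub_zsmul, natCast_zsmul, natCast_zsmul]; abel
        rw [he, tick_iff] at hj'
        obtain ⟨k, h2, h3⟩ := hj'
        push_cast at h2 h3
        have hj1 : (j : ℝ) ≤ R := by exact_mod_cast hj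
        have hj0 : (0 : ℝ) ≤ j := Nat.cast_nonneg j
        have hv0 : (0 : ℝ) ≤ v := Nat.cast_nonneg v
        have hv1 : (v : ℝ) + 1 ≤ u := by exact_mod_cast hv
        have hk : (k : ℝ) ≤ n * x := by
          by_contra hc
          exact hi ⟨k - 1, by push_cast; nlinarith, by push_cast; linarith⟩
        rw [ia_eq_one n 0 _ x ⟨k, by linarith, by nlinarith⟩]
        simp only [Nat.cast_one, sub_zero, abs_one]; linarith
      · rw [hit, if_neg hh]; simp only [Nat.cast_zero, sub_self, abs_zero]; linarith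
  have i1 := (bd_ia n 0 (R * Int.fract (n * θ))).integrable (volume : Measure T)
  have i2 := (bd_ia n (-(u * Int.fract (n * θ))) (R * Int.fract (n * θ))).integrable
    (volume : Measure T)
  refine (integral_mono_of_nonneg (ae_of_all _ fun x => abs_nonneg _) (i1.add i2)
    (ae_of_all _ key)).trans_eq ?_
  simp only [Pi.add_apply]
  rw [integral_add i1 i2, integral_ia hn _ h0 h1, integral_ia hn _ h0 h1]; ring

end Crest.Agent.R113
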