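import Mathlib

/-! Row 113: the abstract convexity lemma (near-minimiser with small second derivative). -/

set_option autoImplicit false

namespace Crest.Agent.R113

lemma cvx_le {f f' : ℝ → ℝ} (hf : ∀ s, HasDerivAt f (f' s) s) {r : ℝ} (hr : 0 ≤ r)
    (h : ∀ s ∈ Set.Icc 0 r, 0 ≤ f' s) : f 0 ≤ f r := by
  rcases hr.eq_or_lt with rfl | hr'
  · exact le_rfl
  obtain ⟨c, hc, e⟩ := exists_hasDerivAt_eq_slope f f' hr'
    (fun s _ => (hf s).continuousAt.continuousWithinAt) fun s _ => hf s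
  have := h c ⟨hc.1.le, hc.2.le⟩
  rw [e, sub_zero, le_div_iff₀ hr'] at this
  linarith

lemma cvx_taylor {u u' u'' : ℝ → ℝ} (h1 : ∀ s, HasDerivAt u (u' s) s)
    (h2 : ∀ s, HasDerivAt u' (u'' s) s) {r m : ℝ} (hr : 0 ≤ r)
    (h : ∀ s ∈ Set.Icc 0 r, m ≤ u'' s) : u 0 + r * u' 0 + m * r ^ 2 / 2 ≤ u r := by
  have a1 : ∀ s ∈ Set.Icc 0 r, 0 ≤ u' s - u' 0 - m * s := by
    intro s hs
    have := cvx_le (f := fun t => u' t - m * t) (f' := fun t => u'' t - m)
      (fun t => (h2 t).sub (by simpa using (hasDerivAt_id t).const_mul m)) hs.1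
      fun t ht => sub_nonneg.2 (h t ⟨ht.1, ht.2.trans hs.2⟩)
    simp only [mul_zero, sub_zero] at this
    linarith
  have := cvx_le (f := fun t => u t - u' 0 * t - m * t ^ 2 / 2) (f' := fun t => u' t - u' 0 - m * t)
    (fun t => ((h1 t).sub (by simpa using (hasDerivAt_id t).const_mul (u' 0))).sub
      ((((hasDerivAt_pow 2 t).const_mul m).div_const 2).congr_deriv (by simp; ring))) hr a1
  simp only [mul_zero, sub_zero] at this
  nlinarith

lemma cvx_second {u u' u'' : ℝ → ℝ} (h1 : ∀ s, HasDerivAt u (u' s) s)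
    (h2 : ∀ s, HasDerivAt u' (u'' s) s) {m : ℝ} (h : ∀ s ∈ Set.Icc (-1 : ℝ) 1, m ≤ u'' s) :
    m ≤ u 1 + u (-1) - 2 * u 0 := by
  have a1 := cvx_taylor h1 h2 zero_le_one fun s hs => h s ⟨by linarith [hs.1], hs.2⟩
  have a2 := cvx_taylor (u := fun s => u (-s)) (u' := fun s => -u' (-s)) (u'' := fun s => u'' (-s))
    (fun s => ((h1 (-s)).comp s (hasDerivAt_neg s)).congr_deriv (by ring))
    (fun s => ((h2 (-s)).comp s (hasDerivAt_neg s)).neg.congr_deriv (by ring)) zero_le_one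
    fun s hs => h (-s) ⟨by linarith [hs.2], by linarith [hs.1]⟩
  simp only [neg_zero] at a2
  linarith

set_option maxHeartbeats 800000 in
/-- `Φ` is `C²` and convex along lines, `D k` is its derivative at `k`, `Q k d` the second derivative.

Sketch. Along every line `u s = Φ (k + s • d)` has `u'' ≥ 0`, so `Φ k + D k d ≤ Φ (k + d)` (tangent
inequality), `Φ` is convex on segments, and `|Φ (k - s • e) - Φ k| ≤ Λ |s|`.
Put `g v = sInf {Φ (b - v • e) | b ∈ S}` (bounded below by `Φ 0 - η`): `Λ`-Lipschitz and convex.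
The second differences `g (j+1) - 2 g j + g (j-1)`, `j = V+1, …, 2V-1`, telescope to at most `2Λ`,
so one of them is `≤ Δ`. Take `b₁, b₂ ∈ S` with `Φ (b₁ - (j+1) e) ≤ g (j+1) + Δ`,
`Φ (b₂ - (j-1) e) ≤ g (j-1) + Δ`; `k₀ = (b₁ + b₂)/2 - j e`, `d = (b₁ - b₂)/2 - e`,
`u s = Φ (k₀ + s d)`: `u 1 + u (-1) - 2 u 0 ≤ 3Δ`, so `u'' s ≤ 3Δ` for some `s ∈ [-1,1]` (else
`u - (3Δ/2) s²` is strictly convex). `b = ((1+s) b₁ + (1-s) b₂)/2`, `v = j + s`, `k = b - v e`.
Convexity of `u` and of `g` (for `s ≥ 0`: `g (j+s) ≥ (1+s) g j - s g (j-1)`) give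
`Φ k ≤ g v + 2Δ`. For `b' ∈ S`, `r = √Δ/(2R) ≤ 1`:
`g v ≤ Φ (k + r (b' - b)) ≤ Φ k + r D k (b' - b) + 8 r² R²`, so `D k (b' - b) ≥ -8 R √Δ`.
With `b' = 0`: `D k b ≤ 8 R √Δ`. Tangent inequalities at `k` towards `-v e` and towards `0` give
`-D k b ≤ η + 2 V Λ` and `v D k e ≤ η + D k b`. -/
theorem convex_step {E : Type*} [AddCommGroup E] [Module ℝ E] (Φ : E → ℝ) (D : E → E →ₗ[ℝ] ℝ)
    (Q : E → E → ℝ)
    (h1 : ∀ k d (s : ℝ), HasDerivAt (fun s : ℝ => Φ (k + s • d)) (D (k + s • d) d) s)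
    (h2 : ∀ k d (s : ℝ), HasDerivAt (fun s : ℝ => D (k + s • d) d) (Q (k + s • d) d) s)
    (hQ : ∀ k d, 0 ≤ Q k d) {S : Set E} (hS : Convex ℝ S) (h0 : (0 : E) ∈ S) (e : E)
    {Λ R η Δ : ℝ} {V : ℕ} (hV : 2 ≤ V) (hΛ : 0 < Λ) (hR : 0 < R) (hΔ : Δ = 2 * Λ / (V - 1))
    (hΔR : Δ ≤ 4 * R ^ 2) (hDe : ∀ k, |D k e| ≤ Λ)
    (hQS : ∀ k, ∀ b ∈ S, ∀ b' ∈ S, Q k (b - b') ≤ 16 * R ^ 2) (hlow : ∀ k, Φ 0 - η ≤ Φ k) :
    ∃ v : ℝ, V ≤ v ∧ v ≤ 2 * V ∧ ∃ b ∈ S, ∃ b₁ ∈ S, ∃ b₂ ∈ S,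
      Q (b - v • e) ((1 / 2 : ℝ) • (b₁ - b₂) - e) ≤ 3 * Δ ∧
      (∀ b' ∈ S, -(η + 2 * V * Λ + 8 * R * √Δ) ≤ D (b - v • e) b') ∧
      V * D (b - v • e) e ≤ η + 8 * R * √Δ := by
  have hV' : (2 : ℝ) ≤ V := by exact_mod_cast hV
  have hΔ0 : 0 < Δ := by rw [hΔ]; exact div_pos (by linarith) (by linarith)
  have hη : 0 ≤ η := by linarith [hlow 0]
  have tang : ∀ k d, Φ k + D k d ≤ Φ (k + d) := fun k d => by
    simpa using cvx_taylor (h1 k d) (h2 k d) (m := 0) zero_le_one fun s _ => hQ _ _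
  have upper : ∀ k d (M r : ℝ), 0 ≤ r → (∀ k, Q k d ≤ M) →
      Φ (k + r • d) ≤ Φ k + r * D k d + M * r ^ 2 / 2 := fun k d M r hr hM => by
    have := cvx_taylor (fun s => (h1 k d s).neg) (fun s => (h2 k d s).neg) (m := -M) hr
      fun s _ => neg_le_neg (hM _)
    simp only [Pi.neg_apply, zero_smul, add_zero] at this
    linarith
  have conv : ∀ (x y : E) (a b : ℝ), 0 ≤ a → 0 ≤ b → a + b = 1 →
      Φ (a • x + b • y) ≤ a * Φ x + b * Φ y := fun x y a b ha hb hab => by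
    have e1 := tang (a • x + b • y) (b • (x - y))
    have e2 := tang (a • x + b • y) ((-a) • (x - y))
    have e3 : a • x + b • y + b • (x - y) = x := by
      rw [show a = 1 - b by linarith]; module
    have e4 : a • x + b • y + (-a) • (x - y) = y := by
      rw [show b = 1 - a by linarith]; module
    rw [e3, map_smul, smul_eq_mul] at e1
    rw [e4, map_smul, smul_eq_mul] at e2
    have e5 := mul_le_mul_of_nonneg_left e1 ha
    have e6 := mul_le_mul_of_nonneg_left e2 hb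
    have e7 : Φ (a • x + b • y) = a * Φ (a • x + b • y) + b * Φ (a • x + b • y) := by
      rw [← add_mul, hab, one_mul]
    nlinarith
  have lip : ∀ k (s : ℝ), Φ k ≤ Φ (k + s • e) + Λ * |s| := fun k s => by
    have e1 := tang k (s • e)
    rw [map_smul, smul_eq_mul] at e1
    have e2 : |s * D k e| ≤ Λ * |s| := by
      rw [abs_mul, mul_comm]; exact mul_le_mul_of_nonneg_right (hDe k) (abs_nonneg _)
    linarith [neg_abs_le (s * D k e)]
  obtain ⟨g, g_le, g_app⟩ : ∃ g : ℝ → ℝ, (∀ v, ∀ b ∈ S, g v ≤ Φ (b - v • e)) ∧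
      ∀ v (ε : ℝ), 0 < ε → ∃ b ∈ S, Φ (b - v • e) < g v + ε := by
    refine ⟨fun v => sInf ((fun b => Φ (b - v • e)) '' S), fun v b hb =>
      csInf_le ⟨Φ 0 - η, ?_⟩ ⟨b, hb, rfl⟩, fun v ε hε => ?_⟩
    · rintro _ ⟨b, _, rfl⟩
      exact hlow _
    · obtain ⟨_, ⟨b, hb, rfl⟩, h⟩ := exists_lt_of_csInf_lt
        (s := (fun b => Φ (b - v • e)) '' S) ⟨_, 0, h0, rfl⟩ (lt_add_of_pos_right _ hε)
      exact ⟨b, hb, h⟩
  have g_lip : ∀ v w, g v ≤ g w + Λ * |v - w| := fun v w => by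
    refine le_of_forall_pos_le_add fun ε hε => ?_
    obtain ⟨b, hb, h⟩ := g_app w ε hε
    have e1 := lip (b - v • e) (v - w)
    rw [show b - v • e + (v - w) • e = b - w • e by module] at e1
    linarith [g_le v b hb]
  have g_conv : ∀ v w a b : ℝ, 0 ≤ a → 0 ≤ b → a + b = 1 → g (a * v + b * w) ≤ a * g v + b * g w :=
    fun v w a b ha hb hab => by
    refine le_of_forall_pos_le_add fun ε hε => ?_
    obtain ⟨x, hx, h⟩ := g_app v ε hε
    obtain ⟨y, hy, h'⟩ := g_app w ε hε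
    have e1 := conv (x - v • e) (y - w • e) a b ha hb hab
    have e2 := g_le (a * v + b * w) _ (hS hx hy ha hb hab)
    rw [show a • x + b • y - (a * v + b * w) • e = a • (x - v • e) + b • (y - w • e) by module] at e2
    have e3 := mul_le_mul_of_nonneg_left h.le ha
    have e4 := mul_le_mul_of_nonneg_left h'.le hb
    have e5 : a * ε + b * ε = ε := by rw [← add_mul, hab, one_mul]
    linarith
  obtain ⟨j, hj1, hj2, hj⟩ : ∃ j : ℝ, V + 1 ≤ j ∧ j ≤ 2 * V - 1 ∧
      g (j + 1) - 2 * g j + g (j - 1) ≤ Δ := by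
    set δ : ℕ → ℝ := fun i => g (V + i + 1) - g (V + i) with hδ
    have hb : ∀ i, |δ i| ≤ Λ := fun i => by
      have e1 := g_lip (V + i + 1) (V + i)
      have e2 := g_lip (V + i) (V + i + 1)
      rw [show (V : ℝ) + i + 1 - (V + i) = 1 by ring, abs_one] at e1
      rw [show (V : ℝ) + i - (V + i + 1) = -1 by ring, abs_neg, abs_one] at e2
      exact abs_le.2 ⟨by simp only [hδ]; linarith, by simp only [hδ]; linarith⟩
    obtain ⟨i, hi, h⟩ := Finset.exists_le_of_sum_le (s := Finset.range (V - 1))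
      (f := fun i => δ (i + 1) - δ i) (g := fun _ => Δ) ⟨0, Finset.mem_range.2 (by omega)⟩ (by
        rw [Finset.sum_range_sub, Finset.sum_const, Finset.card_range, nsmul_eq_mul,
          Nat.cast_sub (by omega), Nat.cast_one, hΔ, mul_div_cancel₀ _ (by linarith)]
        linarith [(abs_le.1 (hb (V - 1))).2, (abs_le.1 (hb 0)).1])
    have hi' : (i : ℝ) + 2 ≤ V := by
      exact_mod_cast (by have := Finset.mem_range.1 hi; omega : i + 2 ≤ V)
    have hi0 : (0 : ℝ) ≤ i := by positivity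
    refine ⟨V + i + 1, by linarith, by linarith, ?_⟩
    simp only [hδ, Nat.cast_add, Nat.cast_one, ← add_assoc] at h
    rw [add_sub_cancel_right]
    linarith
  obtain ⟨b₁, hb₁, e₁⟩ := g_app (j + 1) Δ hΔ0
  obtain ⟨b₂, hb₂, e₂⟩ := g_app (j - 1) Δ hΔ0
  set k₀ : E := (1 / 2 : ℝ) • b₁ + (1 / 2 : ℝ) • b₂ - j • e with hk₀
  set d : E := (1 / 2 : ℝ) • (b₁ - b₂) - e with hd
  obtain ⟨s, hs, hQs⟩ : ∃ s ∈ Set.Icc (-1 : ℝ) 1, Q (k₀ + s • d) d ≤ 3 * Δ := by
    by_contra hcon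
    have a1 := cvx_second (h1 k₀ d) (h2 k₀ d) (m := 3 * Δ) fun s hs =>
      le_of_not_ge fun h => hcon ⟨s, hs, h⟩
    have a2 : k₀ + (1 : ℝ) • d = b₁ - (j + 1) • e := by rw [hk₀, hd]; module
    have a3 : k₀ + (-1 : ℝ) • d = b₂ - (j - 1) • e := by rw [hk₀, hd]; module
    have a4 := g_le j _ (hS hb₁ hb₂ (a := 1 / 2) (b := 1 / 2) (by norm_num) (by norm_num)
      (by norm_num))
    simp only [a2, a3, zero_smul, add_zero] at a1
    rw [← hk₀] at a4
    linarith
  obtain ⟨hs1, hs2⟩ := hs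
  set b : E := ((1 + s) / 2) • b₁ + ((1 - s) / 2) • b₂ with hb
  have hbS : b ∈ S := hS hb₁ hb₂ (by linarith) (by linarith) (by ring)
  have hk : k₀ + s • d = b - (j + s) • e := by rw [hk₀, hd, hb]; module
  rw [hk] at hQs
  set k : E := b - (j + s) • e with hkdef
  have near : Φ k ≤ g (j + s) + 2 * Δ := by
    have a1 := conv (b₁ - (j + 1) • e) (b₂ - (j - 1) • e) ((1 + s) / 2) ((1 - s) / 2) (by linarith)
      (by linarith) (by ring)
    rw [show ((1 + s) / 2) • (b₁ - (j + 1) • e) + ((1 - s) / 2) • (b₂ - (j - 1) • e) = k by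
      rw [hkdef, hb]; module] at a1
    have a2 := mul_le_mul_of_nonneg_left e₁.le (show 0 ≤ (1 + s) / 2 by linarith)
    have a3 := mul_le_mul_of_nonneg_left e₂.le (show 0 ≤ (1 - s) / 2 by linarith)
    rcases le_total 0 s with h | h
    · have a4 := g_conv (j + s) (j - 1) (1 / (1 + s)) (s / (1 + s)) (by positivity) (by positivity)
        (by field_simp)
      rw [show 1 / (1 + s) * (j + s) + s / (1 + s) * (j - 1) = j by field_simp; ring] at a4
      have a5 : (1 + s) * g j ≤ g (j + s) + s * g (j - 1) := by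
        have := mul_le_mul_of_nonneg_left a4 (show 0 ≤ 1 + s by linarith)
        refine this.trans (le_of_eq ?_)
        field_simp
      have a6 := mul_le_mul_of_nonneg_left hj (show 0 ≤ (1 + s) / 2 by linarith)
      nlinarith
    · have h' : 0 < 1 - s := by linarith
      have a4 := g_conv (j + s) (j + 1) (1 / (1 - s)) (-s / (1 - s)) (by positivity)
        (div_nonneg (by linarith) h'.le) (by field_simp; ring)
      rw [show 1 / (1 - s) * (j + s) + -s / (1 - s) * (j + 1) = j by field_simp; ring] at a4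
      have a5 : (1 - s) * g j ≤ g (j + s) + -s * g (j + 1) := by
        have := mul_le_mul_of_nonneg_left a4 h'.le
        refine this.trans (le_of_eq ?_)
        field_simp
      have a6 := mul_le_mul_of_nonneg_left hj (show 0 ≤ (1 - s) / 2 by linarith)
      nlinarith
  have hsq : 0 < √Δ := Real.sqrt_pos.2 hΔ0
  have hsq2 : √Δ * √Δ = Δ := Real.mul_self_sqrt hΔ0.le
  have key : ∀ b' ∈ S, -(8 * R * √Δ) ≤ D k (b' - b) := fun b' hb' => by
    have hr0 : 0 < √Δ / (2 * R) := by positivity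
    have hr1 : √Δ / (2 * R) ≤ 1 := by
      rw [div_le_one (by positivity)]
      exact Real.sqrt_le_iff.2 ⟨by positivity, by linarith⟩
    have a1 := upper k (b' - b) (16 * R ^ 2) _ hr0.le fun k => hQS k b' hb' b hbS
    have a2 := g_le (j + s) _ (hS hbS hb' (sub_nonneg.2 hr1) hr0.le (by ring))
    rw [show (1 - √Δ / (2 * R)) • b + (√Δ / (2 * R)) • b' - (j + s) • e =
      k + (√Δ / (2 * R)) • (b' - b) by rw [hkdef]; module] at a2
    have a3 : 16 * R ^ 2 * (√Δ / (2 * R)) ^ 2 / 2 = 2 * Δ := by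
      field_simp; nlinarith
    have a4 : -(4 * Δ) ≤ √Δ / (2 * R) * D k (b' - b) := by linarith
    have a5 : √Δ / (2 * R) * -(8 * R * √Δ) = -(4 * Δ) := by
      field_simp; nlinarith
    rw [← a5] at a4
    exact le_of_mul_le_mul_left a4 hr0
  have k1 : D k b ≤ 8 * R * √Δ := by
    have := key 0 h0
    rw [zero_sub, map_neg] at this
    linarith
  have k2 : -D k b ≤ η + 2 * V * Λ := by
    have a1 := tang k (-b)
    have a2 := lip (k + -b) (j + s)
    rw [show k + -b + (j + s) • e = 0 by rw [hkdef]; module, abs_of_nonneg (by linarith)] at a2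
    rw [map_neg] at a1
    have a3 : Λ * (j + s) ≤ Λ * (2 * V) := mul_le_mul_of_nonneg_left (by linarith) hΛ.le
    linarith [hlow k]
  have k3 : (j + s) * D k e ≤ η + 8 * R * √Δ := by
    have a1 := tang k ((j + s) • e - b)
    rw [show k + ((j + s) • e - b) = 0 by rw [hkdef]; module, map_sub, map_smul, smul_eq_mul] at a1
    linarith [hlow k]
  refine ⟨j + s, by linarith, by linarith, b, hbS, b₁, hb₁, b₂, hb₂, hQs, fun b' hb' => ?_, ?_⟩
  · have := key b' hb'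
    rw [map_sub] at this
    linarith
  · rcases le_total 0 (D k e) with h | h
    · exact (mul_le_mul_of_nonneg_right (by linarith) h).trans k3
    · have : 0 ≤ 8 * R * √Δ := by positivity
      nlinarith

end Crest.Agent.R113
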