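import Crest.Agent.R113.Op

/-! Row 113: arcs, and near independence of `n • x` and `n' • x`. -/

set_option autoImplicit false

namespace Crest.Agent.R113

open MeasureTheory Finset

/-- Real indicator of `n • x ∈ arc s l`. -/
noncomputable def ia (n : ℕ) (s l : ℝ) (x : T) : ℝ := (arc s l).indicator (fun _ => 1) (n • x)

lemma measurableSet_arc (s l : ℝ) : MeasurableSet (arc s l) := by
  have h1 : MeasurableSet (((↑) : ℝ → T) '' Set.Ioo s (s + l)) :=
    (QuotientAddGroup.isOpenMap_coe _ isOpen_Ioo).measurableSet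
  by_cases hl : 0 < l
  · have : arc s l = insert (s : T) (((↑) : ℝ → T) '' Set.Ioo s (s + l)) := by
      ext y
      simp only [arc, Set.mem_ofPred_eq, Set.mem_insert_iff, Set.mem_image, Set.mem_Ico,
        Set.mem_Ioo]
      constructor
      · rintro ⟨r, ⟨h1, h2⟩, rfl⟩
        rcases h1.eq_or_lt with h | h
        · exact Or.inl (by rw [h])
        · exact Or.inr ⟨r, ⟨h, h2⟩, rfl⟩
      · rintro (rfl | ⟨r, ⟨h1, h2⟩, rfl⟩)
        · exact ⟨s, ⟨le_rfl, by linarith⟩, rfl⟩
        · exact ⟨r, ⟨h1.le, h2⟩, rfl⟩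
    rw [this]
    exact h1.insert _
  · have : arc s l = ∅ := by
      ext y
      simp only [arc, Set.mem_ofPred_eq, Set.mem_Ico, Set.mem_empty_iff_false, iff_false]
      rintro ⟨r, ⟨h1, h2⟩, -⟩
      exact hl (by linarith)
    rw [this]
    exact MeasurableSet.empty

lemma cov_coe_mem_arc {s l : ℝ} (h1 : l ≤ 1) (r : ℝ) :
    (r : T) ∈ arc s l ↔ Int.fract (r - s) < l := by
  constructor
  · rintro ⟨r', ⟨h2, h3⟩, h4⟩
    have h5 : ((r - r' : ℝ) : T) = 0 := by rw [AddCircle.coe_sub, h4, sub_self]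
    obtain ⟨k, hk⟩ := (AddCircle.coe_eq_zero_iff _).1 h5
    have h6 : r - s = (r' - s) + (k : ℝ) := by
      rw [zsmul_eq_mul, mul_one] at hk
      linarith
    rw [h6, Int.fract_add_intCast, Int.fract_eq_self.2 ⟨by linarith, by linarith⟩]
    linarith
  · intro h
    refine ⟨s + Int.fract (r - s), ⟨by linarith [Int.fract_nonneg (r - s)], by linarith⟩, ?_⟩
    rw [AddCircle.coe_add, AddCircle.coe_fract, ← AddCircle.coe_add]
    congr 1
    ring

lemma measure_arc (s : ℝ) {l : ℝ} (h0 : 0 ≤ l) (h1 : l ≤ 1) : volume.real (arc s l) = l := by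
  have h := (UnitAddCircle.measurePreserving_mk s).measure_preimage
    (measurableSet_arc s l).nullMeasurableSet
  rw [Measure.real, ← h, ← Measure.restrict_congr_set Ioo_ae_eq_Ioc,
    Measure.restrict_apply' measurableSet_Ioo]
  have : ((↑) : ℝ → T) ⁻¹' arc s l ∩ Set.Ioo s (s + 1) = Set.Ioo s (s + l) := by
    ext r
    simp only [Set.mem_inter_iff, Set.mem_preimage, cov_coe_mem_arc h1, Set.mem_Ioo]
    constructor
    · rintro ⟨h2, h3, h4⟩
      rw [Int.fract_eq_self.2 ⟨by linarith, by linarith⟩] at h2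
      exact ⟨h3, by linarith⟩
    · rintro ⟨h3, h4⟩
      rw [Int.fract_eq_self.2 ⟨by linarith, by linarith⟩]
      exact ⟨by linarith, h3, by linarith⟩
  rw [this, Real.volume_Ioo, ENNReal.toReal_ofReal (by linarith)]
  ring

lemma coe_mem_arc {s l : ℝ} (h1 : l ≤ 1) (r : ℝ) : (r : T) ∈ arc s l ↔ Int.fract (r - s) < l :=
  cov_coe_mem_arc h1 r

lemma sub_mem_arc (s l c : ℝ) (y : T) : y - (c : T) ∈ arc s l ↔ y ∈ arc (s + c) l := by
  constructor
  · rintro ⟨r, ⟨h1, h2⟩, h3⟩
    refine ⟨r + c, ⟨by linarith, by linarith⟩, ?_⟩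
    rw [AddCircle.coe_add, ← h3, sub_add_cancel]
  · rintro ⟨r, ⟨h1, h2⟩, h3⟩
    refine ⟨r - c, ⟨by linarith, by linarith⟩, ?_⟩
    rw [AddCircle.coe_sub, h3]

/-- `MeasureTheory.Measure.measurePreserving_zsmul` or similar. -/
lemma mp_nsmul {n : ℕ} (hn : 1 ≤ n) : MeasurePreserving (fun x : T => n • x) volume volume := by
  have := Measure.measurePreserving_zsmul (volume : Measure T) (n := (n : ℤ)) (by omega)
  simpa only [natCast_zsmul] using this

lemma nsmul_coe (n : ℕ) (θ : ℝ) : n • (θ : T) = ((Int.fract (n * θ) : ℝ) : T) := by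
  rw [AddCircle.coe_fract, ← nsmul_eq_mul, AddCircle.coe_nsmul]

lemma cov_bd_ind (s l : ℝ) : Bd ((arc s l).indicator fun _ => (1 : ℝ)) :=
  (Bd.const (1 : ℝ)).indicator (measurableSet_arc s l)

lemma bd_ia (n : ℕ) (s l : ℝ) : Bd (ia n s l) :=
  (cov_bd_ind s l).comp (f := fun x : T => n • x) (by fun_prop)

lemma cov_integral_ind (s : ℝ) {l : ℝ} (h0 : 0 ≤ l) (h1 : l ≤ 1) :
    ∫ x, (arc s l).indicator (fun _ => (1 : ℝ)) x = l := by
  rw [integral_indicator (measurableSet_arc s l), setIntegral_const, measure_arc s h0 h1]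
  simp

lemma cov_integral_nsmul {n : ℕ} (hn : 1 ≤ n) {g : T → ℝ} (hg : Measurable g) :
    ∫ x : T, g (n • x) = ∫ x, g x := by
  have h := integral_map (μ := (volume : Measure T)) (φ := fun x : T => n • x) (f := g)
    (mp_nsmul hn).measurable.aemeasurable hg.aestronglyMeasurable
  rw [(mp_nsmul hn).map_eq] at h
  exact h.symm

lemma integral_ia {n : ℕ} (hn : 1 ≤ n) (s : ℝ) {l : ℝ} (h0 : 0 ≤ l) (h1 : l ≤ 1) :
    ∫ x, ia n s l x = l := by
  unfold ia
  rw [cov_integral_nsmul hn (cov_bd_ind s l).1, cov_integral_ind s h0 h1]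

/-- With `α = fract (n θ)`. -/
lemma ia_sub (n u : ℕ) (θ s l : ℝ) (x : T) :
    ia n s l (x - u • (θ : T)) = ia n (s + u * Int.fract (n * θ)) l x := by
  have h : n • (x - u • (θ : T)) = n • x - ((u * Int.fract (n * θ) : ℝ) : T) := by
    rw [smul_sub, smul_comm, nsmul_coe, ← AddCircle.coe_nsmul, nsmul_eq_mul]
  unfold ia
  rw [h]
  by_cases h1 : n • x ∈ arc (s + u * Int.fract (n * θ)) l
  · rw [Set.indicator_of_mem h1, Set.indicator_of_mem ((sub_mem_arc _ _ _ _).2 h1)]
  · rw [Set.indicator_of_notMem h1,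
      Set.indicator_of_notMem fun h2 => h1 ((sub_mem_arc _ _ _ _).1 h2)]

lemma cov_ind_shift (s l : ℝ) {d : ℝ} (hd : 0 ≤ d) (y : T) :
    |(arc s l).indicator (fun _ => (1 : ℝ)) (y + (d : T)) - (arc s l).indicator (fun _ => 1) y| ≤
      (arc (s - d) d).indicator (fun _ => (1 : ℝ)) y +
        (arc (s + l - d) d).indicator (fun _ => (1 : ℝ)) y := by
  have hA : 0 ≤ (arc (s - d) d).indicator (fun _ => (1 : ℝ)) y :=
    Set.indicator_nonneg (fun _ _ => zero_le_one) _
  have hB : 0 ≤ (arc (s + l - d) d).indicator (fun _ => (1 : ℝ)) y :=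
    Set.indicator_nonneg (fun _ _ => zero_le_one) _
  by_cases h1 : y + (d : T) ∈ arc s l <;> by_cases h2 : y ∈ arc s l
  · rw [Set.indicator_of_mem h1, Set.indicator_of_mem h2, sub_self, abs_zero]
    linarith
  · have : y ∈ arc (s - d) d := by
      obtain ⟨r, ⟨h3, h4⟩, h5⟩ := h1
      have h6 : y = ((r - d : ℝ) : T) := by rw [AddCircle.coe_sub, ← h5, add_sub_cancel_right]
      refine ⟨r - d, ⟨by linarith, ?_⟩, h6⟩
      by_contra h7
      push Not at h7
      exact h2 ⟨r - d, ⟨by linarith, by linarith⟩, h6⟩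
    rw [Set.indicator_of_mem h1, Set.indicator_of_notMem h2, Set.indicator_of_mem this]
    norm_num
    exact hB
  · have : y ∈ arc (s + l - d) d := by
      obtain ⟨r, ⟨h3, h4⟩, h5⟩ := h2
      refine ⟨r, ⟨?_, by linarith⟩, h5⟩
      by_contra h7
      push Not at h7
      exact h1 ⟨r + d, ⟨by linarith, by linarith⟩, by rw [h5, AddCircle.coe_add]⟩
    rw [Set.indicator_of_notMem h1, Set.indicator_of_mem h2, Set.indicator_of_mem this]
    norm_num
    exact hA
  · rw [Set.indicator_of_notMem h1, Set.indicator_of_notMem h2, sub_self, abs_zero]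
    linarith

lemma cov_integral_ind_le (s : ℝ) {l : ℝ} (h0 : 0 ≤ l) :
    ∫ x, (arc s l).indicator (fun _ => (1 : ℝ)) x ≤ l := by
  by_cases h1 : l ≤ 1
  · exact (cov_integral_ind s h0 h1).le
  · rw [integral_indicator (measurableSet_arc s l), setIntegral_const, smul_eq_mul, mul_one]
    exact measureReal_le_one.trans (le_of_not_ge h1)

/-- `∫ |ia n s l (x + c) - ia n s l x| ≤ 2 n c` for `c ≥ 0`. -/
lemma ia_shift {n : ℕ} (hn : 1 ≤ n) (s : ℝ) {l : ℝ} (h0 : 0 ≤ l) (h1 : l ≤ 1) {c : ℝ} (hc : 0 ≤ c) :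
    ∫ x, |ia n s l (x + (c : T)) - ia n s l x| ≤ 2 * n * c := by
  have _ := h0
  have _ := h1
  have hd : 0 ≤ (n : ℝ) * c := by positivity
  have hb := ((cov_bd_ind (s - n * c) (n * c)).add (cov_bd_ind (s + l - n * c) (n * c)))
  have hb' := hb.comp (f := fun x : T => n • x) (by fun_prop)
  have h2 : ∫ x, |ia n s l (x + (c : T)) - ia n s l x| ≤
      ∫ x : T, ((arc (s - n * c) (n * c)).indicator (fun _ => (1 : ℝ)) (n • x) +
        (arc (s + l - n * c) (n * c)).indicator (fun _ => (1 : ℝ)) (n • x)) := by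
    refine integral_mono_of_nonneg (ae_of_all _ fun x => abs_nonneg _) (hb'.integrable _)
      (ae_of_all _ fun x => ?_)
    have h3 : n • (x + (c : T)) = n • x + ((n * c : ℝ) : T) := by
      rw [smul_add, ← AddCircle.coe_nsmul, nsmul_eq_mul]
    simp only [ia, h3]
    exact cov_ind_shift s l hd _
  refine h2.trans ?_
  rw [cov_integral_nsmul hn hb.1, integral_add ((cov_bd_ind _ _).integrable _)
    ((cov_bd_ind _ _).integrable _)]
  linarith [cov_integral_ind_le (s - n * c) hd, cov_integral_ind_le (s + l - n * c) hd]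

/-- Sketch: `I c = ∫ ia n s l (x + c) ia n' s' l' x`; its average over `c ∈ [0, 1/n']` is `l l'`
(translate, Fubini, `n' ∫_0^{1/n'} ia n' s' l' (y - c) dc = l'`), and `|I c - I 0| ≤ 2 n / n'`. -/
theorem cov {n n' : ℕ} (hn : 1 ≤ n) (hn' : 1 ≤ n') (s s' : ℝ) {l l' : ℝ} (h0 : 0 ≤ l) (h1 : l ≤ 1)
    (h0' : 0 ≤ l') (h1' : l' ≤ 1) :
    |(∫ x, ia n s l x * ia n' s' l' x) - l * l'| ≤ 2 * n / n' := by
  have hn0 : (0 : ℝ) < n' := by exact_mod_cast hn'
  set g : T → ℝ := (arc s' l').indicator fun _ => (1 : ℝ) with hg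
  have hgb : Bd g := cov_bd_ind s' l'
  have hfb := bd_ia n s l
  let μ : Measure ℝ := volume.restrict (Set.Ioc (0 : ℝ) (0 + 1))
  have hμ : IsProbabilityMeasure μ := ⟨by simp [μ]⟩
  let Φ : ℝ → T → ℝ := fun t y => ia n s l y * g (n' • y - (t : T))
  have hΦ : Bd (Function.uncurry Φ) := by
    refine (hfb.comp (f := Prod.snd) measurable_snd).mul
      (hgb.comp (f := fun p : ℝ × T => n' • p.2 - (p.1 : T)) ?_)
    exact ((mp_nsmul hn').measurable.comp measurable_snd).sub (AddCircle.measurable_mk'.comp measurable_fst)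
  have hswap := integral_integral_swap (μ := μ) (ν := (volume : Measure T)) (hΦ.integrable _)
  have hin : ∀ y : T, ∫ t, Φ t y ∂μ = ia n s l y * l' := fun y => by
    simp only [Φ, μ]
    rw [integral_const_mul, UnitAddCircle.integral_preimage 0 fun z => g (n' • y - z),
      integral_sub_left_eq_self g, hg, cov_integral_ind s' h0' h1']
  simp only [hin, integral_mul_const, integral_ia hn s h0 h1] at hswap
  have hJ : ∀ t ∈ Set.Ioc (0 : ℝ) (0 + 1),
      |(∫ x, ia n s l x * ia n' s' l' x) - ∫ y, Φ t y| ≤ 2 * n / n' := by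
    intro t ht
    have hc : 0 ≤ t / n' := div_nonneg ht.1.le hn0.le
    have h2 : ∫ y, Φ t y = ∫ x, ia n s l (x + ((t / n' : ℝ) : T)) * ia n' s' l' x := by
      rw [← integral_add_right_eq_self _ ((t / n' : ℝ) : T)]
      refine integral_congr_ae (ae_of_all _ fun x => ?_)
      have h3 : n' • (x + ((t / n' : ℝ) : T)) - (t : T) = n' • x := by
        rw [smul_add, ← AddCircle.coe_nsmul, nsmul_eq_mul, mul_div_cancel₀ _ hn0.ne',
          add_sub_cancel_right]
      simp only [Φ, h3]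
      rfl
    have hfb' := hfb.comp (f := fun x : T => x + ((t / n' : ℝ) : T)) (by fun_prop)
    have hgb' := bd_ia n' s' l'
    rw [h2, ← integral_sub ((hfb.mul hgb').integrable _) ((hfb'.mul hgb').integrable _)]
    have h4 : |∫ x, (ia n s l x * ia n' s' l' x -
        ia n s l (x + ((t / n' : ℝ) : T)) * ia n' s' l' x)| ≤
        ∫ x, |ia n s l (x + ((t / n' : ℝ) : T)) - ia n s l x| := by
      refine abs_integral_le_integral_abs.trans ?_
      refine integral_mono_of_nonneg (ae_of_all _ fun x => abs_nonneg _)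
        ((hfb'.sub hfb).integrable _).abs (ae_of_all _ fun x => ?_)
      have h5 : |ia n' s' l' x| ≤ 1 := by
        unfold ia Set.indicator
        split_ifs <;> simp
      simp only
      rw [← sub_mul, abs_mul, abs_sub_comm]
      exact mul_le_of_le_one_right (abs_nonneg _) h5
    refine h4.trans ((ia_shift hn s h0 h1 hc).trans ?_)
    rw [← mul_div_assoc]
    refine div_le_div_of_nonneg_right (mul_le_of_le_one_right (by positivity) ?_) hn0.le
    linarith [ht.2]
  rw [← hswap]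
  have hint : Integrable (fun t => ∫ y, Φ t y) μ := (hΦ.integrable (μ.prod volume)).integral_prod_left
  have h6 : (∫ x, ia n s l x * ia n' s' l' x) - ∫ t, (∫ y, Φ t y) ∂μ =
      ∫ t, ((∫ x, ia n s l x * ia n' s' l' x) - ∫ y, Φ t y) ∂μ := by
    rw [integral_sub (integrable_const _) hint]
    simp
  rw [h6]
  have h7 := norm_integral_le_of_norm_le_const (μ := μ) (C := 2 * n / n')
    (f := fun t => (∫ x, ia n s l x * ia n' s' l' x) - ∫ y, Φ t y)
    ((ae_restrict_mem measurableSet_Ioc).mono fun t ht => hJ t ht)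
  simpa using h7

end Crest.Agent.R113
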