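import Crest.Agent.R113.TrLog
import Crest.Agent.R113.CfcMul

/-! Row 113 (S0151): determinants in a tracial algebra. -/

set_option autoImplicit false

namespace Crest.Agent.R113

open Crest.Agent.R95 MeasureTheory

variable {A : Type*} [CStarAlgebra A]

/-- Quasinilpotence. -/
def QN (X : A) : Prop := ∀ r : ℝ, 0 < r → ∃ C : ℝ, ∀ n : ℕ, ‖X ^ n‖ ≤ C * r ^ n

/-- Neumann series. -/
lemma QN.hasSum {X : A} (h : QN X) (c : ℂ) :
    IsUnit (1 - c • X) ∧ HasSum (fun n : ℕ => c ^ n • X ^ n) (Ring.inverse (1 - c • X)) := by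
  have hc : 0 < ‖c‖ + 1 := by positivity
  obtain ⟨C, hC⟩ := h (1 / (2 * (‖c‖ + 1))) (by positivity)
  have hs : Summable fun n : ℕ => (c • X) ^ n := by
    refine Summable.of_norm_bounded (summable_geometric_two.mul_left |C|) fun n => ?_
    rw [smul_pow, norm_smul, norm_pow]
    calc ‖c‖ ^ n * ‖X ^ n‖ ≤ (‖c‖ + 1) ^ n * (|C| * (1 / (2 * (‖c‖ + 1))) ^ n) := by
          gcongr
          · linarith
          · exact (hC n).trans (mul_le_mul_of_nonneg_right (le_abs_self C) (by positivity))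
      _ = |C| * (1 / 2) ^ n := by
          rw [mul_left_comm, ← mul_pow]
          congr 2
          field_simp
  have h1 := hs.tsum_pow_mul_one_sub
  have h2 := hs.one_sub_mul_tsum_pow
  have hu : IsUnit (1 - c • X) := ⟨⟨_, _, h2, h1⟩, rfl⟩
  refine ⟨hu, ?_⟩
  have h3 : Ring.inverse (1 - c • X) = ∑' n : ℕ, (c • X) ^ n := by
    have h4 := congrArg (Ring.inverse (1 - c • X) * ·) h2
    simp only [← mul_assoc, Ring.inverse_mul_cancel _ hu, one_mul, mul_one] at h4
    exact h4.symm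
  rw [h3]
  simpa only [smul_pow] using hs.hasSum

lemma det_spec_pos {Y : A} (hY : IsUnit Y) : ∀ x ∈ spectrum ℝ (star Y * Y), 0 < x := fun x hx => by
  refine (spectrum_star_mul_self_nonneg x hx).lt_of_ne fun h => ?_
  exact (spectrum.zero_notMem_iff ℝ).2 (hY.star.mul hY) (h ▸ hx)

variable [Tr A]

/-- `Y t = t X - z` is invertible, `G t = (Y t)⋆ Y t`; by `hasDerivAt_tr_log` the derivative of
`tr log (G t)` is `2 tr ((Y t)⁻¹ X) = -2 re ∑ t^n τ (X^(n+1)) / z^(n+1) = 0`. At `t = 0`: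
`log (‖z‖² • 1)`. -/
theorem QN.tr_log {X : A} (h : QN X) (hτ : ∀ k : ℕ, τ (X ^ (k + 1)) = 0) {z : ℂ} (hz : z ≠ 0) :
    IsUnit (X - z • 1) ∧
      tr (cfcR Real.log (star (X - z • 1) * (X - z • 1))) = 2 * Real.log ‖z‖ := by
  set Y : ℝ → A := fun t => t • X - z • 1 with hY
  have hYe : ∀ t, Y t = (-z) • (1 - ((t : ℂ) / z) • X) := fun t => by
    rw [smul_sub, smul_smul, neg_mul, mul_div_cancel₀ _ hz, neg_smul, neg_smul, Complex.coe_smul, hY,
      neg_sub_neg]
  have hinv : ∀ t, ∃ V : A, V * Y t = 1 ∧ Y t * V = 1 ∧ tr (V * X) = 0 := fun t => by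
    obtain ⟨hu, hs⟩ := h.hasSum ((t : ℂ) / z)
    refine ⟨(-z)⁻¹ • Ring.inverse (1 - ((t : ℂ) / z) • X), ?_, ?_, ?_⟩
    · rw [hYe, smul_mul_smul_comm, inv_mul_cancel₀ (neg_ne_zero.2 hz), Ring.inverse_mul_cancel _ hu, one_smul]
    · rw [hYe, smul_mul_smul_comm, mul_inv_cancel₀ (neg_ne_zero.2 hz), Ring.mul_inverse_cancel _ hu, one_smul]
    · have h1 := (τ : A →L[ℂ] ℂ).hasSum (hs.mul_right X)
      simp only [smul_mul_assoc, ← pow_succ, map_smul, hτ, smul_zero] at h1
      rw [tr, smul_mul_assoc, map_smul, h1.unique hasSum_zero, smul_zero, Complex.zero_re]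
  have hu : ∀ t, IsUnit (Y t) := fun t => by
    obtain ⟨V, h1, h2, -⟩ := hinv t
    exact ⟨⟨_, _, h2, h1⟩, rfl⟩
  have hd : ∀ t, HasDerivAt Y X t := fun t => by
    simpa [hY] using ((hasDerivAt_id t).smul_const X).sub_const (z • (1 : A))
  have hc : Continuous Y := continuous_iff_continuousAt.2 fun t => (hd t).continuousAt
  have hd' : ∀ t, HasDerivAt (fun t => star (Y t)) (star X) t := fun t => by
    simpa [hY] using ((hasDerivAt_id t).smul_const (star X)).sub_const (star z • (1 : A))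
  have key : ∀ s, HasDerivAt (fun t => tr (cfc Real.log (star (Y t) * Y t))) 0 s := fun s => by
    have h1 := hasDerivAt_tr_log (G := fun t => star (Y t) * Y t)
      (G' := fun t => star X * Y t + star (Y t) * X) (fun t => (hd' t).mul (hd t)) (by fun_prop)
      (fun t => IsSelfAdjoint.star_mul_self _) (fun t => det_spec_pos (hu t)) s
    refine HasDerivAt.congr_deriv h1 ?_
    obtain ⟨V, h2, h3, h4⟩ := hinv s
    have h5 : star V * star (Y s) = 1 := by rw [← star_mul, h3, star_one]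
    have h6 : Ring.inverse (star (Y s) * Y s) = V * star V := by
      have h7 : V * star V * (star (Y s) * Y s) = 1 := by
        rw [mul_assoc, ← mul_assoc (star V), h5, one_mul, h2]
      rw [← one_mul (Ring.inverse _), ← h7, mul_assoc, Ring.mul_inverse_cancel _ ((hu s).star.mul (hu s)),
        mul_one]
    have h8 : tr (V * star V * (star X * Y s)) = 0 := by
      rw [← mul_assoc, tr_comm, ← mul_assoc, ← mul_assoc, h3, one_mul, ← star_mul, tr_star, tr_comm, h4]
    rw [h6, mul_add, tr_add, h8, mul_assoc, ← mul_assoc (star V), h5, one_mul, h4, add_zero]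
  have h10 := is_const_of_deriv_eq_zero (fun s => (key s).differentiableAt) (fun s => (key s).deriv) 1 0
  have e1 : Y 1 = X - z • 1 := by simp [hY]
  have e0 : star (Y 0) * Y 0 = algebraMap ℝ A (‖z‖ ^ 2) := by
    simp only [hY, zero_smul, zero_sub, star_neg, neg_mul_neg, star_smul, star_one, smul_mul_smul_comm, mul_one,
      Complex.star_def, Complex.conj_mul', Algebra.algebraMap_eq_smul_one]
    rw [← Complex.coe_smul]
    push_cast
    rfl
  refine ⟨e1 ▸ hu 1, ?_⟩
  rw [e1, e0, cfc_algebraMap, Algebra.algebraMap_eq_smul_one, tr_smul, tr_one, mul_one, Real.log_pow] at h10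
  exact_mod_cast h10

/-- The spectrum of `Y⋆ Y` lies in `[c, ∞)`, `c > 0`; `log (Y⋆Y + ε) = cfc (log (· + ε)) (Y⋆Y)` and
`0 ≤ log (s + ε) - log s ≤ ε / c`. -/
theorem iInf_det {Y : A} (hY : IsUnit Y) :
    ⨅ ε : {r : ℝ // 0 < r}, Real.exp (tr (cfcR Real.log (star Y * Y + ((ε : ℝ) : ℂ) • 1)) / 2) =
      Real.exp (tr (cfcR Real.log (star Y * Y)) / 2) := by
  let _ := CStarAlgebra.spectralOrder A
  have := CStarAlgebra.spectralOrderedRing A
  have : Nonempty {r : ℝ // 0 < r} := ⟨⟨1, one_pos⟩⟩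
  have hpos := det_spec_pos hY
  have hG : IsSelfAdjoint (star Y * Y) := IsSelfAdjoint.star_mul_self Y
  generalize star Y * Y = G at hpos hG ⊢
  obtain ⟨c, hc, hcs⟩ := (spectrum.isCompact (𝕜 := ℝ) G).exists_forall_le' continuousOn_id hpos
  have hlog : ContinuousOn Real.log (spectrum ℝ G) :=
    Real.continuousOn_log.mono fun x hx => (hpos x hx).ne'
  have key : ∀ ε : ℝ, 0 < ε → tr (cfcR Real.log G) ≤ tr (cfcR Real.log (G + (ε : ℂ) • 1)) ∧
      tr (cfcR Real.log (G + (ε : ℂ) • 1)) ≤ tr (cfcR Real.log G) + ε / c := fun ε hε => by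
    have h1 : G + (ε : ℂ) • 1 = cfc (fun x : ℝ => x + ε) G := by
      rw [cfc_add_const _ _ _, cfc_id' ℝ G, Algebra.algebraMap_eq_smul_one, Complex.coe_smul]
    have h2 : ContinuousOn (fun x : ℝ => Real.log (x + ε)) (spectrum ℝ G) :=
      ContinuousOn.log (by fun_prop) fun x hx => (add_pos (hpos x hx) hε).ne'
    have h3 : cfcR Real.log (G + (ε : ℂ) • 1) = cfc (fun x : ℝ => Real.log (x + ε)) G := by
      rw [h1, cfcR, ← cfc_comp' Real.log (fun x : ℝ => x + ε) G (Real.continuousOn_log.mono ?_)]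
      rintro _ ⟨x, hx, rfl⟩
      exact (add_pos (hpos x hx) hε).ne'
    rw [h3, cfcR]
    refine ⟨τ_re_mono (cfc_mono fun x hx => Real.log_le_log (hpos x hx) (by linarith)), ?_⟩
    have h4 : cfc (fun x : ℝ => Real.log (x + ε)) G ≤ cfc (fun x : ℝ => Real.log x + ε / c) G := by
      refine cfc_mono fun x hx => ?_
      have h5 := hpos x hx
      have h6 : x + ε = x * (1 + ε / x) := by field_simp
      have h7 : ε / x ≤ ε / c := div_le_div_of_nonneg_left hε.le hc (hcs x hx)
      have h8 := Real.log_le_sub_one_of_pos (show 0 < 1 + ε / x by positivity)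
      rw [h6, Real.log_mul h5.ne' (by positivity)]
      linarith
    refine (τ_re_mono h4).trans_eq ?_
    rw [cfc_add_const _ _ _, Algebra.algebraMap_eq_smul_one]
    exact (tr_add _ _).trans (by rw [tr_smul, tr_one, mul_one])
  refine le_antisymm ?_ (le_ciInf fun ε => Real.exp_le_exp.2 (by linarith [(key ε ε.2).1]))
  have hlim : Filter.Tendsto (fun ε : ℝ => Real.exp ((tr (cfcR Real.log G) + ε / c) / 2)) (nhdsWithin 0 (Set.Ioi 0))
      (nhds (Real.exp (tr (cfcR Real.log G) / 2))) := by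
    refine tendsto_nhdsWithin_of_tendsto_nhds (Continuous.tendsto' (by fun_prop) _ _ (by simp))
  refine ge_of_tendsto hlim (Filter.eventually_of_mem self_mem_nhdsWithin fun ε hε => ?_)
  refine (ciInf_le ⟨0, ?_⟩ ⟨ε, hε⟩).trans (Real.exp_le_exp.2 (by linarith [(key ε hε).2]))
  rintro _ ⟨δ, rfl⟩
  exact (Real.exp_pos _).le

/-- `log (f² + ε) ≤ log 2` for `ε ≤ 1` and decreases to `2 log f`; monotone convergence. -/
theorem iInf_exp_log {Ω : Type*} [MeasurableSpace Ω] {μ : Measure Ω} [IsProbabilityMeasure μ]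
    {f : Ω → ℝ} (hf : Measurable f) (h0 : ∀ᵐ x ∂μ, 0 < f x) (h1 : ∀ x, |f x| ≤ 1)
    (hlog : ∫⁻ x, ENNReal.ofReal (-Real.log (f x)) ∂μ = ⊤) :
    ⨅ ε : {r : ℝ // 0 < r}, Real.exp ((∫ x, Real.log (f x ^ 2 + ε) ∂μ) / 2) = 0 := by
  have : Nonempty {r : ℝ // 0 < r} := ⟨⟨1, one_pos⟩⟩
  have key : ∀ M : ℝ, ∃ ε : ℝ, 0 < ε ∧ ∫ x, Real.log (f x ^ 2 + ε) ∂μ < M := by
    intro M
    by_contra hM
    push Not at hM
    have hle : ∀ n : ℕ, ∀ x, Real.log (f x ^ 2 + 1 / ((n : ℝ) + 1)) ≤ Real.log 2 := fun n x => by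
      have h2 : f x ^ 2 ≤ 1 := (sq_le_one_iff_abs_le_one _).2 (h1 x)
      have h3 : 1 / ((n : ℝ) + 1) ≤ 1 := by
        rw [div_le_one (by positivity)]
        linarith [(Nat.cast_nonneg n : (0 : ℝ) ≤ n)]
      exact Real.log_le_log (by positivity) (by linarith)
    have hm : ∀ n : ℕ, Measurable fun x => Real.log (f x ^ 2 + 1 / ((n : ℝ) + 1)) := fun n => by fun_prop
    have hi : ∀ n : ℕ, Integrable (fun x => Real.log (f x ^ 2 + 1 / ((n : ℝ) + 1))) μ := fun n => by
      refine (Bd.of_abs (hm n) (C := Real.log 2 + |Real.log (1 / ((n : ℝ) + 1))|) fun x => ?_).integrable μ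
      have h2 : Real.log (1 / ((n : ℝ) + 1)) ≤ Real.log (f x ^ 2 + 1 / ((n : ℝ) + 1)) :=
        Real.log_le_log (by positivity) (le_add_of_nonneg_left (sq_nonneg _))
      have h3 := Real.log_nonneg (show (1 : ℝ) ≤ 2 by norm_num)
      have h4 := neg_abs_le (Real.log (1 / ((n : ℝ) + 1)))
      have h5 := abs_nonneg (Real.log (1 / ((n : ℝ) + 1)))
      have h6 := hle n x
      rw [abs_le]
      constructor <;> linarith
    have hb : ∀ n : ℕ, ∫⁻ x, ENNReal.ofReal (Real.log 2 - Real.log (f x ^ 2 + 1 / ((n : ℝ) + 1))) ∂μ ≤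
        ENNReal.ofReal (Real.log 2 - M) := fun n => by
      rw [← ofReal_integral_eq_lintegral_ofReal
        (f := fun x => Real.log 2 - Real.log (f x ^ 2 + 1 / ((n : ℝ) + 1))) ((integrable_const _).sub (hi n))
        (ae_of_all _ fun x => sub_nonneg.2 (hle n x)), integral_sub (integrable_const _) (hi n)]
      refine ENNReal.ofReal_le_ofReal ?_
      have := hM (1 / ((n : ℝ) + 1)) (by positivity)
      simp only [integral_const, probReal_univ, one_smul]
      linarith
    have hF := lintegral_liminf_le (μ := μ) (u := Filter.atTop)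
      (f := fun (n : ℕ) x => ENNReal.ofReal (Real.log 2 - Real.log (f x ^ 2 + 1 / ((n : ℝ) + 1))))
      fun n => (measurable_const.sub (hm n)).ennreal_ofReal
    have h2 := hF.trans (Filter.liminf_le_of_frequently_le' (Filter.Frequently.of_forall hb))
    refine absurd (hlog ▸ (lintegral_mono_ae ?_).trans h2) (not_le.2 ENNReal.ofReal_lt_top)
    filter_upwards [h0] with x hx
    have h3 : Filter.Tendsto (fun n : ℕ => ENNReal.ofReal (Real.log 2 - Real.log (f x ^ 2 + 1 / ((n : ℝ) + 1))))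
        Filter.atTop (nhds (ENNReal.ofReal (Real.log 2 - Real.log (f x ^ 2 + 0)))) :=
      ENNReal.tendsto_ofReal (tendsto_const_nhds.sub
        ((tendsto_const_nhds.add tendsto_one_div_add_atTop_nhds_zero_nat).log (by positivity)))
    rw [h3.liminf_eq, add_zero, Real.log_pow]
    refine ENNReal.ofReal_le_ofReal ?_
    have h4 := Real.log_nonneg (show (1 : ℝ) ≤ 2 by norm_num)
    have h5 := Real.log_nonpos hx.le ((le_abs_self _).trans (h1 x))
    push_cast
    linarith
  refine le_antisymm (le_of_forall_pos_le_add fun δ hδ => ?_) (le_ciInf fun ε => (Real.exp_pos _).le)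
  obtain ⟨ε, hε, h2⟩ := key (2 * Real.log δ)
  refine (ciInf_le ⟨0, ?_⟩ ⟨ε, hε⟩).trans ?_
  · rintro _ ⟨δ, rfl⟩
    exact (Real.exp_pos _).le
  · rw [zero_add, ← Real.exp_log hδ]
    exact Real.exp_le_exp.2 (by linarith)

end Crest.Agent.R113
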