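import Crest.Agent.R113.TrLog

/-! Row 113: derivatives of `Pj` and `Psi` along a path `E' = d E`. -/

set_option autoImplicit false

namespace Crest.Agent.R113

open Crest.Agent.R95

variable {A : Type*} [CStarAlgebra A]

/-- A path `E t = exp (h + t d)`, abstractly. -/
structure ExpPath (E : ℝ → A) (d : A) : Prop where
  deriv : ∀ t, HasDerivAt E (d * E t) t
  sa : ∀ t, IsSelfAdjoint (E t)
  unit : ∀ t, IsUnit (E t)
  d_sa : IsSelfAdjoint d
  comm : ∀ t, Commute d (E t)

/-- For use in concrete algebras (complex scalars avoid an instance diamond). -/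
lemma hasDerivAt_of_sq_bound {E : ℝ → A} {E' : A} {s C : ℝ}
    (h : ∀ t, |t - s| ≤ 1 → ‖E t - E s - ((t - s : ℝ) : ℂ) • E'‖ ≤ C * (t - s) ^ 2) :
    HasDerivAt E E' s := by
  rw [hasDerivAt_iff_isLittleO]
  refine Asymptotics.IsBigO.trans_isLittleO (g := fun t : ℝ => ‖t - s‖ ^ 2) ?_
    (Asymptotics.isLittleO_pow_sub_sub s one_lt_two)
  refine Asymptotics.IsBigO.of_bound C ?_
  filter_upwards [Metric.closedBall_mem_nhds s one_pos] with t ht
  have h1 := h t (by rwa [Metric.mem_closedBall, Real.dist_eq] at ht)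
  rw [Complex.coe_smul] at h1
  rwa [Real.norm_of_nonneg (by positivity), Real.norm_eq_abs, sq_abs]

/-- `(Gm)' = 2 p d E² p`. -/
lemma hasDerivAt_Gm {E : ℝ → A} {d : A} (h : ExpPath E d) (p : A) (s : ℝ) :
    HasDerivAt (fun t => Gm p (E t)) ((2 : ℝ) • (p * (d * (E s * E s)) * p)) s := by
  have h1 := ((((h.deriv s).mul (h.deriv s)).const_mul p).mul_const p).add_const (1 - p)
  refine HasDerivAt.congr_deriv h1 ?_
  rw [← mul_assoc (E s) d, ← (h.comm s).eq, two_smul]
  simp only [mul_add, add_mul, mul_assoc]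

lemma hasDerivAt_inv_Gm {p : A} (hp : IsStarProjection p) {E : ℝ → A} {d : A} (h : ExpPath E d)
    (s : ℝ) :
    HasDerivAt (fun t => Ring.inverse (Gm p (E t)))
      (-(Ring.inverse (Gm p (E s)) * ((2 : ℝ) • (p * (d * (E s * E s)) * p)) *
        Ring.inverse (Gm p (E s)))) s := by
  obtain ⟨u, hu⟩ := Gm_isUnit hp (h.sa s) (h.unit s)
  have h1 : HasFDerivAt (Ring.inverse : A → A)
      (-ContinuousLinearMap.mulLeftRight ℝ A ↑u⁻¹ ↑u⁻¹) (Gm p (E s)) :=
    hu ▸ hasFDerivAt_ringInverse u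
  have h2 := h1.comp_hasDerivAt s (hasDerivAt_Gm h p s)
  refine HasDerivAt.congr_deriv h2 ?_
  rw [← hu, Ring.inverse_unit]
  rfl

/-- Sketch: product rule, `hasFDerivAt_ringInverse` (`(G⁻¹)' = - G⁻¹ G' G⁻¹`), `Gm_inv_comm`. -/
theorem hasDerivAt_Pj {p : A} (hp : IsStarProjection p) {E : ℝ → A} {d : A} (h : ExpPath E d)
    (s : ℝ) :
    HasDerivAt (fun t => Pj p (E t))
      (d * Pj p (E s) + Pj p (E s) * d - (2 : ℝ) • (Pj p (E s) * d * Pj p (E s))) s := by
  have h1 := ((((h.deriv s).mul_const p).mul (hasDerivAt_inv_Gm hp h s)).mul_const p).mul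
    (h.deriv s)
  refine HasDerivAt.congr_deriv h1 ?_
  simp only [Pj, Pi.mul_apply, add_mul, mul_neg, neg_mul, mul_smul_comm, smul_mul_assoc,
    mul_assoc, ← (h.comm s).eq]
  abel

variable [Tr A]

/-- Sketch: `hasDerivAt_tr_log` (`E` is continuous since differentiable), cyclicity of `tr`. -/
theorem hasDerivAt_Psi {p : A} (hp : IsStarProjection p) {E : ℝ → A} {d : A} (h : ExpPath E d)
    (s : ℝ) : HasDerivAt (fun t => Psi p (E t)) (tr (d * Pj p (E s))) s := by
  have cE : Continuous E := continuous_iff_continuousAt.2 fun t => (h.deriv t).continuousAt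
  have h1 := hasDerivAt_tr_log (G := fun t => Gm p (E t))
    (G' := fun t => (2 : ℝ) • (p * (d * (E t * E t)) * p)) (hasDerivAt_Gm h p) (by fun_prop)
    (fun t => Gm_sa hp (h.sa t)) (fun t => Gm_spec hp (h.sa t) (h.unit t)) s
  refine HasDerivAt.congr_deriv (h1.div_const 2) ?_
  rw [mul_smul_comm, tr_smul, mul_div_cancel_left₀ _ two_ne_zero]
  have e1 : Ring.inverse (Gm p (E s)) * (p * (d * (E s * E s)) * p) =
      (Ring.inverse (Gm p (E s)) * p * E s) * (d * E s * p) := by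
    rw [← mul_assoc d, (h.comm s).eq, mul_assoc (E s) d, (h.comm s).eq]
    simp only [mul_assoc]
  rw [e1, tr_comm, Pj]
  simp only [mul_assoc]

/-- Sketch: both sides are `2 tr (d d P) - 2 tr (d P d P)`. -/
theorem hasDerivAt_tr_Pj {p : A} (hp : IsStarProjection p) {E : ℝ → A} {d : A} (h : ExpPath E d)
    (s : ℝ) :
    HasDerivAt (fun t => tr (d * Pj p (E t))) (n2 (d * Pj p (E s) - Pj p (E s) * d) ^ 2) s := by
  have h1 := (trL A).hasFDerivAt.comp_hasDerivAt s ((hasDerivAt_Pj hp h s).const_mul d)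
  refine HasDerivAt.congr_deriv h1 ?_
  have hP := Pj_proj hp (h.sa s) (h.unit s)
  generalize Pj p (E s) = P at hP
  have e1 : tr (P * d * (d * P)) = tr (d * (d * P)) := by
    rw [mul_assoc, tr_comm, mul_assoc, mul_assoc, hP.isIdempotentElem.eq]
  have e2 : tr (P * d * (P * d)) = tr (d * (P * d * P)) := by
    rw [← mul_assoc, tr_comm]
  have e3 : tr (d * P * (P * d)) = tr (d * (P * d)) := by
    rw [mul_assoc, ← mul_assoc P, hP.isIdempotentElem.eq]
  have e4 : tr (d * P * (d * P)) = tr (d * (P * d * P)) := by simp only [mul_assoc]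
  rw [n2_sq_tr, star_sub, star_mul, star_mul, hP.isSelfAdjoint.star_eq, h.d_sa.star_eq, trL_apply,
    mul_sub, mul_add, mul_smul_comm, tr_sub, tr_add, tr_smul, sub_mul, mul_sub, mul_sub, tr_sub,
    tr_sub, tr_sub, e1, e2, e3, e4]
  ring

end Crest.Agent.R113
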