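import Crest.Agent.R113.Trace
import Crest.Agent.R113.Deriv

/-! Row 113: algebra of the elements `LR α a`, `UN α j` of `NN α`. -/

set_option autoImplicit false
set_option maxHeartbeats 400000

namespace Crest.Agent.R113

open MeasureTheory Crest.Agent.R95 Finset

variable {Ω : Type*} [MeasurableSpace Ω] {μ : Measure Ω} [IsProbabilityMeasure μ] (α : Act μ)

lemma bd_actR {a : Ω → ℝ} (ha : Bd a) : Bd fun p : Ω × ℤ => (a (α.σ p.2 p.1) : ℂ) :=
  ha.ofReal.comp (measurable_act α)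

lemma LR_coe (a : Ω → ℝ) : (LR α a).1 = mulOp (pm μ) fun p => (a (α.σ p.2 p.1) : ℂ) := rfl

lemma ae_act {P : Ω → Prop} (h : ∀ᵐ x ∂μ, P x) : ∀ᵐ p ∂pm μ, P (α.σ p.2 p.1) :=
  ae_pm_iff.2 fun k => (α.mp k).quasiMeasurePreserving.ae h

lemma LR_mul {a b : Ω → ℝ} (ha : Bd a) (hb : Bd b) :
    LR α (fun x => a x * b x) = LR α a * LR α b := by
  refine Subtype.ext ?_
  change _ = (LR α a).1 * (LR α b).1
  simp only [LR_coe, Complex.ofReal_mul]
  exact mulOp_mul (bd_actR α ha) (bd_actR α hb)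

lemma LR_add {a b : Ω → ℝ} (ha : Bd a) (hb : Bd b) :
    LR α (fun x => a x + b x) = LR α a + LR α b := by
  refine Subtype.ext ?_
  change _ = (LR α a).1 + (LR α b).1
  simp only [LR_coe, Complex.ofReal_add]
  exact mulOp_add (bd_actR α ha) (bd_actR α hb)

lemma LR_sub {a b : Ω → ℝ} (ha : Bd a) (hb : Bd b) :
    LR α (fun x => a x - b x) = LR α a - LR α b := by
  refine Subtype.ext ?_
  change _ = (LR α a).1 - (LR α b).1
  simp only [LR_coe, Complex.ofReal_sub]
  exact mulOp_sub (bd_actR α ha) (bd_actR α hb)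

lemma LR_smul (c : ℝ) {a : Ω → ℝ} (ha : Bd a) :
    LR α (fun x => c * a x) = (c : ℂ) • LR α a := by
  refine Subtype.ext ?_
  change _ = (c : ℂ) • (LR α a).1
  simp only [LR_coe, Complex.ofReal_mul]
  exact mulOp_smul _ (bd_actR α ha)

lemma LR_one : LR α (fun _ => 1) = 1 := by
  refine Subtype.ext ?_
  change _ = (1 : H2 (pm μ) →L[ℂ] H2 (pm μ))
  rw [LR_coe, mulOp_const]
  simp

lemma LR_sa {a : Ω → ℝ} (ha : Bd a) : IsSelfAdjoint (LR α a) := by
  refine Subtype.ext ?_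
  change star (LR α a).1 = (LR α a).1
  rw [LR_coe, ← mulOp_star (bd_actR α ha)]
  simp

lemma LR_congr {a b : Ω → ℝ} (ha : Bd a) (hb : Bd b) (h : a =ᵐ[μ] b) : LR α a = LR α b := by
  refine Subtype.ext ?_
  rw [LR_coe, LR_coe]
  refine mulOp_congr (bd_actR α ha) (bd_actR α hb) ?_
  filter_upwards [ae_act α h] with p hp
  rw [hp]

lemma norm_LR_le {a : Ω → ℝ} (ha : Bd a) {C : ℝ} (hC : 0 ≤ C) (h : ∀ᵐ x ∂μ, |a x| ≤ C) :
    ‖LR α a‖ ≤ C := by
  change ‖(LR α a).1‖ ≤ C
  rw [LR_coe]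
  refine norm_mulOp_le (bd_actR α ha) hC ?_
  filter_upwards [ae_act α h] with p hp
  simpa using hp

lemma LR_comm {a b : Ω → ℝ} (ha : Bd a) (hb : Bd b) : Commute (LR α a) (LR α b) := by
  change _ * _ = _ * _
  rw [← LR_mul α ha hb, ← LR_mul α hb ha]
  simp only [mul_comm]

lemma LR_proj {s : Set Ω} (hs : MeasurableSet s) :
    IsStarProjection (LR α (s.indicator fun _ => 1)) := by
  have hb : Bd (s.indicator fun _ => (1 : ℝ)) := (Bd.const 1).indicator hs
  refine ⟨?_, LR_sa α hb⟩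
  change _ * _ = _
  rw [← LR_mul α hb hb]
  congr 1
  funext x
  by_cases hx : x ∈ s <;> simp [hx]

lemma tr_LR {a : Ω → ℝ} (ha : Bd a) : tr (LR α a) = ∫ x, a x ∂μ := by
  have h1 : τ (LR α a) = ((∫ x, a x ∂μ : ℝ) : ℂ) := by
    rw [τ_NN, inner_vac, ← integral_complex_ofReal]
    refine integral_congr_ae ?_
    filter_upwards [ae_pm_iff.1 (mulOp_apply (ν := pm μ) (bd_actR α ha) (vac μ)) 0,
      ae_pm_iff.1 (vac_apply (μ := μ)) 0, α.zero] with x h1 h2 h3
    rw [LR_coe, h1, h2, h3]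
    simp
  rw [tr, h1, Complex.ofReal_re]

lemma UN_mul (j k : ℤ) : UN α j * UN α k = UN α (j + k) := Subtype.ext (Us_mul j k)

lemma UN_zero : UN α 0 = 1 := Subtype.ext Us_zero

lemma star_UN (j : ℤ) : star (UN α j) = UN α (-j) := Subtype.ext (star_Us j)

lemma LR_mul_UN {a : Ω → ℝ} (ha : Bd a) (j : ℤ) :
    LR α a * UN α j = UN α j * LR α fun x => a (α.σ j x) :=
  Subtype.ext (Lm_mul_Us α ha.ofReal j)

/-- Powers of a weighted shift (induction; `σ 0 = id` a.e. is used through `LR_congr`). -/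
lemma pow_shift {f : Ω → ℝ} (hf : Bd f) (n : ℕ) :
    (UN α 1 * LR α f) ^ n = UN α n * LR α fun x => ∏ j ∈ range n, f (α.σ j x) := by
  induction n with
  | zero => simp [UN_zero, LR_one]
  | succ n ih =>
    have hp : Bd fun x => ∏ j ∈ range n, f (α.σ j x) :=
      Bd.prod _ fun j _ => hf.comp (α.mp j).measurable
    have hp' : Bd fun x => ∏ j ∈ range n, f (α.σ j (α.σ 1 x)) := hp.comp (α.mp 1).measurable
    have hp1 : Bd fun x => ∏ j ∈ range (n + 1), f (α.σ j x) :=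
      Bd.prod _ fun j _ => hf.comp (α.mp j).measurable
    rw [pow_succ, ih, mul_assoc, ← mul_assoc (LR α _), LR_mul_UN α hp, ← mul_assoc, ← mul_assoc,
      UN_mul, mul_assoc, ← LR_mul α hp' hf]
    push_cast
    congr 1
    refine LR_congr α (hp'.mul hf) hp1 ?_
    filter_upwards [α.zero] with x hx
    rw [Finset.prod_range_succ']
    simp only [α.add, Nat.cast_add, Nat.cast_one, Nat.cast_zero, hx]

/-- `(Us j (Lm a vac))` is supported on `k = j`. -/
lemma τ_UN_mul_LR {a : Ω → ℝ} (ha : Bd a) {j : ℤ} (hj : j ≠ 0) : τ (UN α j * LR α a) = 0 := by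
  rw [τ_NN, inner_vac]
  refine (integral_congr_ae ?_).trans (integral_zero _ _)
  filter_upwards [ae_pm_iff.1 (cmpOp_apply (mp_shift μ j) ((LR α a).1 (vac μ))) 0,
    ae_pm_iff.1 (mulOp_apply (ν := pm μ) (bd_actR α ha) (vac μ)) (0 - j),
    ae_pm_iff.1 (vac_apply (μ := μ)) (0 - j)] with x h1 h2 h3
  refine h1.trans (h2.trans ?_)
  rw [h3]
  simp [hj]

lemma exp_taylor_bd {y d u M D : ℝ} (hy : y ≤ M) (hd : |d| ≤ D) (hu : |u| ≤ 1) :
    |Real.exp (y + u * d) - Real.exp y - u * (d * Real.exp y)| ≤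
      Real.exp M * (D ^ 2 * Real.exp D) * u ^ 2 := by
  have hD : 0 ≤ D := (abs_nonneg _).trans hd
  have h1 : |u * d| ≤ D := by
    rw [abs_mul]
    calc |u| * |d| ≤ 1 * D := mul_le_mul hu hd (abs_nonneg _) zero_le_one
      _ = D := one_mul _
  have h2 : |Real.exp (u * d) - 1 - u * d| ≤ (u * d) ^ 2 * Real.exp D := by
    have h := Complex.norm_exp_sub_sum_le_norm_mul_exp ((u * d : ℝ) : ℂ) 2
    simp only [Finset.sum_range_succ, Finset.range_zero, Finset.sum_empty, pow_zero, pow_one,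
      Nat.factorial_zero, Nat.factorial_one, Nat.cast_one, div_one, zero_add] at h
    rw [← Complex.ofReal_exp, ← Complex.ofReal_one, ← Complex.ofReal_add, ← Complex.ofReal_sub,
      Complex.norm_real, Complex.norm_real, Real.norm_eq_abs, Real.norm_eq_abs, sq_abs] at h
    rw [sub_sub]
    exact h.trans (mul_le_mul_of_nonneg_left (Real.exp_le_exp.2 h1) (sq_nonneg _))
  have h3 : Real.exp (y + u * d) - Real.exp y - u * (d * Real.exp y) =
      Real.exp y * (Real.exp (u * d) - 1 - u * d) := by rw [Real.exp_add]; ring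
  have h4 : d ^ 2 ≤ D ^ 2 := by rw [← sq_abs]; exact pow_le_pow_left₀ (abs_nonneg _) hd 2
  rw [h3, abs_mul, abs_of_pos (Real.exp_pos _)]
  calc Real.exp y * |Real.exp (u * d) - 1 - u * d|
      ≤ Real.exp M * ((u * d) ^ 2 * Real.exp D) :=
        mul_le_mul (Real.exp_le_exp.2 hy) h2 (abs_nonneg _) (Real.exp_pos _).le
    _ = Real.exp M * (d ^ 2 * Real.exp D) * u ^ 2 := by ring
    _ ≤ _ := by gcongr

/-- Sketch: `hasDerivAt_of_sq_bound`; `|exp (y + s d) - exp y - s d exp y| ≤ C s²` uniformly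
(`Real.abs_exp_sub_one_sub_id_le`), `norm_LR_le`. The inverse is `LR (exp (-(h + s d)))`. -/
theorem expPath_LR {h d : Ω → ℝ} (hh : Bd h) (hd : Bd d) :
    ExpPath (fun s : ℝ => LR α fun x => Real.exp ((h + s • d) x)) (LR α d) := by
  have hb : ∀ s : ℝ, Bd fun x => Real.exp ((h + s • d) x) := fun s => (hh.add_smul hd s).exp
  refine ⟨fun s => ?_, fun s => LR_sa α (hb s), fun s => ?_, LR_sa α hd,
    fun s => LR_comm α hd (hb s)⟩
  · obtain ⟨M, -, hM⟩ := (hh.add_smul hd s).exists_abs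
    obtain ⟨D, hD0, hD⟩ := hd.exists_abs
    refine hasDerivAt_of_sq_bound (C := Real.exp M * (D ^ 2 * Real.exp D)) fun t ht => ?_
    rw [← LR_mul α hd (hb s), ← LR_smul α _ (hd.mul (hb s)), ← LR_sub α (hb t) (hb s),
      ← LR_sub α ((hb t).sub (hb s)) ((Bd.const _).mul (hd.mul (hb s)))]
    refine norm_LR_le α (((hb t).sub (hb s)).sub ((Bd.const _).mul (hd.mul (hb s))))
      (by positivity) (ae_of_all _ fun x => ?_)
    have e : (h + t • d) x = (h + s • d) x + (t - s) * d x := by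
      simp only [Pi.add_apply, Pi.smul_apply, smul_eq_mul]; ring
    simp only [e]
    exact exp_taylor_bd ((le_abs_self _).trans (hM x)) (hD x) ht
  · have hb' : Bd fun x => Real.exp (-(h + s • d) x) := (hh.add_smul hd s).neg.exp
    refine ⟨⟨LR α fun x => Real.exp ((h + s • d) x), LR α fun x => Real.exp (-(h + s • d) x),
      ?_, ?_⟩, rfl⟩
    · rw [← LR_mul α (hb s) hb', ← LR_one α]
      congr 1; funext x; rw [← Real.exp_add]; simp
    · rw [← LR_mul α hb' (hb s), ← LR_one α]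
      congr 1; funext x; rw [← Real.exp_add]; simp

end Crest.Agent.R113
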