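import Crest.Prelude.Def_ProductShift
import Crest.Agent.R113.LR
import Crest.Agent.R113.Det

/-! Row 113 (S0151): the weighted shift over the product rotation. -/

set_option autoImplicit false

namespace Crest.Agent.R113

open Crest.Agent.R95 MeasureTheory Crest.AnalysisR.ProductShift Finset

lemma ae_cube : ∀ᵐ x ∂cubeMeasure, ∀ i, x i ∈ Set.Ico (0 : ℝ) 1 := by
  refine ae_all_iff.2 fun i => ?_
  exact (measurePreserving_eval_infinitePi (fun _ : ℕ => unitLebesgue) i).quasiMeasurePreserving.ae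
    (ae_restrict_mem measurableSet_Ico)

lemma cu_mp_fract (s : ℝ) :
    MeasurePreserving (fun t : ℝ => Int.fract (t + s)) unitLebesgue unitLebesgue := by
  have hm : Measurable fun t : ℝ => Int.fract (t + s) := (measurable_id.add_const s).fract
  refine ⟨hm, Measure.ext fun A hA => ?_⟩
  have hB : MeasurableSet (Int.fract ⁻¹' A : Set ℝ) := measurable_fract hA
  rw [Measure.map_apply hm hA, unitLebesgue, Measure.restrict_apply (hm hA),
    Measure.restrict_apply hA]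
  have e1 : (fun t : ℝ => Int.fract (t + s)) ⁻¹' A ∩ Set.Ico 0 1 =
      (fun t : ℝ => t + s) ⁻¹' (Int.fract ⁻¹' A ∩ Set.Ico s (s + 1)) := by
    ext t
    simp only [Set.mem_inter_iff, Set.mem_preimage, Set.mem_Ico]
    constructor
    · rintro ⟨h1, h2, h3⟩; exact ⟨h1, by linarith, by linarith⟩
    · rintro ⟨h1, h2, h3⟩; exact ⟨h1, by linarith, by linarith⟩
  have e2 : A ∩ Set.Ico 0 1 = Int.fract ⁻¹' A ∩ Set.Ico (0 : ℝ) (0 + 1) := by
    ext t
    simp only [Set.mem_inter_iff, Set.mem_preimage, zero_add]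
    constructor
    · rintro ⟨h1, h2⟩; exact ⟨by rwa [Int.fract_eq_self.2 h2], h2⟩
    · rintro ⟨h1, h2⟩; exact ⟨by rwa [Int.fract_eq_self.2 h2] at h1, h2⟩
  have e3 : ∀ r : ℝ, volume (Int.fract ⁻¹' A ∩ Set.Ico r (r + 1)) =
      volume (Int.fract ⁻¹' A ∩ Set.Ioc r (r + 1)) := fun r =>
    measure_congr ((ae_eq_refl _).inter Ico_ae_eq_Ioc)
  rw [e1, measure_preimage_add_right, e2, e3, e3]
  refine (isAddFundamentalDomain_Ioc one_pos s).measure_set_eq
    (isAddFundamentalDomain_Ioc one_pos 0) hB fun g => ?_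
  obtain ⟨g, n, rfl⟩ := g
  ext t
  simp [AddSubgroup.vadd_def]

/-- `t ↦ fract (t + s)` preserves `unitLebesgue`; `Measure.infinitePi_map_pi`-type lemma. -/
lemma mp_orbit (θ : ℕ → ℝ) (k : ℤ) : MeasurePreserving (orbitPoint θ k) cubeMeasure cubeMeasure := by
  have hm : ∀ i, Measurable fun t : ℝ => Int.fract (t + (k : ℝ) * θ i) :=
    fun i => (cu_mp_fract _).measurable
  refine ⟨measurable_pi_lambda _ fun i => (hm i).comp (measurable_pi_apply i), ?_⟩
  have h := Measure.infinitePi_map_pi (fun _ : ℕ => unitLebesgue) hm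
  simp only [(cu_mp_fract _).map_eq] at h
  exact h

lemma orbit_add (θ : ℕ → ℝ) (k l : ℤ) (x : ℕ → ℝ) :
    orbitPoint θ k (orbitPoint θ l x) = orbitPoint θ (k + l) x := by
  funext i
  simp only [orbitPoint]
  rw [Int.fract_eq_fract]
  refine ⟨-⌊x i + l * θ i⌋, ?_⟩
  rw [Int.fract]; push_cast; ring

lemma orbit_zero (θ : ℕ → ℝ) : ∀ᵐ x ∂cubeMeasure, orbitPoint θ 0 x = x := by
  filter_upwards [ae_cube] with x hx
  funext i
  simp only [orbitPoint, Int.cast_zero, zero_mul, add_zero]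
  exact Int.fract_eq_self.2 (hx i)

/-- The product rotation. -/
noncomputable def cubeAct (θ : ℕ → ℝ) : Act cubeMeasure :=
  ⟨orbitPoint θ, mp_orbit θ, orbit_add θ, orbit_zero θ⟩

lemma cu_meas_term (s c : ℝ) : Measurable fun t : ℝ => ENNReal.ofReal (c * (⌊t + s⌋ : ℝ)) :=
  ((measurable_from_top (f := fun n : ℤ => (n : ℝ))).comp
    (measurable_id.add_const s).floor).const_mul c |>.ennreal_ofReal

lemma cu_meas_drop (θ c : ℕ → ℝ) : Measurable (dropCost θ c) :=
  Measurable.tsum fun i => (cu_meas_term (θ i) (c i)).comp (measurable_pi_apply i)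

lemma measurable_weight (θ c : ℕ → ℝ) : Measurable (weight θ c) := by
  have h := cu_meas_drop θ c
  exact Measurable.ite (h (measurableSet_singleton ⊤)) measurable_const
    (Real.measurable_exp.comp h.ennreal_toReal.neg)

lemma weight_mem (θ c : ℕ → ℝ) (x : ℕ → ℝ) : 0 ≤ weight θ c x ∧ weight θ c x ≤ 1 := by
  unfold weight
  split_ifs
  · exact ⟨le_rfl, zero_le_one⟩
  · exact ⟨(Real.exp_pos _).le, Real.exp_le_one_iff.2 (neg_nonpos.2 ENNReal.toReal_nonneg)⟩

lemma bd_weight (θ c : ℕ → ℝ) : Bd (weight θ c) :=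
  Bd.of_abs (measurable_weight θ c) (C := 1) fun x =>
    abs_le.2 ⟨by linarith [(weight_mem θ c x).1], (weight_mem θ c x).2⟩

lemma cu_lint {s c : ℝ} (h0 : 0 < s) (h1 : s < 1) (hc : 0 ≤ c) :
    ∫⁻ t, ENNReal.ofReal (c * (⌊t + s⌋ : ℝ)) ∂unitLebesgue ≤ ENNReal.ofReal (c * s) := by
  calc ∫⁻ t, ENNReal.ofReal (c * (⌊t + s⌋ : ℝ)) ∂unitLebesgue
      ≤ ∫⁻ t, (Set.Ico (1 - s) 1).indicator (fun _ => ENNReal.ofReal c) t ∂unitLebesgue := by
        refine lintegral_mono_ae ?_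
        filter_upwards [ae_restrict_mem (μ := (volume : Measure ℝ)) (s := Set.Ico (0 : ℝ) 1)
          measurableSet_Ico] with t ht
        by_cases h : 1 - s ≤ t
        · have : ⌊t + s⌋ = 1 := Int.floor_eq_iff.2 ⟨by push_cast; linarith, by
            push_cast; linarith [ht.2]⟩
          rw [Set.indicator_of_mem (show t ∈ Set.Ico (1 - s) 1 from ⟨h, ht.2⟩), this]
          simp
        · have : ⌊t + s⌋ = 0 := Int.floor_eq_iff.2 ⟨by push_cast; linarith [ht.1], by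
            push_cast; linarith [not_le.1 h]⟩
          rw [this]
          simp
    _ ≤ ∫⁻ t, (Set.Ico (1 - s) 1).indicator (fun _ => ENNReal.ofReal c) t :=
        lintegral_mono' Measure.restrict_le_self le_rfl
    _ = ENNReal.ofReal (c * s) := by
        rw [lintegral_indicator_const measurableSet_Ico, Real.volume_Ico, sub_sub_cancel,
          ENNReal.ofReal_mul hc]

/-- `∫ -log weight ≤ ∫ dropCost = ∑ c i θ i`, so the partial sums of `c i θ i` are unbounded. -/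
lemma cost_unbounded {θ c : ℕ → ℝ} (hθ : ∀ i, 0 < θ i ∧ θ i < 1) (hc : ∀ i, 0 ≤ c i)
    (hlog : ∫⁻ x, ENNReal.ofReal (- Real.log (weight θ c x)) ∂cubeMeasure = ⊤) (L : ℝ) :
    ∃ I : ℕ, L ≤ ∑ i ∈ range I, c i * θ i := by
  by_contra hL
  push Not at hL
  have hnn : ∀ i, 0 ≤ c i * θ i := fun i => mul_nonneg (hc i) (hθ i).1.le
  have hs : Summable fun i => c i * θ i := summable_of_sum_range_le hnn fun I => (hL I).le
  have h1 : ∫⁻ x, ENNReal.ofReal (- Real.log (weight θ c x)) ∂cubeMeasure ≤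
      ∫⁻ x, dropCost θ c x ∂cubeMeasure := by
    refine lintegral_mono fun x => ?_
    unfold weight
    split_ifs with h
    · simp
    · rw [Real.log_exp, neg_neg, ENNReal.ofReal_toReal h]
  have h2 : ∫⁻ x, dropCost θ c x ∂cubeMeasure ≤ ∑' i, ENNReal.ofReal (c i * θ i) := by
    unfold dropCost
    rw [lintegral_tsum (f := fun i (x : ℕ → ℝ) => ENNReal.ofReal (c i * (⌊x i + θ i⌋ : ℝ)))
      fun i => ((cu_meas_term (θ i) (c i)).comp (measurable_pi_apply i)).aemeasurable]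
    refine ENNReal.tsum_le_tsum fun i => ?_
    have h3 := (measurePreserving_eval_infinitePi (fun _ : ℕ => unitLebesgue) i).lintegral_comp
      (cu_meas_term (θ i) (c i))
    exact (le_of_eq h3).trans (cu_lint (hθ i).1 (hθ i).2 (hc i))
  rw [← ENNReal.ofReal_tsum_of_nonneg hnn hs] at h2
  exact ENNReal.ofReal_ne_top (top_le_iff.1 (hlog ▸ h1.trans h2))

lemma cu_weight_le (θ c : ℕ → ℝ) (I : ℕ) (y : ℕ → ℝ) :
    weight θ c y ≤ Real.exp (-∑ i ∈ range I, c i * (⌊y i + θ i⌋ : ℝ)) := by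
  unfold weight
  split_ifs with h
  · exact (Real.exp_pos _).le
  · rw [Real.exp_le_exp, neg_le_neg_iff]
    calc ∑ i ∈ range I, c i * (⌊y i + θ i⌋ : ℝ)
        ≤ ∑ i ∈ range I, (ENNReal.ofReal (c i * (⌊y i + θ i⌋ : ℝ))).toReal :=
          sum_le_sum fun i _ => by rw [ENNReal.toReal_ofReal']; exact le_max_left _ _
      _ = (∑ i ∈ range I, ENNReal.ofReal (c i * (⌊y i + θ i⌋ : ℝ))).toReal :=
          (ENNReal.toReal_sum fun i _ => ENNReal.ofReal_ne_top).symm
      _ ≤ _ := ENNReal.toReal_mono h (ENNReal.sum_le_tsum _)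

lemma cu_tele (y s : ℝ) (n : ℕ) :
    n * s - 1 ≤ ∑ j ∈ range n, (⌊Int.fract (y + j * s) + s⌋ : ℝ) := by
  have h : ∑ j ∈ range n, (⌊Int.fract (y + j * s) + s⌋ : ℝ) = (⌊y + n * s⌋ : ℝ) - ⌊y⌋ := by
    induction n with
    | zero => simp
    | succ n ih =>
      have e : Int.fract (y + n * s) + s = (y + ((n + 1 : ℕ) : ℝ) * s) - (⌊y + n * s⌋ : ℤ) := by
        rw [Int.fract]; push_cast; ring
      rw [sum_range_succ, ih, e, Int.floor_sub_intCast]
      push_cast; ring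
  rw [h]
  linarith [Int.floor_le y, Int.lt_floor_add_one (y + n * s)]

/-- Telescoping: `∑_{j<n} ⌊fract (y + j θ) + θ⌋ = ⌊y + n θ⌋ - ⌊y⌋ ≥ n θ - 1`. -/
lemma prod_weight_le {θ c : ℕ → ℝ} (hθ : ∀ i, 0 < θ i ∧ θ i < 1) (hc : ∀ i, 0 ≤ c i) (I n : ℕ)
    (x : ℕ → ℝ) : ∏ j ∈ range n, weight θ c (orbitPoint θ j x) ≤
      Real.exp (∑ i ∈ range I, c i) * Real.exp (-∑ i ∈ range I, c i * θ i) ^ n := by
  calc ∏ j ∈ range n, weight θ c (orbitPoint θ j x)
      ≤ ∏ j ∈ range n, Real.exp (-∑ i ∈ range I, c i * (⌊orbitPoint θ j x i + θ i⌋ : ℝ)) :=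
        prod_le_prod (fun j _ => (weight_mem θ c _).1) fun j _ => cu_weight_le θ c I _
    _ = Real.exp (-∑ i ∈ range I, c i * ∑ j ∈ range n, (⌊orbitPoint θ j x i + θ i⌋ : ℝ)) := by
        rw [← Real.exp_sum, sum_neg_distrib, sum_comm]
        simp only [mul_sum]
    _ ≤ _ := by
        rw [← Real.exp_nat_mul, ← Real.exp_add, Real.exp_le_exp, mul_neg, mul_sum,
          ← sum_neg_distrib, ← sum_neg_distrib, ← sum_add_distrib]
        refine sum_le_sum fun i _ => ?_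
        have h1 := cu_tele (x i) (θ i) n
        have h2 := mul_le_mul_of_nonneg_left h1 (hc i)
        simp only [orbitPoint, Int.cast_natCast]
        linarith

/-- `pow_shift`, `norm_LR_le`, `‖UN n‖ ≤ 1`. -/
theorem qn_shift {θ c : ℕ → ℝ} (hθ : ∀ i, 0 < θ i ∧ θ i < 1) (hc : ∀ i, 0 ≤ c i)
    (hlog : ∫⁻ x, ENNReal.ofReal (- Real.log (weight θ c x)) ∂cubeMeasure = ⊤) :
    QN (UN (cubeAct θ) 1 * LR (cubeAct θ) (weight θ c)) := by
  intro r hr
  obtain ⟨I, hI⟩ := cost_unbounded hθ hc hlog (-Real.log r)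
  refine ⟨Real.exp (∑ i ∈ range I, c i), fun n => ?_⟩
  have hb : Bd fun x => ∏ j ∈ range n, weight θ c ((cubeAct θ).σ j x) :=
    Bd.prod _ fun j _ => (bd_weight θ c).comp ((cubeAct θ).mp j).measurable
  have hU : ‖UN (cubeAct θ) n‖ ≤ 1 := by
    have := nontrivial_of_tr (NN (cubeAct θ))
    have h1 := CStarRing.norm_star_mul_self (x := UN (cubeAct θ) n)
    rw [star_UN, UN_mul, neg_add_cancel, UN_zero, norm_one] at h1
    nlinarith [norm_nonneg (UN (cubeAct θ) n)]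
  have hr' : Real.exp (-∑ i ∈ range I, c i * θ i) ≤ r := by
    rw [← Real.exp_log hr]
    exact Real.exp_le_exp.2 (by linarith)
  rw [pow_shift _ (bd_weight θ c)]
  refine (norm_mul_le _ _).trans ((mul_le_of_le_one_left (norm_nonneg _) hU).trans ?_)
  refine norm_LR_le _ hb (by positivity) (ae_of_all _ fun x => ?_)
  rw [abs_of_nonneg (prod_nonneg fun j _ => (weight_mem θ c _).1)]
  refine (prod_weight_le hθ hc I n x).trans ?_
  gcongr

lemma eq_shift {θ c : ℕ → ℝ} {X : pairSpace →L[ℂ] pairSpace} (hX : IsWeightedShift θ c X) :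
    X = (UN (cubeAct θ) 1 * LR (cubeAct θ) (weight θ c)).1 := by
  ext1 g
  refine Lp.ext ?_
  have h1 := cmpOp_apply (mp_shift cubeMeasure 1) (Lm (cubeAct θ) (fun x => (weight θ c x : ℂ)) g)
  have h2 := (mp_shift cubeMeasure 1).quasiMeasurePreserving.ae
    (mulOp_apply (ν := pm cubeMeasure) (bd_act (cubeAct θ) (bd_weight θ c).ofReal) g)
  filter_upwards [hX g, h1, h2] with p e1 e2 e3
  exact e1.trans (e2.trans e3).symm

lemma vectorDet_def {H : Type*} [NormedAddCommGroup H] [InnerProductSpace ℂ H] [CompleteSpace H] (ξ : H)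
    (A : H →L[ℂ] H) : vectorDet ξ A = ⨅ ε : {r : ℝ // 0 < r},
      Real.exp ((inner ℂ ξ (cfcR Real.log (star A * A + ((ε : ℝ) : ℂ) • (1 : H →L[ℂ] H)) ξ)).re / 2) := rfl

/-- `vectorDet` of an element of `NN α` (`coe_cfcR_log`, `τ_NN`; `vacuumVector = vac _`). -/
lemma vectorDet_eq (θ : ℕ → ℝ) (Y : NN (cubeAct θ)) :
    vectorDet vacuumVector (Y.1 : pairSpace →L[ℂ] pairSpace) = ⨅ ε : {r : ℝ // 0 < r},
      Real.exp (tr (cfcR Real.log (star Y * Y + ((ε : ℝ) : ℂ) • 1)) / 2) := by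
  rw [vectorDet_def]
  refine iInf_congr fun ε => ?_
  rw [tr, τ_NN, coe_cfcR_log _ Y ε.2]
  rfl

/-- `(U f)⋆ (U f) + ε = LR (f² + ε)`; `coe_cfcR_log`, `cfcR_mulOp`, `tr_LR`. -/
lemma tr_log_shift {Ω : Type*} [MeasurableSpace Ω] {μ : Measure Ω} [IsProbabilityMeasure μ]
    (α : Act μ) {f : Ω → ℝ} (hf : Bd f) {ε : ℝ} (hε : 0 < ε) :
    tr (cfcR Real.log (star (UN α 1 * LR α f) * (UN α 1 * LR α f) + (ε : ℂ) • 1)) =
      ∫ x, Real.log (f x ^ 2 + ε) ∂μ := by
  obtain ⟨C, hC0, hC⟩ := hf.exists_abs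
  have hmem : ∀ x, f x ^ 2 + ε ∈ Set.Icc ε (C ^ 2 + ε) := fun x =>
    ⟨le_add_of_nonneg_left (sq_nonneg _), by
      have := sq_le_sq' (abs_le.1 (hC x)).1 (abs_le.1 (hC x)).2
      linarith⟩
  have hb : Bd fun x => f x ^ 2 + ε := by
    simpa only [sq] using (hf.mul hf).add (Bd.const ε)
  have hlog : ContinuousOn Real.log (Set.Icc ε (C ^ 2 + ε)) :=
    Real.continuousOn_log.mono fun x hx => (hε.trans_le hx.1).ne'
  have hl : Bd fun x => Real.log (f x ^ 2 + ε) := by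
    obtain ⟨M, hM⟩ := isCompact_Icc.exists_bound_of_continuousOn hlog
    exact ⟨hb.1.log, M, fun x => hM _ (hmem x)⟩
  have h1 : star (UN α 1 * LR α f) * (UN α 1 * LR α f) + (ε : ℂ) • 1 = LR α fun x => f x ^ 2 + ε := by
    rw [star_mul, (LR_sa α hf).star_eq, star_UN, mul_assoc, ← mul_assoc (UN α (-1)), UN_mul, neg_add_cancel,
      UN_zero, one_mul, ← LR_mul α hf hf, ← LR_one α, ← LR_smul α ε (Bd.const 1),
      ← LR_add α (hf.mul hf) ((Bd.const ε).mul (Bd.const 1))]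
    simp only [sq, mul_one]
  have h2 : cfcR Real.log (star (UN α 1 * LR α f) * (UN α 1 * LR α f) + (ε : ℂ) • 1) =
      LR α fun x => Real.log (f x ^ 2 + ε) := by
    refine Subtype.ext ((coe_cfcR_log _ _ hε).trans ?_)
    have h3 := congrArg Subtype.val h1
    refine (congrArg (cfcR Real.log) h3).trans ?_
    exact cfcR_mulOp (a := fun p : Ω × ℤ => f (α.σ p.2 p.1) ^ 2 + ε) (hb.comp (measurable_act α))
      isCompact_Icc (fun p => hmem _) hlog
  rw [h2, tr_LR α hl]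

end Crest.Agent.R113
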