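import Crest.Agent.R95.Basic

/-! Row 113 (S0149, S0151): definitions.

* abstract tracial layer: `tr`, `Gm`, `Pj`, `Psi`;
* operators on `L²(Ω × ℤ)`: `mulOp`, `cmpOp`, `Act`, left/right multipliers and shifts, the
  commutant `NN α` of the right action;
* the measure-theoretic shadow of an invariant projection on the circle: `Kern`, `Fam`;
* the designed weight: `hit`, `rk`, `Design`; blocks: `dep`, `len`. -/

set_option autoImplicit false

namespace Crest.Agent.R113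

open MeasureTheory Crest.Agent.R95 Finset
open scoped ENNReal

/-! ### Abstract tracial layer -/

section Abs
variable {A : Type*} [CStarAlgebra A]

/-- Real part of the trace. -/
noncomputable def tr [Tr A] (x : A) : ℝ := (τ x).re

/-- `p E² p + (1 - p)`. -/
def Gm (p E : A) : A := p * (E * E) * p + (1 - p)

/-- The projection onto the range of `E p`. -/
noncomputable def Pj (p E : A) : A := E * p * Ring.inverse (Gm p E) * p * E

/-- The potential `½ τ log (p E² p + 1 - p)`. -/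
noncomputable def Psi [Tr A] (p E : A) : ℝ := tr (cfc Real.log (Gm p E)) / 2

end Abs

/-! ### Bounded measurable functions, operators on `L²` -/

/-- Bounded and measurable. -/
def Bd {X E : Type*} [MeasurableSpace X] [MeasurableSpace E] [Norm E] (a : X → E) : Prop :=
  Measurable a ∧ ∃ C : ℝ, ∀ x, ‖a x‖ ≤ C

section Ops
variable {X : Type*} [MeasurableSpace X]

/-- Complex `L²`. -/
abbrev H2 (ν : Measure X) : Type _ := Lp ℂ 2 ν

lemma Bd.memLp_top {a : X → ℂ} (h : Bd a) (ν : Measure X) : MemLp a ⊤ ν :=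
  memLp_top_of_bound h.1.aestronglyMeasurable h.2.choose (ae_of_all _ h.2.choose_spec)

open Classical in
/-- Multiplication by a bounded measurable function (`0` if `a` is not such a function). -/
noncomputable def mulOp (ν : Measure X) (a : X → ℂ) : H2 ν →L[ℂ] H2 ν :=
  if h : Bd a then (ContinuousLinearMap.mul ℂ ℂ).holderL ν ⊤ 2 2 ((h.memLp_top ν).toLp a) else 0

/-- Composition with a measure preserving map. -/
noncomputable def cmpOp {ν : Measure X} {f : X → X} (hf : MeasurePreserving f ν ν) :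
    H2 ν →L[ℂ] H2 ν :=
  (Lp.compMeasurePreservingₗᵢ ℂ f hf).toContinuousLinearMap

end Ops

/-- A measure preserving action of `ℤ` (`σ 0` is the identity almost everywhere). -/
structure Act {Ω : Type*} [MeasurableSpace Ω] (μ : Measure Ω) where
  σ : ℤ → Ω → Ω
  mp : ∀ k, MeasurePreserving (σ k) μ μ
  add : ∀ k l x, σ k (σ l x) = σ (k + l) x
  zero : ∀ᵐ x ∂μ, σ 0 x = x

section Act
variable {Ω : Type*} [MeasurableSpace Ω] {μ : Measure Ω}

/-- `μ × counting measure`. -/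
noncomputable abbrev pm (μ : Measure Ω) : Measure (Ω × ℤ) := μ.prod Measure.count

variable [IsProbabilityMeasure μ] (α : Act μ)

lemma mp_shift (μ : Measure Ω) [IsProbabilityMeasure μ] (j : ℤ) :
    MeasurePreserving (fun p : Ω × ℤ => (p.1, p.2 - j)) (pm μ) (pm μ) :=
  (MeasurePreserving.id μ).prod (measurePreserving_sub_right Measure.count j)

lemma mp_rshift (j : ℤ) :
    MeasurePreserving (fun p : Ω × ℤ => (α.σ j p.1, p.2 - j)) (pm μ) (pm μ) :=
  (α.mp j).prod (measurePreserving_sub_right Measure.count j)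

/-- Left multiplier: multiplication by `a (σ^k x)`. -/
noncomputable def Lm (a : Ω → ℂ) : H2 (pm μ) →L[ℂ] H2 (pm μ) :=
  mulOp (pm μ) fun p => a (α.σ p.2 p.1)

/-- Right multiplier: multiplication by `b x`. -/
noncomputable def Rm (μ : Measure Ω) (b : Ω → ℂ) : H2 (pm μ) →L[ℂ] H2 (pm μ) :=
  mulOp (pm μ) fun p => b p.1

/-- Left shift: `(Us j g) (x, k) = g (x, k - j)`. -/
noncomputable def Us (μ : Measure Ω) [IsProbabilityMeasure μ] (j : ℤ) :
    H2 (pm μ) →L[ℂ] H2 (pm μ) := cmpOp (mp_shift μ j)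

/-- Right shift: `(Rs j g) (x, k) = g (σ^j x, k - j)`. -/
noncomputable def Rs (j : ℤ) : H2 (pm μ) →L[ℂ] H2 (pm μ) := cmpOp (mp_rshift α j)

/-- The trace vector: the indicator of `k = 0`. -/
noncomputable def vac (μ : Measure Ω) [IsProbabilityMeasure μ] : H2 (pm μ) :=
  indicatorConstLp 2 (MeasurableSet.univ.prod (measurableSet_singleton (0 : ℤ)))
    (by rw [Measure.prod_prod, measure_univ, Measure.count_singleton, one_mul]
        exact ENNReal.one_ne_top) (1 : ℂ)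

/-- The commutant of the right action. -/
noncomputable def NN : StarSubalgebra ℂ (H2 (pm μ) →L[ℂ] H2 (pm μ)) :=
  StarSubalgebra.centralizer ℂ (Set.range (Rm μ) ∪ Set.range (Rs α))

instance isClosed_NN : IsClosed (NN α : Set (H2 (pm μ) →L[ℂ] H2 (pm μ))) := by
  rw [NN, StarSubalgebra.coe_centralizer]; exact Set.isClosed_centralizer _

end Act

/-! ### The circle -/

/-- The circle `ℝ / ℤ`. -/
abbrev T : Type := UnitAddCircle

instance : IsProbabilityMeasure (volume : Measure T) := ⟨UnitAddCircle.measure_univ⟩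

/-- The rotation action. -/
noncomputable def rot (a : T) : Act (volume : Measure T) where
  σ k x := x + k • a
  mp k := measurePreserving_add_right volume (k • a)
  add k l x := by rw [add_zsmul]; abel
  zero := ae_of_all _ fun x => by simp

/-- What is remembered of a projection `q`: the density `φ` of `b ↦ τ (b q)` and the measure
`ν = |q (x + D a, x)|² dx dD`. -/
structure Kern (a : T) where
  φ : T → ℝ
  ν : Measure (T × ℤ)
  meas : Measurable φ
  nonneg : ∀ x, 0 ≤ φ x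
  le_one : ∀ x, φ x ≤ 1
  fin : IsFiniteMeasure ν
  fst : ∀ b : T → ℝ, Bd b → ∫ p, b p.1 ∂ν = ∫ x, b x * φ x
  snd : ∀ b : T → ℝ, Bd b → ∫ p, b (p.1 + p.2 • a) ∂ν = ∫ x, b x * φ x
  diag : ν.real {p | p.2 = 0} = ∫ x, φ x ^ 2

/-- The weight of the `n`-th power of the shift with weight `F`, conjugated by `exp h`. -/
noncomputable def wt (a : T) (F h : T → ℝ) (n : ℕ) (x : T) : ℝ :=
  (∏ j ∈ range n, F (x + j • a)) * Real.exp (h (x + n • a) - h x)

/-- The family of deformed projections `[exp h · p]` of a nontrivial invariant projection. -/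
structure Fam (a : T) (F : T → ℝ) where
  t : ℝ
  t_pos : 0 < t
  t_lt : t < 1
  K : (T → ℝ) → Kern a
  Ψ : (T → ℝ) → ℝ
  int : ∀ h, Bd h → ∫ x, (K h).φ x = t
  d1 : ∀ h d, Bd h → Bd d → ∀ s : ℝ,
    HasDerivAt (fun s : ℝ => Ψ (h + s • d)) (∫ x, d x * (K (h + s • d)).φ x) s
  d2 : ∀ h d, Bd h → Bd d → ∀ s : ℝ,
    HasDerivAt (fun s : ℝ => ∫ x, d x * (K (h + s • d)).φ x)
      (∫ p, (d (p.1 + p.2 • a) - d p.1) ^ 2 ∂(K (h + s • d)).ν) s
  gap : ∀ h, Bd h → ∀ (n : ℕ) (E E' : Set T) (κ : ℝ), MeasurableSet E → MeasurableSet E' →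
    E' ⊆ E → 0 < κ → (∀ x, x ∉ E → κ ≤ wt a F h n x) → (∀ x ∈ E, wt a F h n x ≤ κ) →
    (∀ x ∈ E', 2 * wt a F h n x ≤ κ) →
    (∫ x in Eᶜ, (K h).φ x) + (K h).ν.real {p | p.1 ∈ E' ∧ p.1 + p.2 • a ∉ E} / 2 ≤
      ∫ x in Eᶜ, (K h).φ (x + n • a)

/-- Distance to the nearest integer. -/
noncomputable def dz (x : ℝ) : ℝ := |x - round x|

/-- The arc `[s, s + l)`. -/
def arc (s l : ℝ) : Set T := {y | ∃ r ∈ Set.Ico s (s + l), y = (r : T)}

open Classical in
/-- `1` if the orbit segment `x, x + a, …, x + (u - 1) a` meets `B`, else `0`. -/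
noncomputable def hit (a : T) (B : Set T) (u : ℕ) (x : T) : ℕ :=
  if ∃ v : ℕ, v < u ∧ x + v • a ∈ B then 1 else 0

/-- The lexicographic rank of the levels `m, …, 2 m` met in `u` steps. -/
noncomputable def rk (a : T) (B : ℕ → Set T) (m u : ℕ) (x : T) : ℕ :=
  ∑ j ∈ Icc m (2 * m), 2 ^ (j - m) * hit a (B j) u x

/-- Nonresonance of the angles `α`. -/
def NonRes (α : ℕ → ℝ) : Prop :=
  ∀ ε : ℝ, 0 < ε → ∃ κ : ℝ, 0 < κ ∧ ∀ (i : ℕ) (D : ℤ), ε * 64 ^ i ≤ |(D : ℝ)| →
    ∃ K : ℕ, κ ≤ ∑ k ∈ range K, dz (D * α (i + k)) / (k + 1)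

/-- The `L²` bound for the test functions of the Poincaré inequality. -/
def TestBd (a : T) (B : ℕ → Set T) (N : ℕ → ℕ) : Prop :=
  ∃ C : ℝ, 0 ≤ C ∧ ∀ (i K : ℕ) (ψ : T → ℝ), Measurable ψ → (∀ x, |ψ x| ≤ 1) →
    ∑ k ∈ range K, (∑ u ∈ Icc 1 (N (i + k)),
        ∫ x, ψ x * ((rk a B (i + k) u x : ℝ) - rk a B (i + k) u (x - u • a))) /
          (N (i + k) * (k + 1)) ≤ C * √(∫ x, ψ x ^ 2) + C / 2 ^ i

/-- The barrier sets (everything that does not involve the costs). -/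
structure Bars (a : T) where
  B : ℕ → Set T
  N : ℕ → ℕ
  Λ : ℕ → ℕ
  α : ℕ → ℝ
  rad : ℕ → ℝ
  meas : ∀ j, MeasurableSet (B j)
  rad_lim : Filter.Tendsto rad Filter.atTop (nhds 0)
  rad_pos : ∀ j, 0 < rad j
  sub : ∀ j, ∀ x ∈ B j, ‖x‖ < rad j
  N_mono : Monotone N
  N_ge : ∀ j, 16 * 64 ^ j ≤ N j
  N_le : ∀ j, N j ≤ Λ j
  Λ_le : ∀ j, Λ j ≤ 128 * 64 ^ j
  gap : ∀ j, ∀ x ∈ B j, ∀ u : ℕ, 0 < u → u < N j → x + u • a ∉ B j
  ret : ∀ j x, ∃ u : ℕ, u < Λ j ∧ x + u • a ∈ B j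
  sep : ∀ j x (D : ℤ), N j * (dz (D * α j) - 1 / 2 ^ j) ≤
    ∑ u ∈ Icc 1 (N j), |(hit a (B j) u x : ℝ) - hit a (B j) u (x + D • a)|
  nr : NonRes α
  l2 : TestBd a B N

/-- The designed weight `F`: barriers, exceptional sets `Z m` (of all levels `≥ m`), low costs
`G m` (of all levels `< m`), costs `c`. `W` is the size of the deformations to be dominated. -/
structure Design (a : T) (W : ℕ → ℕ → ℝ → ℝ) extends Bars a where
  F : T → ℝ
  Z : ℕ → Set T
  G : ℕ → T → ℝ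
  c : ℕ → ℝ
  Γ : ℕ → ℝ
  F_cont : Continuous F
  F_nonneg : ∀ x, 0 ≤ F x
  F_le : ∀ x, F x ≤ 1
  F_zero : ∀ x, F x = 0 ↔ x = 0
  F_log : ∫⁻ x, ENNReal.ofReal (-Real.log (F x)) = ⊤
  Z_meas : ∀ m, MeasurableSet (Z m)
  Z_le : ∀ m, volume.real (Z m) ≤ 1 / (64 ^ m) ^ 2
  G_meas : ∀ m, Measurable (G m)
  G_nonneg : ∀ m x, 0 ≤ G m x
  G_le : ∀ m x, G m x ≤ Γ m
  Γ_mono : Monotone Γ
  c_nonneg : ∀ j, 0 ≤ c j
  cost : ∀ i j, i ≤ j → ∑ l ∈ range j, c l + N j * Γ j + 4 * W i (Λ i) (Γ i) + 1 ≤ c j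
  F_eq : ∀ m M x, x ∉ Z m → (∀ j, m ≤ j → M < j → x ∉ B j) →
    F x = Real.exp (-(G m x + ∑ j ∈ Icc m M, (B j).indicator (fun _ => c j) x))
  F_le_c : ∀ m j x, m ≤ j → x ∈ B j → x ∉ Z m → F x ≤ Real.exp (-c j)

open Classical in
/-- Depth of `x` in its block: the least `j` with `x - (j + 1) a ∈ B`. -/
noncomputable def dep (a : T) (B : Set T) (x : T) : ℕ :=
  if h : ∃ j : ℕ, x - (j + 1) • a ∈ B then Nat.find h else 0

open Classical in
/-- Length of the block starting at `y`: one more than the least `j` with `y + j a ∈ B`. -/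
noncomputable def len (a : T) (B : Set T) (y : T) : ℕ :=
  if h : ∃ j : ℕ, y + j • a ∈ B then Nat.find h + 1 else 0

/-- Starting points of blocks. -/
def start (a : T) (B : Set T) : Set T := {y | y - a ∈ B}

/-- Sum of `ψ` over the block starting at `y`. -/
noncomputable def bsum (a : T) (B : Set T) (ψ : T → ℝ) (y : T) : ℝ :=
  ∑ j ∈ range (len a B y), ψ (y + j • a)

end Crest.Agent.R113
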