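import Crest.Agent.R113.Cube

/-! Row 113 (S0151): the determinant of `U f - z`. -/

set_option autoImplicit false

namespace Crest.Agent.R113

open Crest.Agent.R95 MeasureTheory Finset

theorem det_shift {Ω : Type*} [MeasurableSpace Ω] {μ : Measure Ω} [IsProbabilityMeasure μ]
    (α : Act μ) {f : Ω → ℝ} (hf : Measurable f) (h0 : ∀ᵐ x ∂μ, 0 < f x) (h1 : ∀ x, |f x| ≤ 1)
    (hlog : ∫⁻ x, ENNReal.ofReal (-Real.log (f x)) ∂μ = ⊤) (hq : QN (UN α 1 * LR α f)) (z : ℂ) :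
    ⨅ ε : {r : ℝ // 0 < r}, Real.exp (tr (cfcR Real.log (star (UN α 1 * LR α f - z • 1) *
      (UN α 1 * LR α f - z • 1) + ((ε : ℝ) : ℂ) • 1)) / 2) = ‖z‖ := by
  have hb : Bd f := Bd.of_abs hf h1
  by_cases hz : z = 0
  · subst hz
    simp only [zero_smul, sub_zero, norm_zero]
    refine Eq.trans ?_ (iInf_exp_log hf h0 h1 hlog)
    congr 1
    funext ε
    rw [tr_log_shift α hb ε.2]
  · have hτ : ∀ k : ℕ, τ ((UN α 1 * LR α f) ^ (k + 1)) = 0 := fun k => by
      have hp : Bd fun x => ∏ j ∈ range (k + 1), f (α.σ j x) :=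
        Bd.prod _ fun j _ => hb.comp (α.mp j).measurable
      rw [pow_shift α hb]
      exact τ_UN_mul_LR α hp (by omega)
    obtain ⟨hu, ht⟩ := hq.tr_log hτ hz
    rw [iInf_det hu, ht, mul_div_cancel_left₀ _ two_ne_zero, Real.exp_log (norm_pos_iff.2 hz)]

end Crest.Agent.R113
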