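import Crest.Agent.R113.Proj

/-! Row 113: the gap lemma. -/

set_option autoImplicit false

namespace Crest.Agent.R113

open Crest.Agent.R95

variable {A : Type*} [CStarAlgebra A] [Tr A]

section GapAux
attribute [local instance] CStarAlgebra.spectralOrder CStarAlgebra.spectralOrderedRing

omit [Tr A] in
lemma gap_inv_ge {G Z x : A} (hG : 0 ≤ G) (hZ : IsSelfAdjoint Z) (h1 : Z * G = 1) (h2 : G * Z = 1)
    (hx : IsSelfAdjoint x) : x + x - x * G * x ≤ Z := by
  have h := star_left_conjugate_nonneg hG (Z - x)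
  rw [(hZ.sub hx).star_eq] at h
  have e : (Z - x) * G * (Z - x) = Z * G * Z - Z * G * x - x * (G * Z) + x * G * x := by noncomm_ring
  rw [e, h1, h2, one_mul, one_mul, mul_one] at h
  rw [← sub_nonneg]
  convert h using 1
  abel

omit [Tr A] in
lemma gap_exists_inv {c : A} (hc : 0 ≤ c) {ε : ℝ} (hε : 0 < ε) :
    ∃ Z : A, IsSelfAdjoint Z ∧ Z * (c + algebraMap ℝ A ε) = 1 ∧ (c + algebraMap ℝ A ε) * Z = 1 := by
  have h0 : 0 ≤ algebraMap ℝ A ε := by
    rw [Algebra.algebraMap_eq_smul_one]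
    exact smul_nonneg hε.le zero_le_one
  have hu : IsUnit (c + algebraMap ℝ A ε) :=
    CStarAlgebra.isUnit_of_le (algebraMap ℝ A ε) (le_add_of_nonneg_left hc) ⟨h0, (IsUnit.mk0 ε hε.ne').map _⟩
  obtain ⟨U, hU⟩ := hu
  have hsa : IsSelfAdjoint (c + algebraMap ℝ A ε) := IsSelfAdjoint.of_nonneg (add_nonneg hc h0)
  have h1 : (↑U⁻¹ : A) * (c + algebraMap ℝ A ε) = 1 := by rw [← hU, Units.inv_mul]
  have h2 : (c + algebraMap ℝ A ε) * (↑U⁻¹ : A) = 1 := by rw [← hU, Units.mul_inv]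
  refine ⟨↑U⁻¹, ?_, h1, h2⟩
  have h3 := congrArg star h2
  rw [star_mul, hsa.star_eq, star_one] at h3
  calc star (↑U⁻¹ : A) = star (↑U⁻¹ : A) * ((c + algebraMap ℝ A ε) * (↑U⁻¹ : A)) := by rw [h2, mul_one]
    _ = ↑U⁻¹ := by rw [← mul_assoc, h3, one_mul]

lemma gap_tr_mono {x y b : A} (h : x ≤ y) (hb : 0 ≤ b) : tr (x * b) ≤ tr (y * b) := by
  have := τ_mul_re_nonneg (sub_nonneg.2 h) hb
  change 0 ≤ tr _ at this
  rwa [sub_mul, tr_sub, sub_nonneg] at this

/-- The variational lower bound for `tr (f q')`. -/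
lemma gap_var {q' f X : A} (hq' : IsStarProjection q') (hf : IsStarProjection f) (hX : q' * X = X) :
    2 * tr (f * X) - tr (star X * X) ≤ tr (f * q') := by
  have h : 0 ≤ tr (star (q' * f - X) * (q' * f - X)) := τ_nonneg _
  have e1 : star (q' * f) * (q' * f) = f * q' * f := by
    rw [star_mul, hq'.isSelfAdjoint.star_eq, hf.isSelfAdjoint.star_eq, mul_assoc, ← mul_assoc q',
      hq'.isIdempotentElem.eq, mul_assoc]
  have e2 : star (q' * f) * X = f * X := by
    rw [star_mul, hq'.isSelfAdjoint.star_eq, hf.isSelfAdjoint.star_eq, mul_assoc, hX]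
  have e3 : star X * (q' * f) = star (f * X) := by rw [← e2, star_mul, star_star]
  have e4 : tr (f * q' * f) = tr (f * q') := by
    rw [tr_comm, ← mul_assoc, hf.isIdempotentElem.eq]
  rw [star_sub, sub_mul, mul_sub, mul_sub, e1, e2, e3, tr_sub, tr_sub, tr_sub, tr_star, e4] at h
  linarith

lemma gap_eps {q q' f w a₀ : A} (hq : IsStarProjection q) (hq' : IsStarProjection q')
    (hf : IsStarProjection f) (hw : IsSelfAdjoint w) (hinv : q' * (w * q) = w * q) (ha : 0 ≤ a₀)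
    (h1 : q * f * q ≤ q * (w * f * w) * q) (h2 : q * (w * w) * q ≤ a₀ + q * (w * f * w) * q)
    {ε : ℝ} (hε : 0 < ε) :
    tr ((q + q - q * (a₀ + q * f * q + algebraMap ℝ A ε) * q) * (q * f * q)) ≤ tr (f * q') := by
  have h0 : 0 ≤ algebraMap ℝ A ε := by
    rw [Algebra.algebraMap_eq_smul_one]
    exact smul_nonneg hε.le zero_le_one
  have hb₀ : 0 ≤ q * f * q := by
    simpa only [hq.isSelfAdjoint.star_eq] using star_left_conjugate_nonneg hf.nonneg q
  set b := q * (w * f * w) * q with hb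
  have hb0 : 0 ≤ b := hb₀.trans h1
  obtain ⟨Z, hZ, z1, z2⟩ := gap_exists_inv (add_nonneg ha hb0) hε
  obtain ⟨Y, hY, y1, y2⟩ := gap_exists_inv (add_nonneg ha hb₀) hε
  have hG₂ : 0 ≤ a₀ + q * f * q + algebraMap ℝ A ε := add_nonneg (add_nonneg ha hb₀) h0
  -- step 3
  have s3 := gap_tr_mono (gap_inv_ge hG₂ hY y1 y2 hq.isSelfAdjoint) hb₀
  -- step 2
  have hZY : Z ≤ Y := by
    refine le_trans ?_ (gap_inv_ge hG₂ hY y1 y2 hZ)
    have h3 : a₀ + q * f * q + algebraMap ℝ A ε ≤ a₀ + b + algebraMap ℝ A ε := by gcongr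
    have h4 := star_left_conjugate_le_conjugate h3 Z
    rw [hZ.star_eq, z1, one_mul] at h4
    rw [add_sub_assoc]
    exact le_add_of_nonneg_right (sub_nonneg.2 h4)
  have s2 := gap_tr_mono hZY (add_nonneg ha h0)
  have e1 : tr (Z * (a₀ + algebraMap ℝ A ε)) + tr (Z * b) = 1 := by
    rw [← tr_add, ← mul_add, add_right_comm, z1, tr_one]
  have e2 : tr (Y * (a₀ + algebraMap ℝ A ε)) + tr (Y * (q * f * q)) = 1 := by
    rw [← tr_add, ← mul_add, add_right_comm, y1, tr_one]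
  -- step 1
  have s1 := gap_var (X := w * q * (Z * (q * w * f))) hq' hf (by rw [← mul_assoc, hinv])
  have hff := hf.isIdempotentElem.eq
  have e3 : tr (f * (w * q * (Z * (q * w * f)))) = tr (Z * b) := by
    have : q * w * f * (f * (w * q)) = b := by
      rw [hb, mul_assoc (q * w) f, ← mul_assoc f, hff]
      noncomm_ring
    rw [← mul_assoc f, tr_comm, mul_assoc Z, this]
  have e4 : tr (star (w * q * (Z * (q * w * f))) * (w * q * (Z * (q * w * f)))) =
      tr (Z * (q * (w * w) * q) * Z * b) := by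
    have : q * w * f * (f * (w * q)) = b := by
      rw [hb, mul_assoc (q * w) f, ← mul_assoc f, hff]
      noncomm_ring
    simp only [star_mul, hq.isSelfAdjoint.star_eq, hf.isSelfAdjoint.star_eq, hw.star_eq, hZ.star_eq]
    rw [mul_assoc (f * (w * q)), mul_assoc (f * (w * q)), tr_comm, ← this]
    congr 1
    noncomm_ring
  have s4 : tr (Z * (q * (w * w) * q) * Z * b) ≤ tr (Z * b) := by
    refine gap_tr_mono ?_ hb0
    have h4 := star_left_conjugate_le_conjugate (h2.trans (le_add_of_nonneg_right h0)) Z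
    rwa [hZ.star_eq, z1, one_mul] at h4
  linarith

end GapAux

/-- `q'` contains `w · range q`; `w² ≥ 1` under `1 - e`, `w² ≤ 1` under `e`, `w² ≤ 1/4` under `e'`.

Sketch (spectral order as in `R95/Basic.lean`, `τ_mul_re_nonneg`). Put `a = q e w w q`,
`b = q (1-e) w w q`, `a₀ = q (e - ¾ e') q ≥ a ≥ 0`, `b₀ = q (1-e) q ≤ b`, `y = q e' q`. Fix `ε > 0`,
`G = a + b + ε = q w w q + ε`, `Z = G⁻¹` (commutes with `q`), `R = w q Z q w`.
* `R R = R - ε w q Z Z q w ≤ R`, `q' R = R = R q'`, so `q' - R = (q' - R)² + (R - R R) ≥ 0` and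
  `tr ((1-e) q') ≥ tr ((1-e) R) = tr (Z b)`.
* `G ≤ G₁ = a₀ + b + ε`, so `tr (G⁻¹ b) ≥ tr (G₁⁻¹ b) = 1 - tr (G₁⁻¹ (a₀ + ε))`
  (`CStarAlgebra.inv_le_inv` / `Ring.inverse` antitone on positive invertibles).
* `G₁ ≥ G₂ = a₀ + b₀ + ε = q - ¾ y + ε`, so this is `≥ 1 - tr (G₂⁻¹ (a₀ + ε)) = tr (G₂⁻¹ b₀)`.
* `G₂⁻¹ ≥ 2 q - q G₂ q = q + ¾ y - ε q` (from `(G₂⁻¹ - q) G₂ (G₂⁻¹ - q) ≥ 0`), so
  `tr (G₂⁻¹ b₀) ≥ (1 - ε) tr b₀ + ¾ tr (y b₀)`, `tr (y b₀) = n2 ((1-e) q e')²`. Let `ε → 0`. -/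
theorem gap {q q' e e' w u v : A} (hq : IsStarProjection q) (hq' : IsStarProjection q')
    (he : IsStarProjection e) (he' : IsStarProjection e') (hw : IsSelfAdjoint w)
    (hwe : Commute w e) (hinv : q' * (w * q) = w * q)
    (h1 : (1 - e) * (w * w) = (1 - e) + star u * u)
    (h2 : e - (3 / 4 : ℂ) • e' = e * (w * w) + star v * v) :
    tr ((1 - e) * q) + 3 / 4 * n2 ((1 - e) * q * e') ^ 2 ≤ tr ((1 - e) * q') := by
  let _ := CStarAlgebra.spectralOrder A
  have := CStarAlgebra.spectralOrderedRing A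
  have hf : IsStarProjection (1 - e) := he.one_sub
  have hqs := hq.isSelfAdjoint.star_eq
  have hqq := hq.isIdempotentElem.eq
  have conj : ∀ {x : A}, 0 ≤ x → 0 ≤ q * x * q := fun hx => by
    simpa only [hqs] using star_left_conjugate_nonneg hx q
  have hwf : w * (1 - e) * w = (1 - e) * (w * w) := by
    rw [mul_sub, sub_mul, hwe.eq]
    noncomm_ring
  have hew : 0 ≤ e * (w * w) := by
    have := star_left_conjugate_nonneg he.nonneg w
    rwa [hw.star_eq, hwe.eq, mul_assoc] at this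
  have ha : 0 ≤ q * (e - (3 / 4 : ℂ) • e') * q := by
    rw [h2]
    exact conj (add_nonneg hew (star_mul_self_nonneg v))
  have k1 : q * (1 - e) * q ≤ q * (w * (1 - e) * w) * q := by
    rw [hwf, h1, mul_add, add_mul]
    exact le_add_of_nonneg_right (conj (star_mul_self_nonneg u))
  have k2 : q * (w * w) * q ≤ q * (e - (3 / 4 : ℂ) • e') * q + q * (w * (1 - e) * w) * q := by
    have : q * (e - (3 / 4 : ℂ) • e') * q + q * (w * (1 - e) * w) * q =
        q * (w * w) * q + q * (star v * v) * q := by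
      rw [hwf, h2]
      noncomm_ring
    rw [this]
    exact le_add_of_nonneg_right (conj (star_mul_self_nonneg v))
  have t1 : tr (q * (q * (1 - e) * q)) = tr ((1 - e) * q) := by
    rw [← mul_assoc, ← mul_assoc, hqq, tr_comm, ← mul_assoc, hqq, tr_comm]
  have t2 : tr (q * e' * q * (q * (1 - e) * q)) = n2 ((1 - e) * q * e') ^ 2 := by
    rw [n2_sq_tr]
    simp only [star_mul, hqs, hf.isSelfAdjoint.star_eq, he'.isSelfAdjoint.star_eq]
    have l : q * e' * q * (q * (1 - e) * q) = q * (e' * (q * q) * (1 - e) * q) := by noncomm_ring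
    have r : e' * (q * (1 - e)) * ((1 - e) * q * e') = e' * q * ((1 - e) * (1 - e)) * q * e' := by
      noncomm_ring
    rw [l, r, hqq, hf.isIdempotentElem.eq, tr_comm q, tr_comm _ e', mul_assoc _ q q, hqq, ← mul_assoc e',
      ← mul_assoc e', ← mul_assoc e', he'.isIdempotentElem.eq]
  refine le_of_forall_pos_le_add fun ε hε => ?_
  have key := gap_eps hq hq' hf hw hinv ha k1 k2 hε
  have e1 : q + q - q * (q * (e - (3 / 4 : ℂ) • e') * q + q * (1 - e) * q + algebraMap ℝ A ε) * q =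
      q + ((3 / 4 : ℝ) : ℂ) • (q * e' * q) - ε • q := by
    have a1 : q * (q * (e - (3 / 4 : ℂ) • e') * q + q * (1 - e) * q + algebraMap ℝ A ε) * q =
        (q * q) * (e - (3 / 4 : ℂ) • e') * (q * q) + (q * q) * (1 - e) * (q * q) +
          q * algebraMap ℝ A ε * q := by noncomm_ring
    have a2 : q * algebraMap ℝ A ε * q = ε • q := by
      rw [← Algebra.commutes, mul_assoc, hqq, Algebra.smul_def]
    rw [a1, a2, hqq, mul_sub, sub_mul, mul_sub, sub_mul, mul_one, hqq, mul_smul_comm, smul_mul_assoc]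
    push_cast
    abel
  rw [e1, sub_mul, add_mul, smul_mul_assoc, smul_mul_assoc, tr_sub, tr_add, tr_csmul, tr_smul, t1, t2] at key
  have t3 : tr ((1 - e) * q) ≤ 1 := by
    have := gap_tr_mono hf.le_one hq.nonneg
    rw [one_mul] at this
    exact this.trans ((τ_re_mono hq.le_one).trans_eq tr_one)
  nlinarith

end Crest.Agent.R113
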