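import Crest.Agent.R113.LR

/-! Row 113: the kernel data of a projection of `NN (rot a)`. -/

set_option autoImplicit false
set_option maxHeartbeats 400000

namespace Crest.Agent.R113

open MeasureTheory Crest.Agent.R95

/-- `K` represents the projection `q`. -/
structure Rep {a : T} (q : NN (rot a)) (K : Kern a) : Prop where
  tr_eq : ∀ b : T → ℝ, Bd b → tr (LR (rot a) b * q) = ∫ x, b x * K.φ x
  n2_eq : ∀ b c : T → ℝ, Bd b → Bd c → n2 (LR (rot a) b * q * LR (rot a) c) ^ 2 =
    ∫ p, (b (p.1 + p.2 • a) * c p.1) ^ 2 ∂K.ν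
  comm_eq : ∀ d : T → ℝ, Bd d → n2 (LR (rot a) d * q - q * LR (rot a) d) ^ 2 =
    ∫ p, (d (p.1 + p.2 • a) - d p.1) ^ 2 ∂K.ν

section KerAux

lemma ker_norm_sq {X : Type*} [MeasurableSpace X] {ν : Measure X} (h : H2 ν) :
    ‖h‖ ^ 2 = ∫ p, ‖h p‖ ^ 2 ∂ν := by
  have h1 : ((‖h‖ ^ 2 : ℝ) : ℂ) = ((∫ p, ‖h p‖ ^ 2 ∂ν : ℝ) : ℂ) := by
    rw [← integral_complex_ofReal]
    have h2 := inner_self_eq_norm_sq_to_K (𝕜 := ℂ) h
    rw [L2.inner_def] at h2
    simp only [inner_self_eq_norm_sq_to_K] at h2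
    push_cast
    exact h2.symm
  exact_mod_cast h1

/-- the measure `‖g‖² ν` -/
noncomputable def kerM {X : Type*} [MeasurableSpace X] {ν : Measure X} (g : H2 ν) : Measure X :=
  ν.withDensity fun p => ENNReal.ofReal (‖g p‖ ^ 2)

lemma kerM_fin {X : Type*} [MeasurableSpace X] {ν : Measure X} (g : H2 ν) :
    IsFiniteMeasure (kerM g) :=
  isFiniteMeasure_withDensity_ofReal
    ((memLp_two_iff_integrable_sq_norm (Lp.aestronglyMeasurable g)).1 (Lp.memLp g)).2

lemma integral_kerM {X : Type*} [MeasurableSpace X] {ν : Measure X} (g : H2 ν) (w : X → ℝ) :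
    ∫ p, w p ∂kerM g = ∫ p, ‖g p‖ ^ 2 * w p ∂ν := by
  have hm : Measurable fun p => (‖g p‖ ^ 2).toNNReal :=
    ((Lp.stronglyMeasurable g).measurable.norm.pow_const 2).real_toNNReal
  refine (integral_withDensity_eq_integral_smul hm w).trans ?_
  refine integral_congr_ae (ae_of_all _ fun p => ?_)
  simp only [NNReal.smul_def, Real.coe_toNNReal _ (sq_nonneg _), smul_eq_mul]

lemma norm_sq_kerM {X : Type*} [MeasurableSpace X] {ν : Measure X} {g h : H2 ν} {m : X → ℝ}
    (hm : h =ᵐ[ν] fun p => (m p : ℂ) * g p) : ‖h‖ ^ 2 = ∫ p, m p ^ 2 ∂kerM g := by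
  rw [ker_norm_sq, integral_kerM]
  refine integral_congr_ae ?_
  filter_upwards [hm] with p hp
  rw [hp, norm_mul, mul_pow, Complex.norm_real, Real.norm_eq_abs, sq_abs, mul_comm]

lemma ker_restrict_slice {Ω : Type*} [MeasurableSpace Ω] (μ : Measure Ω) [IsProbabilityMeasure μ] :
    (pm μ).restrict {p | p.2 = 0} = μ.map fun x => (x, (0 : ℤ)) := by
  have : {p : Ω × ℤ | p.2 = 0} = Set.univ ×ˢ {0} := by ext p; simp
  rw [this, ← Measure.prod_restrict, Measure.restrict_univ, Measure.restrict_singleton,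
    Measure.count_singleton, one_smul, Measure.prod_dirac]

lemma τ_sq_mul {A : Type*} [CStarAlgebra A] [Tr A] {q s : A} (hq : IsStarProjection q)
    (hs : IsSelfAdjoint s) : τ (s * s * q) = ((n2 (q * s) ^ 2 : ℝ) : ℂ) := by
  rw [← τ_star_mul_self, star_mul, hs.star_eq, hq.isSelfAdjoint.star_eq, mul_assoc s q,
    ← mul_assoc q q, hq.isIdempotentElem.eq, ← mul_assoc s q, τ_comm (s * q), mul_assoc]

lemma ker_polar {X : Type*} [MeasurableSpace X] (ν : Measure X) [IsFiniteMeasure ν] {f : X → T}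
    (hf : Measurable f) {φ : T → ℝ} (hφ : Bd φ)
    (h : ∀ c : T → ℝ, Bd c → ∫ p, c (f p) ^ 2 ∂ν = ∫ x, c x * c x * φ x) (b : T → ℝ) (hb : Bd b) :
    ∫ p, b (f p) ∂ν = ∫ x, b x * φ x := by
  have b1 : Bd fun x => (1 / 2 : ℝ) * (b x + 1) := (Bd.const _).mul (hb.add (Bd.const _))
  have b2 : Bd fun x => (1 / 2 : ℝ) * (b x - 1) := (Bd.const _).mul (hb.sub (Bd.const _))
  have i1 : Integrable (fun p => ((1 / 2 : ℝ) * (b (f p) + 1)) ^ 2) ν := by
    simpa only [sq] using ((b1.mul b1).comp hf).integrable ν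
  have i2 : Integrable (fun p => ((1 / 2 : ℝ) * (b (f p) - 1)) ^ 2) ν := by
    simpa only [sq] using ((b2.mul b2).comp hf).integrable ν
  have e := congrArg₂ (· - ·) (h _ b1) (h _ b2)
  rw [← integral_sub i1 i2, ← integral_sub (((b1.mul b1).mul hφ).integrable _)
    (((b2.mul b2).mul hφ).integrable _)] at e
  refine Eq.trans (integral_congr_ae (ae_of_all _ fun p => ?_))
    (e.trans (integral_congr_ae (ae_of_all _ fun p => ?_)))
  · simp only; ring
  · simp only; ring

variable {a : T}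

lemma bd_left {b : T → ℝ} (hb : Bd b) : Bd fun p : T × ℤ => (b ((rot a).σ p.2 p.1) : ℂ) :=
  hb.ofReal.comp (measurable_act (rot a))

lemma LR_apply {b : T → ℝ} (hb : Bd b) (g : H2 (pm (volume : Measure T))) :
    (LR (rot a) b).1 g =ᵐ[pm volume] fun p => (b (p.1 + p.2 • a) : ℂ) * g p :=
  mulOp_apply (bd_left hb) g

lemma q_LR_vac (q : NN (rot a)) {c : T → ℝ} (hc : Bd c) :
    q.1 ((LR (rot a) c).1 (vac volume)) =ᵐ[pm volume]
      fun p => (c p.1 : ℂ) * q.1 (vac volume) p := by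
  have h1 : (LR (rot a) c).1 (vac volume) = Rm volume (fun x => (c x : ℂ)) (vac volume) :=
    Lm_vac (rot a) hc.ofReal
  have h2 := ((mem_NN (rot a)).1 q.2).1 _ hc.ofReal
  have h3 := congrArg (fun x => x (vac volume)) h2
  simp only [ContinuousLinearMap.mul_apply] at h3
  rw [h1, ← h3]
  exact mulOp_apply (hc.ofReal.comp measurable_fst) _

lemma τ_LR_mul (q : NN (rot a)) {b : T → ℝ} (hb : Bd b) :
    τ (LR (rot a) b * q) = ∫ x, (b x : ℂ) * q.1 (vac volume) (x, 0) := by
  rw [τ_NN, inner_vac]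
  refine integral_congr_ae ?_
  filter_upwards [ae_pm_iff.1 (LR_apply (a := a) hb (q.1 (vac volume))) 0] with x hx
  simpa using hx

lemma τ_ind_mul (q : NN (rot a)) {E : Set T} (hE : MeasurableSet E) :
    τ (LR (rot a) (E.indicator fun _ => 1) * q) = ∫ x in E, q.1 (vac volume) (x, 0) := by
  rw [τ_LR_mul q ((Bd.const 1).indicator hE), ← integral_indicator hE]
  refine integral_congr_ae (ae_of_all _ fun x => ?_)
  by_cases hx : x ∈ E <;> simp [hx]

lemma slice_ae {q : NN (rot a)} (hq : IsStarProjection q) :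
    ∀ᵐ x : T, q.1 (vac volume) (x, 0) = (max 0 (min 1 (q.1 (vac volume) (x, 0)).re) : ℝ) := by
  have hi := integrable_slice (q.1 (vac volume)) 0
  have key : ∀ (r : NN (rot a)), IsStarProjection r → ∀ E, MeasurableSet E →
      ∃ t : ℝ, 0 ≤ t ∧ τ (LR (rot a) (E.indicator fun _ => 1) * r) = t := by
    intro r hr E hE
    have h1 := LR_proj (rot a) hE
    refine ⟨_, sq_nonneg (n2 (r * LR (rot a) (E.indicator fun _ => 1))), ?_⟩
    rw [← τ_sq_mul hr h1.isSelfAdjoint, h1.isIdempotentElem.eq]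
  have h1 : (fun x => (q.1 (vac volume) (x, 0)).im) =ᵐ[volume] 0 := by
    refine hi.im.ae_eq_zero_of_forall_setIntegral_eq_zero fun E hE _ => ?_
    obtain ⟨t, -, ht⟩ := key q hq E hE
    rw [τ_ind_mul q hE] at ht
    refine (integral_im hi.integrableOn).trans ?_
    rw [ht]; simp
  have h2 : 0 ≤ᵐ[volume] fun x => (q.1 (vac volume) (x, 0)).re := by
    refine ae_nonneg_of_forall_setIntegral_nonneg hi.re fun E hE _ => ?_
    obtain ⟨t, h0, ht⟩ := key q hq E hE
    rw [τ_ind_mul q hE] at ht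
    refine le_of_le_of_eq ?_ (integral_re hi.integrableOn).symm
    rw [ht]; simpa using h0
  have h3 : 0 ≤ᵐ[volume] fun x => 1 - (q.1 (vac volume) (x, 0)).re := by
    refine ae_nonneg_of_forall_setIntegral_nonneg ((integrable_const 1).sub hi.re)
      fun E hE _ => ?_
    obtain ⟨t, h0, ht⟩ := key (1 - q) hq.one_sub E hE
    rw [mul_sub, mul_one, map_sub, τ_ind_mul q hE] at ht
    have h4 := tr_LR (rot a) ((Bd.const (1 : ℝ)).indicator hE)
    rw [integral_indicator hE] at h4
    have h5 := integral_re (hi.integrableOn (s := E))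
    have hi' : Integrable (fun x => (q.1 (vac volume) (x, 0)).re) volume := hi.re
    rw [integral_sub (integrable_const 1) hi'.integrableOn, ← h4]
    have h6 := congrArg Complex.re ht
    simp only [Complex.sub_re, Complex.ofReal_re] at h6
    simp only [RCLike.re_to_complex] at h5
    rw [h5, tr]
    linarith
  filter_upwards [h1, h2, h3] with x e1 e2 e3
  simp only [Pi.zero_apply] at e1 e2 e3
  rw [min_eq_right (by linarith), max_eq_right e2]
  exact Complex.ext (by simp) (by simpa using e1)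

end KerAux

/-- Sketch: `g = q vac ∈ L²(T × ℤ)` (its representative is strongly measurable),
`ν = (pm volume).withDensity ‖g‖ₑ²`, `φ x = max 0 (min 1 (g (x, 0)).re)`.
`q (Lm c vac) = q (Rm c vac) = Rm c g` (`Lm_vac`, `mem_NN`), so with `n2_NN`:
`n2 (b q c)² = ‖mulOp (b(x + k a) c(x)) g‖² = ∫ … dν`, and the same for the commutator.
`τ (LR b * q) = ∫ b(x) g(x,0)` (`inner_vac`). For `b = 1_E`: `τ (1_E q) = n2 (q 1_E)²` is real and
lies in `[0, vol E]`, so `g (x, 0)` is a.e. real and in `[0,1]`, i.e. equal to `φ x`.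
`fst`/`snd`: for `b ≥ 0` write `b = √b²`: `∫ b dν = n2 (q √b)² = tr (b q)`, resp. `n2 (√b q)²`;
general `b` by adding a constant. `diag`: `ν {k = 0} = ∫ ‖g (x, 0)‖²`. -/
theorem exists_kern {a : T} {q : NN (rot a)} (hq : IsStarProjection q) : ∃ K : Kern a, Rep q K := by
  set g := q.1 (vac volume) with hg
  have hgm : Measurable g := (Lp.stronglyMeasurable g).measurable
  let φ : T → ℝ := fun x => max 0 (min 1 (g (x, 0)).re)
  have hφm : Measurable φ := measurable_const.max (measurable_const.min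
    (Complex.measurable_re.comp (hgm.comp measurable_prodMk_right)))
  have hφ0 : ∀ x, 0 ≤ φ x := fun x => le_max_left _ _
  have hφ1 : ∀ x, φ x ≤ 1 := fun x => max_le zero_le_one (min_le_left _ _)
  have hφ : Bd φ := Bd.of_abs hφm (C := 1) fun x => abs_le.2 ⟨by linarith [hφ0 x], hφ1 x⟩
  have hae : ∀ᵐ x : T, g (x, 0) = φ x := slice_ae hq
  have htr : ∀ b : T → ℝ, Bd b → tr (LR (rot a) b * q) = ∫ x, b x * φ x := by
    intro b hb
    have : ∫ x, (b x : ℂ) * g (x, 0) = ((∫ x, b x * φ x : ℝ) : ℂ) := by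
      rw [← integral_complex_ofReal]
      refine integral_congr_ae ?_
      filter_upwards [hae] with x hx
      rw [hx]; simp
    rw [tr, τ_LR_mul q hb, ← hg, this, Complex.ofReal_re]
  have hn2 : ∀ b c : T → ℝ, Bd b → Bd c → n2 (LR (rot a) b * q * LR (rot a) c) ^ 2 =
      ∫ p, (b (p.1 + p.2 • a) * c p.1) ^ 2 ∂kerM g := by
    intro b c hb hc
    rw [n2_NN]
    refine norm_sq_kerM ?_
    filter_upwards [LR_apply (a := a) hb (q.1 ((LR (rot a) c).1 (vac volume))), q_LR_vac q hc]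
      with p h1 h2
    refine h1.trans ?_
    rw [h2]
    push_cast
    ring
  have hsq : ∀ c : T → ℝ, Bd c → n2 (q * LR (rot a) c) ^ 2 = ∫ x, c x * c x * φ x := by
    intro c hc
    rw [← htr _ (hc.mul hc), LR_mul _ hc hc, tr, τ_sq_mul hq (LR_sa _ hc), Complex.ofReal_re]
  have := kerM_fin g
  refine ⟨⟨φ, kerM g, hφm, hφ0, hφ1, kerM_fin g, ?_, ?_, ?_⟩, htr, hn2, fun d hd => ?_⟩
  · refine ker_polar _ measurable_fst hφ fun c hc => ?_
    have := hn2 _ c (Bd.const 1) hc
    rw [LR_one, one_mul, hsq c hc] at this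
    simpa using this.symm
  · refine ker_polar _ (measurable_act (rot a)) hφ fun c hc => ?_
    have := hn2 c _ hc (Bd.const 1)
    rw [LR_one, mul_one, ← n2_star, star_mul, (LR_sa _ hc).star_eq, hq.isSelfAdjoint.star_eq,
      hsq c hc] at this
    simpa [rot] using this.symm
  · have hS : MeasurableSet {p : T × ℤ | p.2 = 0} := measurable_snd (measurableSet_singleton 0)
    rw [← integral_indicator_one hS, integral_kerM]
    have : (fun p : T × ℤ => ‖g p‖ ^ 2 * {p : T × ℤ | p.2 = 0}.indicator 1 p) =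
        {p : T × ℤ | p.2 = 0}.indicator fun p => ‖g p‖ ^ 2 := by
      funext p
      by_cases hp : p ∈ {p : T × ℤ | p.2 = 0} <;> simp [hp]
    rw [this, integral_indicator hS, ker_restrict_slice, integral_map measurable_prodMk_right.aemeasurable
      (hgm.norm.pow_const 2).aestronglyMeasurable]
    refine integral_congr_ae ?_
    filter_upwards [hae] with x hx
    rw [hx, Complex.norm_real, Real.norm_eq_abs, sq_abs]
  · rw [n2_NN]
    refine norm_sq_kerM ?_
    filter_upwards [LR_apply (a := a) hd g, q_LR_vac q hd,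
      Lp.coeFn_sub ((LR (rot a) d).1 g) (q.1 ((LR (rot a) d).1 (vac volume)))] with p h1 h2 h3
    refine h3.trans ?_
    rw [Pi.sub_apply, h1, h2]
    push_cast
    ring

end Crest.Agent.R113
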