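import Crest.Agent.R113.Step

/-! Row 113: the gap inequality summed over the levels of a rank function. -/

set_option autoImplicit false

namespace Crest.Agent.R113

open MeasureTheory Finset

variable {a : T} {F : T → ℝ}

lemma wt_bd (hF : Bd F) {h : T → ℝ} (hh : Bd h) (n : ℕ) : Bd (wt a F h n) :=
  (Bd.prod (range n) fun j _ => hF.comp (measurable_add_const (j • a))).mul
    ((hh.comp (measurable_add_const (n • a))).sub hh).exp

lemma meas_jump (a : T) : Measurable fun p : T × ℤ => p.1 + p.2 • a :=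
  measurable_fst.add ((measurable_of_countable fun k : ℤ => k • a).comp measurable_snd)

/-- Integrals of a function of size at most one over sets that agree off `Z`. -/
lemma setIntegral_le_of_agree {g : T → ℝ} (hg : Measurable g) (h1 : ∀ x, |g x| ≤ 1)
    {A B Z : Set T} (hA : MeasurableSet A) (hB : MeasurableSet B) (hZ : MeasurableSet Z)
    (hAB : ∀ x, x ∉ Z → (x ∈ A ↔ x ∈ B)) :
    ∫ x in A, g x ≤ (∫ x in B, g x) + volume.real Z := by
  have hb : Bd g := Bd.of_abs hg h1
  have hone : Bd (1 : T → ℝ) := Bd.const 1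
  rw [← integral_indicator hA, ← integral_indicator hB, ← integral_indicator_one hZ,
    ← integral_add ((hb.indicator hB).integrable _) ((hone.indicator hZ).integrable _)]
  refine integral_mono ((hb.indicator hA).integrable _)
    (((hb.indicator hB).add (hone.indicator hZ)).integrable _) fun x => ?_
  have := abs_le.1 (h1 x)
  by_cases hx : x ∈ Z
  · by_cases h2 : x ∈ A <;> by_cases h3 : x ∈ B <;> simp [hx, h2, h3] <;> linarith
  · by_cases h2 : x ∈ A
    · simp [hx, h2, (hAB x hx).1 h2]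
    · simp [hx, h2, mt (hAB x hx).2 h2]

lemma Kern.shift_abs (K : Kern a) (b x : T) : |K.φ (x + b) - K.φ x| ≤ 1 :=
  abs_le.2 ⟨by linarith [K.nonneg (x + b), K.le_one x], by linarith [K.le_one (x + b), K.nonneg x]⟩

lemma Kern.shift_int (K : Kern a) (b : T) : ∫ x, (K.φ (x + b) - K.φ x) = 0 := by
  rw [integral_sub ((K.bd.comp (measurable_add_const b)).integrable _) (K.bd.integrable _),
    integral_add_right_eq_self K.φ b, sub_self]

/-- One threshold `s`. If `{s ≤ r} \ Z` is nonempty let `κ = 2 sSup (wt '' ({s ≤ r} \ Z)) > 0`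
(`wt` is `Bd`), `E = {wt < κ}`, `E' = {s ≤ r} \ Z`; then `Eᶜ` and `{r < s}` agree off `Z`; use
`Fam.gap`, `Kern.fst_le`, `Kern.snd_le`, `|φ (x + n a) - φ x| ≤ 1`. If it is empty then
`{s ≤ r} ⊆ Z` and `∫ (φ (x + n a) - φ x) = 0`. -/
lemma Fam.level_one (𝓕 : Fam a F) (hF : Bd F) {h : T → ℝ} (hh : Bd h) (n : ℕ) {r : T → ℕ}
    (hr : Measurable r) {Z : Set T} (hZ : MeasurableSet Z) (hpos : ∀ x, x ∉ Z → 0 < wt a F h n x)
    (hmono : ∀ x y, x ∉ Z → y ∉ Z → r y < r x → 2 * wt a F h n x ≤ wt a F h n y) (s : ℕ) :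
    (𝓕.K h).ν.real {p | s ≤ r p.1 ∧ r (p.1 + p.2 • a) < s} / 2 ≤
      (∫ x in {x | r x < s}, ((𝓕.K h).φ (x + n • a) - (𝓕.K h).φ x)) + 2 * volume.real Z := by
  set K := 𝓕.K h with hK
  have := K.fin
  have hg : Measurable fun x => K.φ (x + n • a) - K.φ x :=
    (K.meas.comp (measurable_add_const _)).sub K.meas
  have hlt : MeasurableSet {x | r x < s} := hr (MeasurableSet.of_discrete (s := {k | k < s}))
  have hle : MeasurableSet {x | s ≤ r x} := hr (MeasurableSet.of_discrete (s := {k | s ≤ k}))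
  have hZ0 : 0 ≤ volume.real Z := measureReal_nonneg
  rcases Set.eq_empty_or_nonempty ({x | s ≤ r x} \ Z) with hS | hS
  · have hsub : ∀ x, x ∉ Z → r x < s := fun x hx => by
      by_contra hc
      have : x ∈ {x | s ≤ r x} \ Z := ⟨not_lt.1 hc, hx⟩
      rw [hS] at this
      exact this
    have h1 := setIntegral_le_of_agree hg (K.shift_abs (n • a)) MeasurableSet.univ hlt hZ
      fun x hx => by simp [hsub x hx]
    rw [Measure.restrict_univ, K.shift_int] at h1
    have h2 : K.ν.real {p | s ≤ r p.1 ∧ r (p.1 + p.2 • a) < s} ≤ K.ν.real {p | p.1 ∈ Z} := by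
      refine measureReal_mono fun p hp => ?_
      by_contra hc
      exact absurd (hsub _ hc) (not_lt.2 hp.1)
    have h3 := K.fst_le hZ
    linarith
  · have hw : Bd (wt a F h n) := wt_bd hF hh n
    obtain ⟨C, -, hC⟩ := hw.exists_abs
    set S : Set T := {x | s ≤ r x} \ Z with hSdef
    have hbdd : BddAbove (wt a F h n '' S) :=
      ⟨C, by rintro _ ⟨x, -, rfl⟩; exact (le_abs_self _).trans (hC x)⟩
    set κ : ℝ := 2 * sSup (wt a F h n '' S) with hκ
    have hup : ∀ x ∈ S, 2 * wt a F h n x ≤ κ := fun x hx => by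
      have := le_csSup hbdd ⟨x, hx, rfl⟩
      linarith
    have hκ0 : 0 < κ := by
      obtain ⟨x, hx⟩ := hS
      linarith [hup x hx, hpos x hx.2]
    have hlow : ∀ y, y ∉ Z → r y < s → κ ≤ wt a F h n y := fun y hy hys => by
      have : sSup (wt a F h n '' S) ≤ wt a F h n y / 2 := by
        refine csSup_le (hS.image _) ?_
        rintro _ ⟨x, hx, rfl⟩
        have := hmono x y hx.2 hy (hys.trans_le hx.1)
        linarith
      linarith
    set E : Set T := {x | wt a F h n x < κ} with hE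
    have hEm : MeasurableSet E := measurableSet_lt hw.1 measurable_const
    have hSE : S ⊆ E := fun x hx => by
      have := hup x hx
      have := hpos x hx.2
      change wt a F h n x < κ
      linarith
    have hgap := 𝓕.gap h hh n E S κ hEm (hle.diff hZ) hSE hκ0 (fun x hx => not_lt.1 hx)
      (fun x hx => le_of_lt hx) hup
    rw [← hK] at hgap
    have h1 := setIntegral_le_of_agree hg (K.shift_abs (n • a)) hEm.compl hlt hZ fun x hx => by
      constructor
      · intro hxE
        by_contra hc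
        exact hxE (hSE ⟨(not_lt.1 hc : s ≤ r x), hx⟩)
      · intro hxs
        exact not_lt.2 (hlow x hx hxs)
    rw [integral_sub ((K.bd.comp (measurable_add_const _)).integrable _) (K.bd.integrable _)] at h1
    have h2 : K.ν.real {p | s ≤ r p.1 ∧ r (p.1 + p.2 • a) < s} ≤
        K.ν.real {p | p.1 ∈ S ∧ p.1 + p.2 • a ∉ E} + K.ν.real {p | p.1 ∈ Z} +
          K.ν.real {p | p.1 + p.2 • a ∈ Z} := by
      refine le_trans (measureReal_mono (s₂ := ({p | p.1 ∈ S ∧ p.1 + p.2 • a ∉ E} ∪
        {p | p.1 ∈ Z}) ∪ {p | p.1 + p.2 • a ∈ Z}) fun p hp => ?_)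
        ((measureReal_union_le _ _).trans (add_le_add (measureReal_union_le _ _) le_rfl))
      by_cases h3 : p.1 ∈ Z
      · exact Or.inl (Or.inr h3)
      by_cases h4 : p.1 + p.2 • a ∈ Z
      · exact Or.inr h4
      exact Or.inl (Or.inl ⟨⟨hp.1, h3⟩, not_lt.2 (hlow _ h4 hp.2)⟩)
    have h3 := K.fst_le hZ
    have h4 := K.snd_le hZ
    linarith

lemma sum_ind_lt {L k : ℕ} (hk : k ≤ L) (c : ℝ) :
    ∑ s ∈ range L, (if k < s + 1 then c else 0) = ((L : ℝ) - k) * c := by
  induction L, hk using Nat.le_induction with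
  | base =>
    rw [sub_self, zero_mul]
    exact Finset.sum_eq_zero fun s hs => if_neg (by have := mem_range.1 hs; omega)
  | succ L hL ih =>
    rw [sum_range_succ, ih, if_pos (by omega)]
    push_cast
    ring

lemma sum_ind_between {L k l : ℕ} (hk : k ≤ L) (hl : l ≤ L) :
    ∑ s ∈ range L, (if s + 1 ≤ k ∧ l < s + 1 then (1 : ℝ) else 0) =
      (|(k : ℝ) - l| + ((k : ℝ) - l)) / 2 := by
  rcases le_total k l with h | h
  · have : (k : ℝ) - l ≤ 0 := sub_nonpos.2 (by exact_mod_cast h)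
    rw [abs_of_nonpos this, neg_add_cancel, zero_div]
    exact Finset.sum_eq_zero fun s _ => if_neg (by omega)
  · have : 0 ≤ (k : ℝ) - l := sub_nonneg.2 (by exact_mod_cast h)
    have e : ∀ s ∈ range L, (if s + 1 ≤ k ∧ l < s + 1 then (1 : ℝ) else 0) =
        (if l < s + 1 then (1 : ℝ) else 0) - (if k < s + 1 then (1 : ℝ) else 0) := by
      intro s _
      split_ifs <;> first | omega | simp
    rw [abs_of_nonneg this, sum_congr rfl e, sum_sub_distrib, sum_ind_lt hl, sum_ind_lt hk]
    ring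

/-- Sum `level_one` over `s = 1, …, L`: `∑_s 1{r < s} = L - r`,
`∑_s 1{s ≤ r x ∧ r y < s} = (r x - r y)₊`, `∫ (r x - r y) dν = 0` (`fst`, `snd`), and translation
invariance of `volume`. -/
theorem Fam.level (𝓕 : Fam a F) (hF : Bd F) {h : T → ℝ} (hh : Bd h) (n : ℕ) {r : T → ℕ}
    (hr : Measurable r) {L : ℕ} (hL : ∀ x, r x ≤ L) {Z : Set T} (hZ : MeasurableSet Z)
    (hpos : ∀ x, x ∉ Z → 0 < wt a F h n x)
    (hmono : ∀ x y, x ∉ Z → y ∉ Z → r y < r x → 2 * wt a F h n x ≤ wt a F h n y) :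
    (∫ p, |(r p.1 : ℝ) - r (p.1 + p.2 • a)| ∂(𝓕.K h).ν) / 4 ≤
      (∫ x, (𝓕.K h).φ x * ((r x : ℝ) - r (x - n • a))) + 2 * L * volume.real Z := by
  have hsum := Finset.sum_le_sum fun s (_ : s ∈ range L) =>
    𝓕.level_one hF hh n hr hZ hpos hmono (s + 1)
  set K := 𝓕.K h with hK
  have := K.fin
  have hrb : Bd fun x => (r x : ℝ) :=
    Bd.of_abs ((measurable_of_countable fun k : ℕ => (k : ℝ)).comp hr) (C := L) fun x => by
      rw [abs_of_nonneg (Nat.cast_nonneg _)]; exact_mod_cast hL x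
  have hr1 : Bd fun p : T × ℤ => (r p.1 : ℝ) := hrb.comp measurable_fst
  have hr2 : Bd fun p : T × ℤ => (r (p.1 + p.2 • a) : ℝ) := hrb.comp (meas_jump a)
  have habs : Bd fun p : T × ℤ => |(r p.1 : ℝ) - r (p.1 + p.2 • a)| := by
    obtain ⟨C, -, hC⟩ := (hr1.sub hr2).exists_abs
    exact Bd.of_abs (hr1.sub hr2).1.abs (C := C) fun p => by rw [abs_abs]; exact hC p
  have hms : ∀ s : ℕ, MeasurableSet {p : T × ℤ | s + 1 ≤ r p.1 ∧ r (p.1 + p.2 • a) < s + 1} :=
    fun s => ((hr.comp measurable_fst) (MeasurableSet.of_discrete (s := {k | s + 1 ≤ k}))).inter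
      ((hr.comp (meas_jump a)) (MeasurableSet.of_discrete (s := {k | k < s + 1})))
  have hlt : ∀ s : ℕ, MeasurableSet {x | r x < s + 1} :=
    fun s => hr (MeasurableSet.of_discrete (s := {k | k < s + 1}))
  have hφ : Bd fun x => K.φ (x + n • a) := K.bd.comp (measurable_add_const _)
  have hg : Bd fun x => K.φ (x + n • a) - K.φ x := hφ.sub K.bd
  have e1 : ∑ s ∈ range L, K.ν.real {p | s + 1 ≤ r p.1 ∧ r (p.1 + p.2 • a) < s + 1} =
      (∫ p, |(r p.1 : ℝ) - r (p.1 + p.2 • a)| ∂K.ν) / 2 := by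
    have hone : Bd (1 : T × ℤ → ℝ) := Bd.const 1
    have h0 : ∫ p, ((r p.1 : ℝ) - r (p.1 + p.2 • a)) ∂K.ν = 0 := by
      rw [integral_sub (hr1.integrable _) (hr2.integrable _), K.fst _ hrb, K.snd _ hrb, sub_self]
    rw [sum_congr rfl fun s _ => (integral_indicator_one (hms s)).symm,
      ← integral_finsetSum _ fun s _ => (hone.indicator (hms s)).integrable _,
      ← add_zero (∫ p, |(r p.1 : ℝ) - r (p.1 + p.2 • a)| ∂K.ν), ← h0,
      ← integral_add (habs.integrable _) ((hr1.sub hr2).integrable _), ← integral_div]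
    refine integral_congr_ae (ae_of_all _ fun p => ?_)
    simp only [Set.indicator_apply, Set.mem_ofPred_eq, Pi.one_apply]
    exact sum_ind_between (hL _) (hL _)
  have e2 : ∑ s ∈ range L, ∫ x in {x | r x < s + 1}, (K.φ (x + n • a) - K.φ x) =
      ∫ x, K.φ x * ((r x : ℝ) - r (x - n • a)) := by
    rw [sum_congr rfl fun s _ => (integral_indicator (hlt s)).symm,
      ← integral_finsetSum _ fun s _ => (hg.indicator (hlt s)).integrable _]
    have e3 : ∀ x, ∑ s ∈ range L, {x | r x < s + 1}.indicator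
        (fun x => K.φ (x + n • a) - K.φ x) x =
        L * (K.φ (x + n • a) - K.φ x) + (K.φ x * r x - K.φ (x + n • a) * r x) := fun x => by
      simp only [Set.indicator_apply, Set.mem_ofPred_eq]
      rw [sum_ind_lt (hL x)]
      ring
    have e4 : ∫ x, K.φ (x + n • a) * r x = ∫ x, K.φ x * r (x - n • a) := by
      rw [← integral_add_right_eq_self (fun x => K.φ x * r (x - n • a)) (n • a)]
      simp only [add_sub_cancel_right]
    have hrs : Bd fun x => (r (x - n • a) : ℝ) := hrb.comp (measurable_sub_const _)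
    simp only [e3, mul_sub (K.φ _) (r _ : ℝ)]
    rw [integral_add (((Bd.const (L : ℝ)).mul hg).integrable _)
        (((K.bd.mul hrb).sub (hφ.mul hrb)).integrable _), integral_const_mul, K.shift_int,
      mul_zero, zero_add, integral_sub ((K.bd.mul hrb).integrable _) ((hφ.mul hrb).integrable _),
      integral_sub ((K.bd.mul hrb).integrable _) ((K.bd.mul hrs).integrable _), e4]
  rw [← sum_div, e1, sum_add_distrib, e2, sum_const, card_range, nsmul_eq_mul] at hsum
  linarith

end Crest.Agent.R113
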