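import Crest.Agent.R113.Hit

/-! Row 113: auxiliary lemmas for `exists_design`. -/

set_option autoImplicit false
set_option maxHeartbeats 400000

namespace Crest.Agent.R113

open MeasureTheory Finset Filter Topology

lemma wb_costs (N Λ : ℕ → ℕ) (W : ℕ → ℕ → ℝ → ℝ) : ∃ c Γ : ℕ → ℝ, Γ 0 = 0 ∧
    (∀ j, Γ (j + 1) = Γ j + c j + 1) ∧ (∀ j, (Λ j : ℝ) ≤ c j) ∧
    ∀ i j, i ≤ j → (N j + 1) * Γ j + 4 * W i (Λ i) (Γ i) + 1 ≤ c j := by
  let p : ℕ → ℝ × ℝ := fun j => Nat.rec (0, 0) (fun j q =>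
    (q.1 + ((N j + 1) * q.1 + 4 * (q.2 + |W j (Λ j) q.1|) + 1 + Λ j) + 1,
      q.2 + |W j (Λ j) q.1|)) j
  have p2 : ∀ j, (p (j + 1)).2 = (p j).2 + |W j (Λ j) (p j).1| := fun j => rfl
  have p1 : ∀ j, (p (j + 1)).1 =
      (p j).1 + ((N j + 1) * (p j).1 + 4 * (p (j + 1)).2 + 1 + Λ j) + 1 := fun j => rfl
  have hm : Monotone fun j => (p j).2 := monotone_nat_of_le_succ fun j => by
    simp only [p2]; linarith [abs_nonneg (W j (Λ j) (p j).1)]
  have h2 : ∀ j, 0 ≤ (p j).2 := fun j => hm (Nat.zero_le j)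
  have h1 : ∀ j, 0 ≤ (p j).1 := by
    intro j
    induction j with
    | zero => exact le_rfl
    | succ j ih => rw [p1]; have := h2 (j + 1); positivity
  refine ⟨fun j => (N j + 1) * (p j).1 + 4 * (p (j + 1)).2 + 1 + Λ j, fun j => (p j).1, rfl, p1,
    fun j => ?_, fun i j hij => ?_⟩
  · have := h1 j; have := h2 (j + 1)
    have : 0 ≤ (N j + 1) * (p j).1 + 4 * (p (j + 1)).2 + 1 := by positivity
    simp only; linarith
  · have h3 : (p (i + 1)).2 ≤ (p (j + 1)).2 := hm (Nat.succ_le_succ hij)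
    have h4 := p2 i
    have h5 := le_abs_self (W i (Λ i) (p i).1)
    have h6 := h2 i
    have h7 : (0 : ℝ) ≤ Λ j := Nat.cast_nonneg _
    simp only; linarith

lemma wb_tail {Z : ℕ → Set T} (hZ : ∀ j, volume.real (Z j) ≤ 1 / (64 ^ j) ^ 2 / 2) (m : ℕ) :
    volume.real (⋃ j, Z (m + j)) ≤ 1 / (64 ^ m) ^ 2 := by
  have h1 : ∀ j, volume.real (Z (m + j)) ≤ 1 / (64 ^ m) ^ 2 / 2 / 2 ^ j := by
    intro j
    refine (hZ _).trans ?_
    have h2 : (2 : ℝ) ^ j ≤ (64 ^ j) ^ 2 := by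
      rw [← pow_mul, mul_comm, pow_mul]
      exact pow_le_pow_left₀ (by norm_num) (by norm_num) j
    rw [pow_add, mul_pow, div_right_comm _ (2 : ℝ), ← div_div]
    gcongr
  have hs := hasSum_geometric_two' ((1 : ℝ) / (64 ^ m) ^ 2)
  have hs' : Summable fun j => volume.real (Z (m + j)) :=
    hs.summable.of_nonneg_of_le (fun _ => measureReal_nonneg) h1
  have h3 : volume (⋃ j, Z (m + j)) ≤ ENNReal.ofReal (∑' j, volume.real (Z (m + j))) := by
    rw [ENNReal.ofReal_tsum_of_nonneg (fun _ => measureReal_nonneg) hs']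
    refine (measure_iUnion_le _).trans (le_of_eq (tsum_congr fun j => ?_))
    rw [ofReal_measureReal]
  refine le_trans (ENNReal.toReal_le_of_le_ofReal (tsum_nonneg fun _ => measureReal_nonneg) h3) ?_
  rw [← hs.tsum_eq]
  exact hs'.tsum_le_tsum h1 hs.summable

lemma wb_int {B Z : Set T} (hB : MeasurableSet B) (hZ : MeasurableSet Z) {χ : T → ℝ}
    (hc : Continuous χ) (h0 : ∀ x, 0 ≤ χ x)
    (h : ∀ x, x ∉ Z → χ x = B.indicator (fun _ => 1) x) :
    volume.real B - volume.real Z ≤ ∫ x, χ x := by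
  rw [← integral_indicator_one hB, ← integral_indicator_one hZ, ← integral_sub
    ((integrable_const 1).indicator hB) ((integrable_const 1).indicator hZ)]
  refine integral_mono (((integrable_const 1).indicator hB).sub ((integrable_const 1).indicator hZ))
    (hc.integrable_of_hasCompactSupport (HasCompactSupport.of_compactSpace _)) fun x => ?_
  by_cases hx : x ∈ Z
  · have := h0 x
    by_cases hx' : x ∈ B <;> simp [hx, hx'] <;> linarith
  · simp only [h x hx, Set.indicator_of_notMem hx, sub_zero]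
    exact le_rfl

end Crest.Agent.R113
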