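import Crest.Agent.R113.WeightA
import Crest.Agent.R113.WeightAuxB

/-! Row 113: construction of the weight. -/

set_option autoImplicit false

namespace Crest.Agent.R113

open MeasureTheory Finset Filter Topology

/-- Regularity (`K ⊆ B ⊆ O ⊆ ball 0 r`, `K` closed, `O` open, `vol (O \ K)` small), Urysohn, and a
bump at `0` supported in a tiny ball; `Z = (O \ K) ∪ tiny ball`. -/
lemma exists_bump {B : Set T} (hB : MeasurableSet B) {r η : ℝ} (hr : 0 < r) (hη : 0 < η)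
    (hsub : ∀ x ∈ B, ‖x‖ < r) :
    ∃ (χ β : T → ℝ) (Z : Set T), Continuous χ ∧ Continuous β ∧ MeasurableSet Z ∧
      volume.real Z ≤ η ∧ (∀ x, 0 ≤ χ x ∧ χ x ≤ 1) ∧ (∀ x, 0 ≤ β x ∧ β x ≤ 1) ∧ β 0 = 1 ∧
      (∀ x, x ∉ Z → χ x = B.indicator (fun _ => 1) x ∧ β x = 0) ∧
      ∀ x, r ≤ ‖x‖ → χ x = 0 ∧ β x = 0 := by
  exact exists_bump' hB hr hη hsub

/-- `F x = ⨅ n, exp (-∑_{j<n} g j x)`; locally eventually constant away from `0`; squeezed at `0`;
off `0`, `-log F ≥ ∑_{j<n} g j`. -/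
lemma exists_limit {g : ℕ → T → ℝ} {rad : ℕ → ℝ} (hc : ∀ j, Continuous (g j))
    (h0 : ∀ j x, 0 ≤ g j x) (hrad : Tendsto rad atTop (𝓝 0))
    (hs : ∀ j x, rad j ≤ ‖x‖ → g j x = 0) (h1 : ∀ j, 1 ≤ g j 0) (hi : ∀ j, 1 / 2 ≤ ∫ x, g j x) :
    ∃ F : T → ℝ, Continuous F ∧ (∀ x, 0 ≤ F x) ∧ (∀ x, F x ≤ 1) ∧ (∀ x, F x = 0 ↔ x = 0) ∧
      ∫⁻ x, ENNReal.ofReal (-Real.log (F x)) = ⊤ ∧
      (∀ n x, F x ≤ Real.exp (-∑ j ∈ range n, g j x)) ∧
      ∀ n x, (∀ j, n ≤ j → g j x = 0) → F x = Real.exp (-∑ j ∈ range n, g j x) := by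
  exact exists_limit' hc h0 hrad hs h1 hi

/-- `exists_bump` for `B j` with `η j = min (64^{-2j} / 2) (1 / (2 Λ j))`; `Γ 0 = 0`,
`c j = (N j + 1) Γ j + 4 ∑_{i ≤ j} |W i (Λ i) (Γ i)| + 1 + Λ j`, `Γ (j+1) = Γ j + c j + 1`
(strong recursion, e.g. recurse on the pair `(Γ j, ∑_{i<j} |W i …|)`), `g j = c j χ j + β j`,
`G m = ∑_{j<m} g j`, `Z m = ⋃_{j ≥ m} Z j`; `∫ g j ≥ c j (vol (B j) - η j) ≥ 1/2`
(`Bars.measure_ge`). -/
theorem exists_design {a : T} (b : Bars a) (W : ℕ → ℕ → ℝ → ℝ) : Nonempty (Design a W) := by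
  obtain ⟨c, Γ, Γ0, Γs, hcΛ, hcost⟩ := wb_costs b.N b.Λ W
  have hΛ : ∀ j, (0 : ℝ) < b.Λ j := fun j => by
    have h1 := (b.N_ge j).trans (b.N_le j)
    have : 0 < 16 * 64 ^ j := by positivity
    exact_mod_cast this.trans_le h1
  have hc0 : ∀ j, 0 ≤ c j := fun j => (hΛ j).le.trans (hcΛ j)
  have hex := fun j => exists_bump (b.meas j) (b.rad_pos j)
    (η := min (1 / (64 ^ j) ^ 2 / 2) (1 / (2 * b.Λ j))) (by have := hΛ j; positivity) (b.sub j)
  choose χ β Z hχ hβ hZ hZle hχ01 hβ01 hβ0 hoff hfar using hex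
  let g : ℕ → T → ℝ := fun j x => c j * χ j x + β j x
  have gc : ∀ j, Continuous (g j) := fun j => (continuous_const.mul (hχ j)).add (hβ j)
  have g0 : ∀ j x, 0 ≤ g j x := fun j x =>
    add_nonneg (mul_nonneg (hc0 j) (hχ01 j x).1) (hβ01 j x).1
  have g1 : ∀ j x, g j x ≤ c j + 1 := fun j x =>
    add_le_add (mul_le_of_le_one_right (hc0 j) (hχ01 j x).2) (hβ01 j x).2
  have goff : ∀ m j x, m ≤ j → x ∉ ⋃ j, Z (m + j) →
      g j x = (b.B j).indicator (fun _ => c j) x := by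
    intro m j x hj hx
    have hx' : x ∉ Z j := fun h => hx (Set.mem_iUnion.2 ⟨j - m, by rwa [Nat.add_sub_cancel' hj]⟩)
    simp only [g, (hoff j x hx').1, (hoff j x hx').2]
    by_cases h : x ∈ b.B j <;> simp [h]
  have hint : ∀ {f : T → ℝ}, Continuous f → Integrable f := fun hf =>
    hf.integrable_of_hasCompactSupport (HasCompactSupport.of_compactSpace _)
  obtain ⟨F, Fc, F0, F1, Fz, Flog, Fle, Feq⟩ := exists_limit gc g0 b.rad_lim
    (fun j x hx => by simp [g, (hfar j x hx).1, (hfar j x hx).2])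
    (fun j => by
      have := mul_nonneg (hc0 j) (hχ01 j 0).1
      simp only [g, hβ0]; linarith)
    (fun j => by
      have h1 := wb_int (b.meas j) (hZ j) (hχ j) (fun x => (hχ01 j x).1) fun x hx => (hoff j x hx).1
      have h2 := (hZle j).trans (min_le_right _ _)
      have h3 := b.measure_ge j
      have h4 : 0 ≤ ∫ x, χ j x := integral_nonneg fun x => (hχ01 j x).1
      have h5 : 0 ≤ ∫ x, β j x := integral_nonneg fun x => (hβ01 j x).1
      have h6 := mul_le_mul_of_nonneg_right (hcΛ j) h4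
      have h7 := mul_le_mul_of_nonneg_left h1 (hΛ j).le
      rw [le_div_iff₀ (by have := hΛ j; positivity)] at h2
      simp only [g]
      rw [integral_add ((hint (hχ j)).const_mul _) (hint (hβ j)), integral_const_mul]
      linarith)
  have hΓ : ∀ m, ∑ j ∈ range m, (c j + 1) = Γ m := by
    intro m
    induction m with
    | zero => simp [Γ0]
    | succ m ih => rw [sum_range_succ, ih, Γs, add_assoc]
  refine ⟨⟨b, F, fun m => ⋃ j, Z (m + j), fun m x => ∑ j ∈ range m, g j x, c, Γ, Fc, F0, F1, Fz,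
    Flog, fun m => MeasurableSet.iUnion fun j => hZ _,
    wb_tail fun j => (hZle j).trans (min_le_left _ _),
    fun m => (continuous_finsetSum _ fun j _ => gc j).measurable,
    fun m x => sum_nonneg fun j _ => g0 j x,
    fun m x => (sum_le_sum fun j _ => g1 j x).trans_eq (hΓ m),
    monotone_nat_of_le_succ fun j => by rw [Γs]; linarith [hc0 j], hc0, fun i j hij => ?_,
    fun m M x hx hB => ?_, fun m j x hj hxB hx => ?_⟩⟩
  · have h1 : ∑ l ∈ range j, c l ≤ Γ j :=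
      (sum_le_sum fun l _ => by linarith).trans_eq (hΓ j)
    have h2 := hcost i j hij
    linarith
  · rw [Feq (max m (M + 1)) x fun j hj => by
      rw [goff m j x (by omega) hx, Set.indicator_of_notMem (hB j (by omega) (by omega))]]
    rw [← sum_range_add_sum_Ico _ (le_max_left m (M + 1))]
    congr 3
    refine sum_congr (by ext j; simp only [mem_Ico, mem_Icc]; omega) fun j hj => ?_
    exact goff m j x (mem_Icc.1 hj).1 hx
  · refine (Fle (j + 1) x).trans (Real.exp_le_exp.2 (neg_le_neg ?_))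
    refine le_trans ?_ (single_le_sum (fun l _ => g0 l x) (self_mem_range_succ j))
    rw [goff m j x hj hx, Set.indicator_of_mem hxB]

end Crest.Agent.R113
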