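import Crest.Agent.R113.Poinc
import Crest.Agent.R113.Bars
import Crest.Agent.R113.Weight

/-! Row 113: the designed weight admits no family of deformed invariant projections. -/

set_option autoImplicit false

namespace Crest.Agent.R113

open MeasureTheory Finset Filter Topology

lemma Kern.offdiag {a : T} (K : Kern a) {t : ℝ} (ht0 : 0 ≤ t) (ht1 : t ≤ 1) :
    t * (1 - t) - ∫ x, |K.φ x - t| ≤ K.ν.real {p | p.2 ≠ 0} := by
  have := K.fin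
  have hm : MeasurableSet {p : T × ℤ | p.2 = 0} := measurable_snd (measurableSet_singleton 0)
  have h1 : K.ν.real {p | p.2 ≠ 0} = (∫ x, K.φ x) - ∫ x, K.φ x ^ 2 := by
    rw [← K.mass, ← K.diag, ← measureReal_compl hm]; rfl
  have hb := K.bd
  have hb2 : Bd fun x => K.φ x ^ 2 := by simpa only [sq] using hb.mul hb
  have hb3 : Bd fun x => |K.φ x - t| :=
    Bd.of_abs (hb.1.sub_const t).abs (C := 1) fun x => by
      rw [abs_abs, abs_le]; constructor <;> linarith [K.nonneg x, K.le_one x]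
  rw [h1, ← integral_sub (hb.integrable _) (hb2.integrable _)]
  have h2 : t * (1 - t) - ∫ x, |K.φ x - t| = ∫ x, (t * (1 - t) - |K.φ x - t|) := by
    rw [integral_sub (integrable_const _) (hb3.integrable _)]; simp
  rw [h2]
  refine integral_mono ((integrable_const _).sub (hb3.integrable _))
    ((hb.integrable _).sub (hb2.integrable _)) fun x => ?_
  have h3 := K.nonneg x
  have h4 := K.le_one x
  rcases abs_cases (K.φ x - t) with h | h <;> simp only [h.1] <;> nlinarith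

lemma Kern.sq_le {a : T} (K : Kern a) {t : ℝ} (ht0 : 0 ≤ t) (ht1 : t ≤ 1) :
    ∫ x, (K.φ x - t) ^ 2 ≤ ∫ x, |K.φ x - t| := by
  have hb := K.bd
  have h1 : ∀ x, |K.φ x - t| ≤ 1 := fun x => by
    rw [abs_le]; constructor <;> linarith [K.nonneg x, K.le_one x]
  have hb3 : Bd fun x => |K.φ x - t| :=
    Bd.of_abs (hb.1.sub_const t).abs (C := 1) fun x => by rw [abs_abs]; exact h1 x
  refine integral_mono_of_nonneg (ae_of_all _ fun x => sq_nonneg _) (hb3.integrable _)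
    (ae_of_all _ fun x => ?_)
  have := h1 x
  have h2 := abs_nonneg (K.φ x - t)
  simp only
  rw [← sq_abs]; nlinarith

theorem no_fam {θ : ℝ} (hθ : Irrational θ) :
    ∃ W : ℕ → ℕ → ℝ → ℝ, ∀ d : Design (θ : T) W, IsEmpty (Fam (θ : T) d.F) := by
  have hδ : ∀ i : ℕ, (0 : ℝ) < 1 / (i + 1) ∧ (1 : ℝ) / (i + 1) ≤ 1 := fun i =>
    ⟨by positivity, by
      rw [div_le_one (by positivity)]; linarith [Nat.cast_nonneg (α := ℝ) i]⟩
  choose Om hOm0 hOm using fun (i Λ : ℕ) (Γ : ℝ) (hΛ : 1 ≤ Λ) (hΓ : 0 ≤ Γ) =>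
    step (hδ i).1 (hδ i).2 hΛ hΓ
  classical
  refine ⟨fun i Λ Γ => ∑ l ∈ range (i + 1), if h : 1 ≤ Λ ∧ 0 ≤ Γ then Om l Λ Γ h.1 h.2 else 0,
    fun d => ⟨fun 𝓕 => ?_⟩⟩
  have ht0 := 𝓕.t_pos
  have ht1 := 𝓕.t_lt
  set ε : ℝ := 𝓕.t * (1 - 𝓕.t) with hε
  have hε0 : 0 < ε := mul_pos ht0 (by linarith)
  obtain ⟨C, hC0, hC⟩ := poinc d hε0
  -- choice of `δ = 1 / (i₀ + 1)`
  have l1 : Tendsto (fun i : ℕ => (1 : ℝ) / (i + 1)) atTop (𝓝 0) :=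
    tendsto_one_div_add_atTop_nhds_zero_nat
  have l2 : Tendsto (fun i : ℕ => 1000 * √((1 : ℝ) / (i + 1))) atTop (𝓝 0) := by
    simpa using l1.sqrt.const_mul 1000
  have l3 : Tendsto (fun i : ℕ => 1000 * √((1 : ℝ) / (i + 1)) + 1 / (i + 1) +
      C * √(1000 * √((1 : ℝ) / (i + 1)))) atTop (𝓝 0) := by
    simpa using (l2.add l1).add (l2.sqrt.const_mul C)
  obtain ⟨i₀, hi₀⟩ := (l3.eventually (gt_mem_nhds (show (0 : ℝ) < ε / 4 by positivity))).exists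
  set δ : ℝ := 1 / (i₀ + 1) with hδdef
  have hδ0 : 0 < δ := (hδ i₀).1
  obtain ⟨J, ψ, ζ, hψ, hζ, hcob, hψ1, hζ1⟩ := exists_cob hθ (𝓕.K 0).bd hδ0
  rw [𝓕.int 0 (Bd.const (0 : ℝ))] at hcob
  -- choice of the level `i`
  have m1 : Tendsto (fun i : ℕ => (1 : ℝ) / 2 ^ i) atTop (𝓝 0) := by
    simpa using tendsto_pow_atTop_nhds_zero_of_lt_one (r := (1 / 2 : ℝ)) (by norm_num) (by norm_num)
  have m2 : Tendsto (fun i : ℕ => (C + 1) * ((1 : ℝ) / 2 ^ i)) atTop (𝓝 0) := by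
    simpa using m1.const_mul (C + 1)
  have m3 : Tendsto (fun i : ℕ => (128 + |J|) * ((1 : ℝ) / 2 ^ i)) atTop (𝓝 0) := by
    simpa using m1.const_mul (128 + |J|)
  obtain ⟨i, ⟨hi1, hi2⟩, hi3⟩ :=
    (((m2.eventually (gt_mem_nhds (show (0 : ℝ) < ε / 4 by positivity))).and
      (m3.eventually (gt_mem_nhds hδ0))).and (eventually_ge_atTop i₀)).exists
  have p2 : (0 : ℝ) < 2 ^ i := by positivity
  have p64 : (0 : ℝ) < 64 ^ i := by positivity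
  have p264 : (2 : ℝ) ^ i ≤ 64 ^ i := by gcongr; norm_num
  have hΛ1 : (16 : ℝ) * 64 ^ i ≤ d.Λ i := by exact_mod_cast (d.N_ge i).trans (d.N_le i)
  have hΛ2 : (d.Λ i : ℝ) ≤ 128 * 64 ^ i := by exact_mod_cast d.Λ_le i
  have hΛ : 1 ≤ d.Λ i := by
    have : 0 < 16 * 64 ^ i := by positivity
    exact this.trans_le ((d.N_ge i).trans (d.N_le i))
  have hΓ : ∀ j, 0 ≤ d.Γ j := fun j => (d.G_nonneg j 0).trans (d.G_le j 0)
  set Ω : ℝ := Om i₀ (d.Λ i) (d.Γ i) hΛ (hΓ i) with hΩ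
  have hΩ0 : 0 ≤ Ω := hOm0 _ _ _ _ _
  have hΩW : Ω ≤ ∑ l ∈ range (i + 1), if h : 1 ≤ d.Λ i ∧ 0 ≤ d.Γ i then
      Om l (d.Λ i) (d.Γ i) h.1 h.2 else 0 := by
    simp only [dif_pos (And.intro hΛ (hΓ i))]
    exact single_le_sum (f := fun l => Om l (d.Λ i) (d.Γ i) hΛ (hΓ i))
      (fun l _ => hOm0 _ _ _ _ _) (mem_range.2 (by omega))
  set B : Set T := ⋃ j, ⋃ _ : i ≤ j, d.B j with hB
  have hBm : MeasurableSet B :=
    MeasurableSet.iUnion fun j => MeasurableSet.iUnion fun _ => d.meas j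
  have hBle : volume.real B ≤ 1 / (8 * 64 ^ i) := d.toBars.measure_tail i
  have hB0 : 0 ≤ volume.real B := measureReal_nonneg
  have hJ : (128 + |J|) ≤ δ * 2 ^ i := by
    rw [mul_one_div, div_lt_iff₀ p2] at hi2; exact hi2.le
  obtain ⟨h, hh, hhΩ, hφ, hshort⟩ := hOm i₀ (d.Λ i) (d.Γ i) hΛ (hΓ i) (θ : T) d.F 𝓕 B (d.Z i)
    (d.G i) ψ ζ d.F_cont.measurable hBm (d.Z_meas i)
    (fun x => (d.ret i x).imp fun u hu => ⟨hu.1, Set.mem_iUnion₂.2 ⟨i, le_rfl, hu.2⟩⟩)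
    (d.G_meas i) (fun x => by rw [abs_of_nonneg (d.G_nonneg i x)]; exact d.G_le i x)
    (by
      calc _ ≤ 128 * 64 ^ i * (1 / (8 * 64 ^ i) : ℝ) := by gcongr
        _ = 16 := by field_simp; norm_num)
    (by
      calc _ ≤ 128 * 64 ^ i * (1 / (64 ^ i) ^ 2 : ℝ) := by
            gcongr; exact d.Z_le i
        _ = 128 / 64 ^ i := by field_simp
        _ ≤ δ := by
            rw [div_le_iff₀ p64]
            nlinarith [abs_nonneg J, mul_le_mul_of_nonneg_left p264 hδ0.le])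
    (fun x hx hz => by
      have hx' : ∀ j, i ≤ j → x ∉ d.B j := fun j hj hxj => hx (Set.mem_iUnion₂.2 ⟨j, hj, hxj⟩)
      rw [d.F_eq i i x hz fun j hj _ => hx' j hj]
      simp [Set.indicator_of_notMem (hx' i le_rfl)])
    (fun x hx hz => by
      obtain ⟨j, hj, hxj⟩ := Set.mem_iUnion₂.1 hx
      refine (d.F_le_c i j x hj hxj hz).trans (Real.exp_le_exp.2 ?_)
      have h1 := d.cost i j hj
      have h2 : 0 ≤ ∑ l ∈ range j, d.c l := sum_nonneg fun l _ => d.c_nonneg l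
      have h3 : 0 ≤ (d.N j : ℝ) * d.Γ j := mul_nonneg (Nat.cast_nonneg _) (hΓ j)
      linarith)
    hψ hζ hcob hψ1
    (fun x => (hζ1 x).trans (by
      have : δ * 2 ^ i ≤ δ * d.Λ i := by gcongr; linarith
      linarith [le_abs_self J]))
  have hlong := hC 𝓕 i h hh fun x => (hhΩ x).trans hΩW
  set K := 𝓕.K h with hK
  have := K.fin
  have hs := hshort ⌊ε * 64 ^ i⌋₊
  have hfl : (⌊ε * 64 ^ i⌋₊ : ℝ) ≤ ε * 64 ^ i := Nat.floor_le (by positivity)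
  have hsub : {p : T × ℤ | p.2 ≠ 0} ⊆ {p | p.2 ≠ 0 ∧ |p.2| ≤ (⌊ε * 64 ^ i⌋₊ : ℕ)} ∪
      {p | ε * 64 ^ i ≤ |(p.2 : ℝ)|} := fun p hp => by
    by_cases h1 : |p.2| ≤ (⌊ε * 64 ^ i⌋₊ : ℕ)
    · exact Or.inl ⟨hp, h1⟩
    · refine Or.inr ?_
      have h2 : ((⌊ε * 64 ^ i⌋₊ : ℕ) : ℤ) + 1 ≤ |p.2| := by omega
      have h3 : ((⌊ε * 64 ^ i⌋₊ : ℕ) : ℝ) + 1 ≤ |(p.2 : ℝ)| := by exact_mod_cast h2
      exact (Nat.lt_floor_add_one _).le.trans h3
  have h1 := (K.offdiag ht0.le ht1.le).trans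
    ((measureReal_mono hsub).trans (measureReal_union_le _ _))
  have h2 : √(∫ x, (K.φ x - 𝓕.t) ^ 2) ≤ √(1000 * √δ) :=
    Real.sqrt_le_sqrt ((K.sq_le ht0.le ht1.le).trans hφ)
  have h3 : (2 * (⌊ε * 64 ^ i⌋₊ : ℝ) + 1) * volume.real B ≤ ε / 4 + 1 / 2 ^ i := by
    calc _ ≤ (2 * (ε * 64 ^ i) + 1) * (1 / (8 * 64 ^ i)) := by gcongr
      _ = ε / 4 + 1 / (8 * 64 ^ i) := by field_simp; ring
      _ ≤ _ := by gcongr; linarith
  have h4 := mul_le_mul_of_nonneg_left h2 hC0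
  nlinarith

theorem exists_weight {θ : ℝ} (hθ : Irrational θ) :
    ∃ F : T → ℝ, Continuous F ∧ (∀ x, 0 ≤ F x) ∧ (∀ x, F x ≤ 1) ∧ (∀ x, F x = 0 ↔ x = 0) ∧
      ∫⁻ x, ENNReal.ofReal (-Real.log (F x)) = ⊤ ∧ IsEmpty (Fam (θ : T) F) := by
  obtain ⟨W, hW⟩ := no_fam hθ
  obtain ⟨b⟩ := exists_bars hθ
  obtain ⟨d⟩ := exists_design b W
  exact ⟨d.F, d.F_cont, d.F_nonneg, d.F_le, d.F_zero, d.F_log, hW d⟩

end Crest.Agent.R113
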