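import Crest.Agent.R113.Ker
import Crest.Agent.R113.Gap

/-! Row 113: a nontrivial invariant projection gives a `Fam`. -/

set_option autoImplicit false

namespace Crest.Agent.R113

open MeasureTheory Crest.Agent.R95 Finset

lemma mf_bd_sqrt {X : Type*} [MeasurableSpace X] {f : X → ℝ} (hf : Bd f) :
    Bd fun x => √(f x) := by
  obtain ⟨C, -, hC⟩ := hf.exists_abs
  refine Bd.of_abs hf.1.sqrt (C := √C) fun x => ?_
  rw [abs_of_nonneg (Real.sqrt_nonneg _)]
  exact Real.sqrt_le_sqrt ((le_abs_self _).trans (hC x))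

lemma mf_LR_sq {a : T} {f : T → ℝ} (hf : Bd f) (h0 : ∀ x, 0 ≤ f x) :
    star (LR (rot a) fun x => √(f x)) * LR (rot a) (fun x => √(f x)) = LR (rot a) f := by
  rw [(LR_sa _ (mf_bd_sqrt hf)).star_eq, ← LR_mul _ (mf_bd_sqrt hf) (mf_bd_sqrt hf)]
  congr 1
  funext x
  exact Real.mul_self_sqrt (h0 x)

lemma mf_h1 {a : T} {C W : T → ℝ} (bC : Bd C) (bW : Bd W)
    (h0 : ∀ x, 0 ≤ C x * (W x * W x) - C x) : ∃ u : NN (rot a),
    LR (rot a) C * (LR (rot a) W * LR (rot a) W) = LR (rot a) C + star u * u := by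
  refine ⟨LR (rot a) fun x => √(C x * (W x * W x) - C x), ?_⟩
  rw [mf_LR_sq ((bC.mul (bW.mul bW)).sub bC) h0, LR_sub _ (bC.mul (bW.mul bW)) bC,
    LR_mul _ bC (bW.mul bW), LR_mul _ bW bW, add_sub_cancel]

lemma mf_h2 {a : T} {C D W : T → ℝ} (bC : Bd C) (bD : Bd D) (bW : Bd W)
    (h0 : ∀ x, 0 ≤ (C x - 3 / 4 * D x) - C x * (W x * W x)) : ∃ v : NN (rot a),
    LR (rot a) C - (3 / 4 : ℂ) • LR (rot a) D =
      LR (rot a) C * (LR (rot a) W * LR (rot a) W) + star v * v := by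
  have b34 : Bd fun x => (3 / 4 : ℝ) * D x := (Bd.const (3 / 4 : ℝ)).mul bD
  refine ⟨LR (rot a) fun x => √((C x - 3 / 4 * D x) - C x * (W x * W x)), ?_⟩
  have e : (((3 / 4 : ℝ)) : ℂ) = 3 / 4 := by push_cast; rfl
  rw [mf_LR_sq ((bC.sub b34).sub (bC.mul (bW.mul bW))) h0,
    LR_sub _ (bC.sub b34) (bC.mul (bW.mul bW)), LR_sub _ bC b34,
    LR_mul _ bC (bW.mul bW), LR_mul _ bW bW, LR_smul _ _ bD, add_sub_cancel, e]

lemma mf_conj {A : Type*} [CStarAlgebra A] {U V q : A} (hq : IsStarProjection q)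
    (h1 : U * V = 1) (hs : star V = U) : IsStarProjection (V * q * U) := by
  refine ⟨?_, ?_⟩
  · show _ * _ = _
    calc V * q * U * (V * q * U) = V * q * (U * V) * q * U := by simp only [mul_assoc]
      _ = V * (q * q) * U := by rw [h1]; simp only [mul_assoc, one_mul]
      _ = _ := by rw [hq.isIdempotentElem.eq]
  · show star _ = _
    rw [star_mul, star_mul, ← hs, star_star, hq.isSelfAdjoint.star_eq, mul_assoc]

lemma mf_inv {A : Type*} [CStarAlgebra A] {U V q w : A} (h2 : V * U = 1)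
    (h : q * (U * w * q) = U * w * q) (c : ℂ) : V * q * U * (c • w * q) = c • w * q := by
  rw [smul_mul_assoc, mul_smul_comm]
  congr 1
  calc V * q * U * (w * q) = V * (q * (U * w * q)) := by simp only [mul_assoc]
    _ = (V * U) * (w * q) := by rw [h]; simp only [mul_assoc]
    _ = _ := by rw [h2, one_mul]

lemma mf_tr {A : Type*} [CStarAlgebra A] [Tr A] {U V q c c' : A} (h1 : U * V = 1)
    (h : c * V = V * c') : tr (c * (V * q * U)) = tr (c' * q) := by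
  rw [← mul_assoc, tr_comm, ← mul_assoc c, h, ← mul_assoc, ← mul_assoc, h1, one_mul]

lemma mf_compl {a : T} {E : Set T} (hE : MeasurableSet E) :
    1 - LR (rot a) (E.indicator fun _ => 1) = LR (rot a) (Eᶜ.indicator fun _ => 1) := by
  have b1 : Bd fun _ : T => (1 : ℝ) := Bd.const 1
  rw [← LR_one (rot a), ← LR_sub _ b1 (b1.indicator hE)]
  congr 1
  funext x
  by_cases hx : x ∈ E <;> simp [hx]

lemma mf_e3 {a : T} {E : Set T} (hE : MeasurableSet E) (φ : T → ℝ) (n : ℕ) :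
    ∫ x, Eᶜ.indicator (fun _ : T => (1 : ℝ)) ((rot a).σ (-n) x) * φ x =
      ∫ x in Eᶜ, φ (x + n • a) := by
  rw [← integral_indicator hE.compl, ← integral_add_right_eq_self _ (n • a)]
  congr 1
  funext x
  have e : (rot a).σ (-n) (x + n • a) = x := by
    show x + n • a + (-(n : ℤ)) • a = x
    rw [neg_zsmul, natCast_zsmul, add_neg_cancel_right]
  rw [e]
  by_cases hx : x ∈ E <;> simp [hx]

lemma mf_e1 {E : Set T} (hE : MeasurableSet E) (φ : T → ℝ) :
    ∫ x, Eᶜ.indicator (fun _ : T => (1 : ℝ)) x * φ x = ∫ x in Eᶜ, φ x := by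
  rw [← integral_indicator hE.compl]
  congr 1
  funext x
  by_cases hx : x ∈ E <;> simp [hx]

lemma mf_e2 {a : T} {E E' : Set T} (hE : MeasurableSet E) (hE' : MeasurableSet E')
    (ν : Measure (T × ℤ)) :
    ∫ p, (Eᶜ.indicator (fun _ : T => (1 : ℝ)) (p.1 + p.2 • a) *
      E'.indicator (fun _ : T => (1 : ℝ)) p.1) ^ 2 ∂ν =
      ν.real {p | p.1 ∈ E' ∧ p.1 + p.2 • a ∉ E} := by
  have hm : Measurable fun p : T × ℤ => p.1 + p.2 • a := measurable_act (rot a)
  have hS : MeasurableSet {p : T × ℤ | p.1 ∈ E' ∧ p.1 + p.2 • a ∉ E} :=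
    (measurable_fst hE').inter (hm hE.compl)
  rw [← integral_indicator_one hS]
  congr 1
  funext p
  by_cases h5 : p.1 ∈ E' <;> by_cases h6 : p.1 + p.2 • a ∈ E <;>
    simp [Set.indicator, h5, h6]

lemma mf_r1 {y : ℝ} (h : 1 ≤ y) : 0 ≤ 1 * (y * y) - 1 := by nlinarith

lemma mf_r2 {y : ℝ} (h0 : 0 ≤ y) (h : 2 * y ≤ 1) : 0 ≤ 1 - 3 / 4 * 1 - 1 * (y * y) := by nlinarith

lemma mf_r3 {y : ℝ} (h0 : 0 ≤ y) (h : y ≤ 1) : 0 ≤ 1 - 3 / 4 * 0 - 1 * (y * y) := by nlinarith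

lemma mf_tele {a : T} (F h : T → ℝ) (n : ℕ) (x : T) :
    ∏ j ∈ range n, (F ((rot a).σ j x) *
      Real.exp (h ((rot a).σ 1 ((rot a).σ j x)) - h ((rot a).σ j x))) = wt a F h n x := by
  have e : ∀ (k : ℤ) (y : T), (rot a).σ k y = y + k • a := fun _ _ => rfl
  simp only [e, one_zsmul, natCast_zsmul, wt]
  induction n with
  | zero => simp
  | succ n ih =>
    rw [prod_range_succ, ih, prod_range_succ, succ_nsmul, ← add_assoc]
    have : Real.exp (h (x + n • a + a) - h x) =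
        Real.exp (h (x + n • a) - h x) * Real.exp (h (x + n • a + a) - h (x + n • a)) := by
      rw [← Real.exp_add]; congr 1; ring
    rw [this]; ring

/-- The gap inequality for a represented projection `q` with `q U^n w q = U^n w q`.
Sketch: `gap` with `q' = UN (-n) * q * UN n`, `w / κ` for `w`, `e = 1_E`, `e' = 1_{E'}`,
`u = LR √((w/κ)² - 1) 1_{Eᶜ}`, `v = LR √(1_E - ¾ 1_{E'} - 1_E (w/κ)²)`;
`tr ((1 - e) q') = tr (UN n (1 - e) UN (-n) q) = ∫ 1_{Eᶜ}(x - n a) φ x = ∫_{Eᶜ} φ (x + n a)`. -/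
theorem Rep.gap {a : T} {q : NN (rot a)} (hq : IsStarProjection q) {K : Kern a} (hK : Rep q K)
    {w : T → ℝ} (hw : Bd w) (hw0 : ∀ x, 0 ≤ w x) {n : ℕ}
    (hinv : q * (UN (rot a) n * LR (rot a) w * q) = UN (rot a) n * LR (rot a) w * q)
    {E E' : Set T} {κ : ℝ} (hE : MeasurableSet E) (hE' : MeasurableSet E') (hsub : E' ⊆ E)
    (hκ : 0 < κ) (h1 : ∀ x, x ∉ E → κ ≤ w x) (h2 : ∀ x ∈ E, w x ≤ κ) (h3 : ∀ x ∈ E', 2 * w x ≤ κ) :
    (∫ x in Eᶜ, K.φ x) + K.ν.real {p | p.1 ∈ E' ∧ p.1 + p.2 • a ∉ E} / 2 ≤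
      ∫ x in Eᶜ, K.φ (x + n • a) := by
  classical
  have b1 : Bd fun _ : T => (1 : ℝ) := Bd.const 1
  have bE : Bd (E.indicator fun _ : T => (1 : ℝ)) := b1.indicator hE
  have bE' : Bd (E'.indicator fun _ : T => (1 : ℝ)) := b1.indicator hE'
  have bC : Bd (Eᶜ.indicator fun _ : T => (1 : ℝ)) := b1.indicator hE.compl
  have bw : Bd fun x => κ⁻¹ * w x := (Bd.const κ⁻¹).mul hw
  have hC := mf_compl (a := a) hE
  have hU1 : UN (rot a) n * UN (rot a) (-n) = 1 := by rw [UN_mul, add_neg_cancel, UN_zero]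
  have hU2 : UN (rot a) (-n) * UN (rot a) n = 1 := by rw [UN_mul, neg_add_cancel, UN_zero]
  have hq' : IsStarProjection (UN (rot a) (-n) * q * UN (rot a) n) :=
    mf_conj hq hU1 (by rw [star_UN, neg_neg])
  have hinv' : UN (rot a) (-n) * q * UN (rot a) n * (LR (rot a) (fun x => κ⁻¹ * w x) * q) =
      LR (rot a) (fun x => κ⁻¹ * w x) * q := by
    rw [LR_smul _ _ hw]
    exact mf_inv hU2 hinv _
  have hk : 0 < κ⁻¹ := inv_pos.2 hκ
  have hkk : κ⁻¹ * κ = 1 := inv_mul_cancel₀ hκ.ne'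
  have hu0 : ∀ x, 0 ≤ Eᶜ.indicator (fun _ : T => (1 : ℝ)) x * (κ⁻¹ * w x * (κ⁻¹ * w x)) -
      Eᶜ.indicator (fun _ : T => (1 : ℝ)) x := by
    intro x
    by_cases hx : x ∈ E
    · simp [hx]
    · have h4 : 1 ≤ κ⁻¹ * w x := by
        rw [← hkk]; exact mul_le_mul_of_nonneg_left (h1 x hx) hk.le
      rw [Set.indicator_of_mem (show x ∈ Eᶜ from hx)]
      exact mf_r1 h4
  have hv0 : ∀ x, 0 ≤ (E.indicator (fun _ : T => (1 : ℝ)) x -
      (3 / 4 : ℝ) * E'.indicator (fun _ : T => (1 : ℝ)) x) -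
      E.indicator (fun _ : T => (1 : ℝ)) x * (κ⁻¹ * w x * (κ⁻¹ * w x)) := by
    intro x
    have h0 : 0 ≤ κ⁻¹ * w x := mul_nonneg hk.le (hw0 x)
    by_cases hx' : x ∈ E'
    · have h4 : 2 * (κ⁻¹ * w x) ≤ 1 := by
        have := mul_le_mul_of_nonneg_left (h3 x hx') hk.le
        linarith
      rw [Set.indicator_of_mem hx', Set.indicator_of_mem (hsub hx')]
      exact mf_r2 h0 h4
    · by_cases hx : x ∈ E
      · have h4 : κ⁻¹ * w x ≤ 1 := by
          rw [← hkk]; exact mul_le_mul_of_nonneg_left (h2 x hx) hk.le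
        rw [Set.indicator_of_notMem hx', Set.indicator_of_mem hx]
        exact mf_r3 h0 h4
      · simp [hx, hx']
  obtain ⟨u, hu⟩ := mf_h1 (a := a) bC bw hu0
  obtain ⟨v, hv⟩ := mf_h2 (a := a) bE bE' bw hv0
  have g := Crest.Agent.R113.gap (u := u) (v := v)
    hq hq' (LR_proj (rot a) hE) (LR_proj (rot a) hE') (LR_sa _ bw) (LR_comm _ bw bE) hinv'
    (by rw [hC]; exact hu) hv
  have bC' : Bd fun x => Eᶜ.indicator (fun _ : T => (1 : ℝ)) ((rot a).σ (-n) x) :=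
    bC.comp ((rot a).mp _).measurable
  rw [hC] at g
  have e1 := (hK.tr_eq _ bC).trans (mf_e1 hE K.φ)
  have e2 := (hK.n2_eq _ _ bC bE').trans (mf_e2 hE hE' K.ν)
  have e3 := ((mf_tr (q := q) hU1 (LR_mul_UN _ bC (-n))).trans (hK.tr_eq _ bC')).trans
    (mf_e3 hE K.φ n)
  rw [e1, e2, e3] at g
  have : 0 ≤ K.ν.real {p | p.1 ∈ E' ∧ p.1 + p.2 • a ∉ E} := measureReal_nonneg
  linarith

/-- Sketch: `E h = LR (exp h)`, `P h = Pj p (E h)`, `K h` from `exists_kern` (any value if `h` is not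
`Bd`), `Ψ h = Psi p (E h)`, `t = tr p`. `d1`, `d2`: `expPath_LR`, `hasDerivAt_Psi`,
`hasDerivAt_tr_Pj`. `gap`: `S = UN 1 * LR f`, `f x = F x * exp (h (x + a) - h x)` satisfies
`S * E h = E h * (UN 1 * LR F)` (`LR_mul_UN`); `Pj_inv`, `inv_pow`, `pow_shift`; the product
`∏_{j<n} f (x + j a)` telescopes to `wt a F h n x`; `Rep.gap`. -/
theorem exists_fam {a : T} {F : T → ℝ} (hF : Bd F) (hF0 : ∀ x, 0 ≤ F x) {p : NN (rot a)}
    (hp : IsStarProjection p) (h0 : p ≠ 0) (h1 : p ≠ 1)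
    (hinv : p * (UN (rot a) 1 * LR (rot a) F * p) = UN (rot a) 1 * LR (rot a) F * p) :
    Nonempty (Fam a F) := by
  have hsa : ∀ h : T → ℝ, Bd h → IsSelfAdjoint (LR (rot a) fun x => Real.exp (h x)) :=
    fun h hh => LR_sa _ hh.exp
  have hu : ∀ h : T → ℝ, Bd h → IsUnit (LR (rot a) fun x => Real.exp (h x)) := by
    intro h hh
    simpa using (expPath_LR (rot a) hh hh).unit 0
  have key : ∀ h : T → ℝ, ∃ K : Kern a,
      Bd h → Rep (Pj p (LR (rot a) fun x => Real.exp (h x))) K := by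
    intro h
    by_cases hh : Bd h
    · obtain ⟨K, hK⟩ := exists_kern (Pj_proj hp (hsa h hh) (hu h hh))
      exact ⟨K, fun _ => hK⟩
    · obtain ⟨K, -⟩ := exists_kern hp
      exact ⟨K, fun h' => absurd h' hh⟩
  choose K hK using key
  refine ⟨⟨tr p, tr_proj_pos hp h0, tr_proj_lt hp h1, K,
    fun h => Psi p (LR (rot a) fun x => Real.exp (h x)), ?_, ?_, ?_, ?_⟩⟩
  · intro h hh
    have := (hK h hh).tr_eq (fun _ => 1) (Bd.const 1)
    rw [LR_one, one_mul, tr_Pj hp (hsa h hh) (hu h hh)] at this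
    simpa using this.symm
  · intro h d hh hd s
    have := hasDerivAt_Psi hp (expPath_LR (rot a) hh hd) s
    rwa [(hK _ (hh.add_smul hd s)).tr_eq d hd] at this
  · intro h d hh hd s
    have := hasDerivAt_tr_Pj hp (expPath_LR (rot a) hh hd) s
    rw [(hK _ (hh.add_smul hd s)).comm_eq d hd] at this
    have e : (fun s : ℝ => ∫ x, d x * (K (h + s • d)).φ x) = fun t : ℝ =>
        tr (LR (rot a) d * Pj p (LR (rot a) fun x => Real.exp ((h + t • d) x))) := by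
      funext t
      rw [(hK _ (hh.add_smul hd t)).tr_eq d hd]
    rw [e]
    exact this
  · intro h hh n E E' κ hE hE' hsub hκ g1 g2 g3
    have bh1 : Bd fun x => h ((rot a).σ 1 x) := hh.comp ((rot a).mp 1).measurable
    have bf : Bd fun x => F x * Real.exp (h ((rot a).σ 1 x) - h x) := hF.mul (bh1.sub hh).exp
    have hS : UN (rot a) 1 * LR (rot a) (fun x => F x * Real.exp (h ((rot a).σ 1 x) - h x)) *
        LR (rot a) (fun x => Real.exp (h x)) =
        LR (rot a) (fun x => Real.exp (h x)) * (UN (rot a) 1 * LR (rot a) F) := by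
      rw [← mul_assoc, LR_mul_UN _ hh.exp, mul_assoc, mul_assoc, ← LR_mul _ bf hh.exp,
        ← LR_mul _ bh1.exp hF]
      congr 2
      funext x
      rw [mul_assoc, ← Real.exp_add, sub_add_cancel, mul_comm]
    have hP := Pj_proj hp (hsa h hh) (hu h hh)
    have i1 := inv_pow hP.isIdempotentElem.eq (Pj_inv hp (hsa h hh) (hu h hh) hinv hS) n
    rw [pow_shift _ bf] at i1
    have e : (fun x => ∏ j ∈ range n, (F ((rot a).σ j x) *
      Real.exp (h ((rot a).σ 1 ((rot a).σ j x)) - h ((rot a).σ j x)))) = wt a F h n :=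
      funext (mf_tele F h n)
    have bw : Bd (wt a F h n) := by
      rw [← e]
      exact Bd.prod _ fun j _ => bf.comp ((rot a).mp j).measurable
    rw [e] at i1
    exact Rep.gap hP (hK h hh) bw
      (fun x => mul_nonneg (prod_nonneg fun j _ => hF0 _) (Real.exp_pos _).le) i1 hE hE' hsub hκ
      g1 g2 g3

end Crest.Agent.R113
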