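import Crest.Agent.R113.Defs

/-! Row 113: the greedy construction of nonresonant angles (proof of `exists_greedy`). -/

set_option autoImplicit false

namespace Crest.Agent.R113.Greedy

open MeasureTheory Finset
open scoped ENNReal

lemma dz_lt_iff {x c : ℝ} : dz x < c ↔ ∃ n : ℤ, |x - n| < c :=
  ⟨fun h => ⟨round x, h⟩, fun ⟨n, h⟩ => (round_le x n).trans_lt h⟩

lemma dz_add_le (x y : ℝ) : dz (x + y) ≤ dz x + |y| := by
  refine (round_le (x + y) (round x)).trans ?_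
  rw [add_sub_right_comm]
  exact abs_add_le _ _

lemma measurableSet_bad (t c : ℝ) : MeasurableSet {θ : ℝ | dz (t * θ) < c} := by
  simp only [dz_lt_iff, Set.ofPred_exists]
  exact MeasurableSet.iUnion fun n => measurableSet_lt (by fun_prop) measurable_const

lemma volume_bad {t c a : ℝ} (ht : 0 < t) (hc : 0 ≤ c) (hta : 1 ≤ t * a) :
    volume ({θ : ℝ | dz (t * θ) < c} ∩ Set.Icc a (2 * a)) ≤ ENNReal.ofReal (6 * c * a) := by
  set S : Finset ℤ := Finset.Icc ⌈t * a - 1 / 2⌉ ⌊2 * (t * a) + 1 / 2⌋ with hS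
  have hsub : {θ : ℝ | dz (t * θ) < c} ∩ Set.Icc a (2 * a) ⊆
      ⋃ n ∈ S, Set.Ioo (((n : ℝ) - c) / t) (((n : ℝ) + c) / t) := by
    rintro θ ⟨h1, h2, h3⟩
    have h4 := abs_le.1 (abs_sub_round (t * θ))
    have h5 := abs_lt.1 (show |t * θ - round (t * θ)| < c from h1)
    have h6 : t * a ≤ t * θ := by gcongr
    have h7 : t * θ ≤ t * (2 * a) := by gcongr
    refine Set.mem_biUnion (x := round (t * θ)) ?_ ⟨?_, ?_⟩
    · rw [hS, mem_coe, Finset.mem_Icc, Int.ceil_le, Int.le_floor]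
      constructor <;> linarith
    · rw [div_lt_iff₀ ht]; linarith
    · rw [lt_div_iff₀ ht]; linarith
  have hcard : (S.card : ℝ) ≤ 3 * (t * a) := by
    have h1 := Int.le_ceil (t * a - 1 / 2)
    have h2 := Int.floor_le (2 * (t * a) + 1 / 2)
    rw [hS, Int.card_Icc]
    have h3 : ((⌊2 * (t * a) + 1 / 2⌋ + 1 - ⌈t * a - 1 / 2⌉ : ℤ) : ℝ) ≤ 3 * (t * a) := by
      push_cast
      linarith
    rcases le_total 0 (⌊2 * (t * a) + 1 / 2⌋ + 1 - ⌈t * a - 1 / 2⌉) with h | h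
    · rw [← Int.cast_natCast, Int.toNat_of_nonneg h]
      exact h3
    · rw [Int.toNat_eq_zero.2 h]
      push_cast
      linarith
  refine (measure_mono hsub).trans ((measure_biUnion_finset_le _ _).trans ?_)
  have e : ∀ n : ℤ, volume (Set.Ioo (((n : ℝ) - c) / t) (((n : ℝ) + c) / t)) = ENNReal.ofReal (2 * c / t) := by
    intro n
    rw [Real.volume_Ioo]
    congr 1
    ring
  simp only [e, sum_const, nsmul_eq_mul]
  rw [← ENNReal.ofReal_natCast, ← ENNReal.ofReal_mul (Nat.cast_nonneg _)]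
  refine ENNReal.ofReal_le_ofReal ?_
  calc (S.card : ℝ) * (2 * c / t) ≤ 3 * (t * a) * (2 * c / t) := by gcongr
    _ = 6 * c * a := by field_simp; ring

open Classical in
/-- the local factor -/
noncomputable def ψ (θ : ℝ) (t : ℕ) : ℝ := if dz (t * θ) < 1 / (24 * 64 ^ 3) then 4096 else 1 / 4096

/-- the weights -/
noncomputable def w (M t : ℕ) : ℝ := if 64 ^ M ≤ t then 64 ^ M / (t : ℝ) ^ 2 else 0

lemma ψ_pos (θ : ℝ) (t : ℕ) : 0 < ψ θ t := by
  unfold ψ
  split_ifs <;> norm_num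

lemma w_nonneg (M t : ℕ) : 0 ≤ w M t := by
  unfold w
  split_ifs <;> positivity

lemma measurable_ψ (t : ℕ) : Measurable fun θ => ψ θ t :=
  Measurable.ite (measurableSet_bad _ _) measurable_const measurable_const

lemma lintegral_ψ {t : ℕ} {a : ℝ} (ha : 0 < a) (hta : 1 ≤ t * a) :
    ∫⁻ θ in Set.Icc a (2 * a), ENNReal.ofReal (ψ θ t) ≤ ENNReal.ofReal (a / 128) := by
  have ht : (0 : ℝ) < t := by
    by_contra h
    have : (t : ℝ) * a ≤ 0 := mul_nonpos_of_nonpos_of_nonneg (not_lt.1 h) ha.le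
    linarith
  have h1 : ∀ θ, ENNReal.ofReal (ψ θ t) ≤
      {θ : ℝ | dz (t * θ) < 1 / (24 * 64 ^ 3)}.indicator (fun _ => ENNReal.ofReal 4096) θ +
        ENNReal.ofReal (1 / 4096) := by
    intro θ
    unfold ψ
    split_ifs with h
    · rw [Set.indicator_of_mem (by exact h)]
      exact le_self_add
    · exact le_add_self
  refine (lintegral_mono h1).trans ?_
  rw [lintegral_add_right _ measurable_const, lintegral_indicator (measurableSet_bad _ _),
    Measure.restrict_restrict (measurableSet_bad _ _), setLIntegral_const, setLIntegral_const, Real.volume_Icc]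
  refine (add_le_add_left (mul_le_mul_right (volume_bad ht (by norm_num) hta) _) _).trans ?_
  rw [← ENNReal.ofReal_mul (by norm_num), ← ENNReal.ofReal_mul (by norm_num),
    ← ENNReal.ofReal_add (by positivity) (by nlinarith)]
  refine ENNReal.ofReal_le_ofReal ?_
  linarith

lemma tsum_w (M : ℕ) : ∑' t, ENNReal.ofReal (w M t) ≤ 2 := by
  refine ENNReal.tsum_le_of_sum_range_le fun n => ?_
  rw [← ENNReal.ofReal_sum_of_nonneg fun t _ => w_nonneg M t, ← ENNReal.ofReal_ofNat]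
  refine ENNReal.ofReal_le_ofReal ?_
  have hp : 1 ≤ 64 ^ M := Nat.one_le_pow _ _ (by norm_num)
  have h1 := sum_Ioo_inv_sq_le (α := ℝ) (64 ^ M - 1) n
  have h2 : ((64 ^ M - 1 : ℕ) : ℝ) + 1 = 64 ^ M := by
    rw [Nat.cast_sub hp]
    push_cast
    ring
  have h3 : (range n).filter (fun t => 64 ^ M ≤ t) = Finset.Ioo (64 ^ M - 1) n := by
    ext t
    simp only [mem_filter, mem_range, Finset.mem_Ioo]
    omega
  rw [h2, le_div_iff₀ (by positivity), sum_mul] at h1
  unfold w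
  rw [← sum_filter, h3]
  refine le_trans (le_of_eq (sum_congr rfl fun t _ => ?_)) h1
  ring

lemma w_succ_le (M t : ℕ) : w (M + 1) t ≤ 64 * w M t := by
  unfold w
  split_ifs with h1 h2 h2
  · rw [pow_succ]
    exact le_of_eq (by ring)
  · exact absurd ((Nat.pow_le_pow_right (by norm_num) (Nat.le_succ M)).trans h1) h2
  · positivity
  · simp

lemma exists_step (M : ℕ) (z : ℕ → ℝ) (hz : ∀ t, 0 ≤ z t) (h : ∑' t, ENNReal.ofReal (z t * w M t) ≤ 1) :
    ∃ θ : ℝ, (1 / 64 ^ (M + 1) ≤ θ ∧ θ ≤ 2 / 64 ^ (M + 1)) ∧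
      ∑' t, ENNReal.ofReal (ψ θ t * (1 + z t) * w (M + 1) t) ≤ 1 := by
  set a : ℝ := 1 / 64 ^ (M + 1) with ha
  have ha0 : 0 < a := by positivity
  have hvol : volume (Set.Icc a (2 * a)) = ENNReal.ofReal a := by
    rw [Real.volume_Icc]
    congr 1
    ring
  have hm : ∀ t, Measurable fun θ => ENNReal.ofReal (ψ θ t * (1 + z t) * w (M + 1) t) := fun t =>
    (((measurable_ψ t).mul_const _).mul_const _).ennreal_ofReal
  obtain ⟨θ, hθ, hle⟩ := exists_le_setLAverage (μ := volume) (s := Set.Icc a (2 * a))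
    (f := fun θ => ∑' t, ENNReal.ofReal (ψ θ t * (1 + z t) * w (M + 1) t))
    (by rw [hvol]; simpa using ha0) (by rw [hvol]; exact ENNReal.ofReal_ne_top)
    (Measurable.tsum hm).aemeasurable
  refine ⟨θ, ⟨hθ.1, hθ.2.trans_eq (by rw [ha]; ring)⟩, hle.trans ?_⟩
  rw [setLAverage_eq, hvol, lintegral_tsum fun t => (hm t).aemeasurable]
  refine ENNReal.div_le_of_le_mul ?_
  have h1 : ∀ t, ∫⁻ θ in Set.Icc a (2 * a), ENNReal.ofReal (ψ θ t * (1 + z t) * w (M + 1) t) ≤
      ENNReal.ofReal (a / 128) * (ENNReal.ofReal (w (M + 1) t) + 64 * ENNReal.ofReal (z t * w M t)) := by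
    intro t
    by_cases ht : 64 ^ (M + 1) ≤ t
    · have h2 : ∀ θ, ENNReal.ofReal (ψ θ t * (1 + z t) * w (M + 1) t) =
          ENNReal.ofReal (ψ θ t) * ENNReal.ofReal ((1 + z t) * w (M + 1) t) := fun θ => by
        rw [mul_assoc, ENNReal.ofReal_mul (ψ_pos θ t).le]
      simp only [h2]
      rw [lintegral_mul_const _ (measurable_ψ t).ennreal_ofReal]
      refine mul_le_mul' (lintegral_ψ ha0 ?_) ?_
      · rw [ha, mul_one_div, le_div_iff₀ (by positivity), one_mul]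
        exact_mod_cast ht
      · rw [← ENNReal.ofReal_ofNat, ← ENNReal.ofReal_mul (by norm_num),
          ← ENNReal.ofReal_add (w_nonneg _ _) (mul_nonneg (by norm_num) (mul_nonneg (hz t) (w_nonneg _ _)))]
        refine ENNReal.ofReal_le_ofReal ?_
        have := mul_le_mul_of_nonneg_left (w_succ_le M t) (hz t)
        linarith
    · simp [w, ht]
  refine (ENNReal.tsum_le_tsum h1).trans ?_
  rw [ENNReal.tsum_mul_left, ENNReal.tsum_add, ENNReal.tsum_mul_left]
  calc _ ≤ ENNReal.ofReal (a / 128) * (2 + 64 * 1) := by gcongr; exact tsum_w _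
    _ = ENNReal.ofReal (a / 128 * 66) := by
      rw [ENNReal.ofReal_mul (by positivity), ENNReal.ofReal_ofNat]
      norm_num
    _ ≤ _ := by
      rw [one_mul]
      exact ENNReal.ofReal_le_ofReal (by linarith)

lemma exists_seq : ∃ (θ : ℕ → ℝ) (z : ℕ → ℕ → ℝ),
    (∀ j, 1 / 64 ^ (j + 1) ≤ θ j ∧ θ j ≤ 2 / 64 ^ (j + 1)) ∧ (∀ M t, 0 ≤ z M t) ∧
      (∀ M t, z (M + 1) t = ψ (θ M) t * (1 + z M t)) ∧ ∀ M, ∑' t, ENNReal.ofReal (z M t * w M t) ≤ 1 := by
  choose! f hf using exists_step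
  let z : ℕ → ℕ → ℝ := fun M => Nat.rec (fun _ => 0) (fun M z t => ψ (f M z) t * (1 + z t)) M
  have key : ∀ M, (∀ t, 0 ≤ z M t) ∧ ∑' t, ENNReal.ofReal (z M t * w M t) ≤ 1 := by
    intro M
    induction M with
    | zero => simp [z]
    | succ M ih =>
      exact ⟨fun t => mul_nonneg (ψ_pos _ _).le (add_nonneg zero_le_one (ih.1 t)), (hf M _ ih.1 ih.2).2⟩
  exact ⟨fun M => f M (z M), z, fun j => (hf j _ (key j).1 (key j).2).1, fun M => (key M).1,
    fun _ _ => rfl, fun M => (key M).2⟩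

lemma prod_le {θ : ℕ → ℝ} {z : ℕ → ℕ → ℝ} (h0 : ∀ M t, 0 ≤ z M t)
    (hz : ∀ M t, z (M + 1) t = ψ (θ M) t * (1 + z M t)) (t K : ℕ) :
    ∀ M, K ≤ M → ∏ k ∈ range (K + 1), ψ (θ (M - k)) t ≤ z (M + 1) t := by
  induction K with
  | zero =>
    intro M _
    rw [hz, zero_add, prod_range_one, Nat.sub_zero]
    exact le_mul_of_one_le_right (ψ_pos _ _).le (le_add_of_nonneg_right (h0 _ _))
  | succ K ih =>
    intro M hM
    obtain ⟨M, rfl⟩ : ∃ M', M = M' + 1 := ⟨M - 1, by omega⟩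
    rw [prod_range_succ', hz, Nat.sub_zero, mul_comm]
    simp only [Nat.add_sub_add_right]
    exact mul_le_mul_of_nonneg_left ((ih M (by omega)).trans (le_add_of_nonneg_left zero_le_one)) (ψ_pos _ _).le

theorem greedy : ∃ θ : ℕ → ℝ, (∀ j, 1 / 64 ^ (j + 1) ≤ θ j ∧ θ j ≤ 2 / 64 ^ (j + 1)) ∧
    ∀ M K D : ℕ, K ≤ M + 1 → 64 ^ (M + 1) ≤ D → D < 64 ^ (M + 2) →
      4 * #{k ∈ range K | dz (D * θ (M - k)) < 1 / (48 * 64 ^ 3)} ≤ 3 * K + 6 := by
  obtain ⟨θ, z, hθ, h0, hz, hΦ⟩ := exists_seq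
  refine ⟨θ, hθ, fun M K D hK hD1 hD2 => ?_⟩
  rcases K with _ | K
  · simp
  obtain ⟨L, rfl⟩ : ∃ L, M = K + L := ⟨M - K, by omega⟩
  set b := #{k ∈ range (K + 1) | dz (D * θ (K + L - k)) < 1 / (48 * 64 ^ 3)} with hb
  set δ : ℝ := 64 ^ (L + 1) / (96 * 64 ^ 3) with hδ
  have hδ0 : 0 < δ := by positivity
  have hD2' : (D : ℝ) ≤ 64 ^ (K + L + 2) := by exact_mod_cast hD2.le
  have hlow : ∀ t ∈ Finset.Icc D (D + ⌊δ⌋₊),
      4096 ^ (2 * b) / 4096 ^ (K + 1) * (64 ^ (K + L + 1) / (2 * 64 ^ (K + L + 2)) ^ 2) ≤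
        z (K + L + 1) t * w (K + L + 1) t := by
    intro t ht
    obtain ⟨h1, h2⟩ := Finset.mem_Icc.1 ht
    have h1' : (D : ℝ) ≤ t := by exact_mod_cast h1
    have h2' : (t : ℝ) ≤ D + δ := by
      have h3 : (t : ℝ) ≤ D + ⌊δ⌋₊ := by exact_mod_cast h2
      linarith [Nat.floor_le hδ0.le]
    refine mul_le_mul (le_trans ?_ (prod_le h0 hz t K _ (Nat.le_add_right K L))) ?_ (by positivity) (h0 _ _)
    · have h4 : (4096 : ℝ) ^ (K + 1) = ∏ _k ∈ range (K + 1), (4096 : ℝ) := by simp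
      rw [div_le_iff₀ (by positivity), h4, ← prod_mul_distrib, pow_mul, hb, ← prod_const, prod_filter]
      refine prod_le_prod (fun k _ => by split_ifs <;> norm_num) fun k hk => ?_
      have hk' : k ≤ K := Nat.lt_succ_iff.1 (mem_range.1 hk)
      unfold ψ
      split_ifs with h5 h6 h6
      · norm_num
      · refine absurd ?_ h6
        have h7 := dz_add_le (D * θ (K + L - k)) ((t - D) * θ (K + L - k))
        have h8 : 0 ≤ θ (K + L - k) := le_trans (by positivity) (hθ _).1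
        have h9 : θ (K + L - k) ≤ 2 / 64 ^ (L + 1) := by
          refine (hθ _).2.trans ?_
          gcongr
          · norm_num
          · omega
        rw [← add_mul, add_sub_cancel, abs_of_nonneg (mul_nonneg (by linarith) h8)] at h7
        have h10 : ((t : ℝ) - D) * θ (K + L - k) ≤ δ * (2 / 64 ^ (L + 1)) :=
          mul_le_mul (by linarith) h9 h8 hδ0.le
        have h11 : δ * (2 / 64 ^ (L + 1)) = 1 / (48 * 64 ^ 3) := by
          rw [hδ]
          field_simp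
          norm_num
        linarith
      · norm_num
      · norm_num
    · unfold w
      rw [if_pos (hD1.trans h1)]
      have h3 : δ ≤ 64 ^ (K + L + 2) := by
        rw [hδ]
        exact (div_le_self (by positivity) (by norm_num)).trans (pow_le_pow_right₀ (by norm_num) (by omega))
      have h4 : (0 : ℝ) < t := by
        have : 0 < t := lt_of_lt_of_le (by positivity) (hD1.trans h1)
        exact_mod_cast this
      gcongr
      linarith
  have h1 := (ENNReal.sum_le_tsum (Finset.Icc D (D + ⌊δ⌋₊))).trans (hΦ (K + L + 1))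
  rw [← ENNReal.ofReal_sum_of_nonneg fun t _ => mul_nonneg (h0 _ _) (w_nonneg _ _), ENNReal.ofReal_le_one] at h1
  have h2 := (card_nsmul_le_sum _ _ _ hlow).trans h1
  rw [Nat.card_Icc, show D + ⌊δ⌋₊ + 1 - D = ⌊δ⌋₊ + 1 by omega, nsmul_eq_mul] at h2
  have h3 : δ ≤ ((⌊δ⌋₊ + 1 : ℕ) : ℝ) := by
    push_cast
    exact (Nat.lt_floor_add_one δ).le
  have h4 := (mul_le_mul_of_nonneg_right h3 (by positivity)).trans h2
  have h5 : δ * (4096 ^ (2 * b) / 4096 ^ (K + 1) * (64 ^ (K + L + 1) / (2 * 64 ^ (K + L + 2)) ^ 2)) =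
      64 ^ (4 * b) / (6 * 64 ^ (3 * (K + 1) + 5)) := by
    rw [hδ, show (4096 : ℝ) = 64 ^ 2 by norm_num, ← pow_mul, ← pow_mul]
    field_simp
    ring
  rw [h5, div_le_one (by positivity)] at h4
  have h6 : (64 : ℝ) ^ (4 * b) ≤ 64 ^ (3 * (K + 1) + 6) := by
    refine h4.trans ?_
    rw [pow_succ (64 : ℝ) (3 * (K + 1) + 5), mul_comm]
    gcongr
    norm_num
  exact (pow_le_pow_iff_right₀ (by norm_num)).1 h6

end Crest.Agent.R113.Greedy
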