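import Crest.Agent.R113.Defs

/-! Row 113: bounded measurable functions, multiplication and composition operators. -/

set_option autoImplicit false

namespace Crest.Agent.R113

open MeasureTheory Filter
open scoped ComplexConjugate

section Bd
variable {X Y 𝕜 : Type*} [MeasurableSpace X] [MeasurableSpace Y] [RCLike 𝕜]

lemma Bd.of_le {E : Type*} [MeasurableSpace E] [Norm E] {a : X → E} (h : Measurable a) {C : ℝ}
    (hC : ∀ x, ‖a x‖ ≤ C) : Bd a := ⟨h, C, hC⟩

lemma Bd.of_abs {a : X → ℝ} (h : Measurable a) {C : ℝ} (hC : ∀ x, |a x| ≤ C) : Bd a := ⟨h, C, hC⟩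

lemma Bd.exists_abs {a : X → ℝ} (h : Bd a) : ∃ C : ℝ, 0 ≤ C ∧ ∀ x, |a x| ≤ C := by
  obtain ⟨C, hC⟩ := h.2
  exact ⟨max C 0, le_max_right _ _, fun x => (hC x).trans (le_max_left _ _)⟩

lemma Bd.comp {E : Type*} [MeasurableSpace E] [Norm E] {a : Y → E} (h : Bd a) {f : X → Y}
    (hf : Measurable f) : Bd fun x => a (f x) :=
  ⟨h.1.comp hf, h.2.imp fun _ hC x => hC (f x)⟩

lemma Bd.const (c : 𝕜) : Bd fun _ : X => c := ⟨measurable_const, ‖c‖, fun _ => le_rfl⟩

lemma Bd.add {a b : X → 𝕜} (ha : Bd a) (hb : Bd b) : Bd fun x => a x + b x := by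
  obtain ⟨C, hC⟩ := ha.2
  obtain ⟨D, hD⟩ := hb.2
  exact ⟨ha.1.add hb.1, C + D, fun x => (norm_add_le _ _).trans (add_le_add (hC x) (hD x))⟩

lemma Bd.neg {a : X → 𝕜} (ha : Bd a) : Bd fun x => -a x :=
  ⟨ha.1.neg, ha.2.imp fun _ hC x => by rw [norm_neg]; exact hC x⟩

lemma Bd.sub {a b : X → 𝕜} (ha : Bd a) (hb : Bd b) : Bd fun x => a x - b x := by
  simpa only [sub_eq_add_neg] using ha.add hb.neg

lemma Bd.mul {a b : X → 𝕜} (ha : Bd a) (hb : Bd b) : Bd fun x => a x * b x := by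
  obtain ⟨C, hC⟩ := ha.2
  obtain ⟨D, hD⟩ := hb.2
  refine ⟨ha.1.mul hb.1, C * D, fun x => ?_⟩
  rw [norm_mul]
  exact mul_le_mul (hC x) (hD x) (norm_nonneg _) ((norm_nonneg _).trans (hC x))

lemma Bd.add_smul {a b : X → ℝ} (ha : Bd a) (hb : Bd b) (s : ℝ) : Bd (a + s • b) :=
  ha.add ((Bd.const s).mul hb)

lemma Bd.sum {ι : Type*} (s : Finset ι) {a : ι → X → 𝕜} (ha : ∀ i ∈ s, Bd (a i)) :
    Bd fun x => ∑ i ∈ s, a i x := by
  classical
  induction s using Finset.induction_on with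
  | empty => simpa using Bd.const (X := X) (0 : 𝕜)
  | insert i s hi ih =>
    simp only [Finset.sum_insert hi]
    exact (ha i (by simp)).add (ih fun j hj => ha j (by simp [hj]))

lemma Bd.prod {ι : Type*} (s : Finset ι) {a : ι → X → 𝕜} (ha : ∀ i ∈ s, Bd (a i)) :
    Bd fun x => ∏ i ∈ s, a i x := by
  classical
  induction s using Finset.induction_on with
  | empty => simpa using Bd.const (X := X) (1 : 𝕜)
  | insert i s hi ih =>
    simp only [Finset.prod_insert hi]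
    exact (ha i (by simp)).mul (ih fun j hj => ha j (by simp [hj]))

lemma Bd.ofReal {a : X → ℝ} (ha : Bd a) : Bd fun x => (a x : ℂ) :=
  ⟨Complex.measurable_ofReal.comp ha.1, ha.2.imp fun _ hC x => by simpa using hC x⟩

lemma Bd.conj {a : X → ℂ} (ha : Bd a) : Bd fun x => conj (a x) :=
  ⟨Complex.continuous_conj.measurable.comp ha.1, ha.2.imp fun _ hC x => by simpa using hC x⟩

lemma Bd.exp {a : X → ℝ} (ha : Bd a) : Bd fun x => Real.exp (a x) := by
  obtain ⟨C, hC⟩ := ha.2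
  refine ⟨Real.measurable_exp.comp ha.1, Real.exp C, fun x => ?_⟩
  rw [Real.norm_of_nonneg (Real.exp_pos _).le]
  exact Real.exp_le_exp.2 ((le_abs_self _).trans (hC x))

lemma Bd.indicator {a : X → 𝕜} (ha : Bd a) {s : Set X} (hs : MeasurableSet s) :
    Bd (s.indicator a) :=
  ⟨ha.1.indicator hs, ha.2.imp fun _ hC x => (norm_indicator_le_norm_self _ _).trans (hC x)⟩

lemma Bd.integrable {a : X → 𝕜} (ha : Bd a) (ν : Measure X) [IsFiniteMeasure ν] :
    Integrable a ν :=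
  Integrable.of_bound ha.1.aestronglyMeasurable ha.2.choose (ae_of_all _ ha.2.choose_spec)

lemma Kern.bd {a : T} (K : Kern a) : Bd K.φ :=
  Bd.of_abs K.meas (C := 1) fun x => abs_le.2 ⟨by linarith [K.nonneg x], K.le_one x⟩

end Bd

section Ops
variable {X : Type*} [MeasurableSpace X] {ν : Measure X}

lemma mulOp_apply {a : X → ℂ} (ha : Bd a) (g : H2 ν) :
    mulOp ν a g =ᵐ[ν] fun x => a x * g x := by
  rw [mulOp, dif_pos ha]
  filter_upwards [(ContinuousLinearMap.mul ℂ ℂ).coeFn_holder (r := 2)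
    ((ha.memLp_top ν).toLp a) g, (ha.memLp_top ν).coeFn_toLp] with x h1 h2
  rw [ContinuousLinearMap.holderL_apply_apply, h1, h2]; rfl

lemma mulOp_of_not {a : X → ℂ} (ha : ¬Bd a) : mulOp ν a = 0 := by rw [mulOp, dif_neg ha]

lemma cmpOp_apply {f : X → X} (hf : MeasurePreserving f ν ν) (g : H2 ν) :
    cmpOp hf g =ᵐ[ν] fun x => g (f x) :=
  Lp.coeFn_compMeasurePreserving g hf

lemma mulOp_congr {a b : X → ℂ} (ha : Bd a) (hb : Bd b) (h : a =ᵐ[ν] b) :
    mulOp ν a = mulOp ν b := by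
  ext1 g
  refine Lp.ext ?_
  filter_upwards [mulOp_apply ha g, mulOp_apply hb g, h] with x h1 h2 h3
  rw [h1, h2, h3]

lemma mulOp_mul {a b : X → ℂ} (ha : Bd a) (hb : Bd b) :
    mulOp ν (fun x => a x * b x) = mulOp ν a * mulOp ν b := by
  ext1 g
  refine Lp.ext ?_
  filter_upwards [mulOp_apply (ha.mul hb) g, mulOp_apply hb g,
    mulOp_apply ha (mulOp ν b g)] with x h1 h2 h3
  rw [h1, mul_apply_eq_comp, h3, h2, mul_assoc]

lemma mulOp_add {a b : X → ℂ} (ha : Bd a) (hb : Bd b) :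
    mulOp ν (fun x => a x + b x) = mulOp ν a + mulOp ν b := by
  ext1 g
  refine Lp.ext ?_
  filter_upwards [mulOp_apply (ha.add hb) g, mulOp_apply hb g, mulOp_apply ha g,
    Lp.coeFn_add (mulOp ν a g) (mulOp ν b g)] with x h1 h2 h3 h4
  rw [h1, add_apply, h4, Pi.add_apply, h2, h3, add_mul]

lemma mulOp_sub {a b : X → ℂ} (ha : Bd a) (hb : Bd b) :
    mulOp ν (fun x => a x - b x) = mulOp ν a - mulOp ν b := by
  ext1 g
  refine Lp.ext ?_
  filter_upwards [mulOp_apply (ha.sub hb) g, mulOp_apply hb g, mulOp_apply ha g,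
    Lp.coeFn_sub (mulOp ν a g) (mulOp ν b g)] with x h1 h2 h3 h4
  rw [h1, sub_apply, h4, Pi.sub_apply, h2, h3, sub_mul]

lemma mulOp_smul (c : ℂ) {a : X → ℂ} (ha : Bd a) :
    mulOp ν (fun x => c * a x) = c • mulOp ν a := by
  ext1 g
  refine Lp.ext ?_
  filter_upwards [mulOp_apply ((Bd.const c).mul ha) g, mulOp_apply ha g,
    Lp.coeFn_smul c (mulOp ν a g)] with x h1 h2 h3
  rw [h1, smul_apply, h3, Pi.smul_apply, h2, smul_eq_mul, mul_assoc]

lemma mulOp_const (c : ℂ) : mulOp ν (fun _ => c) = c • 1 := by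
  ext1 g
  refine Lp.ext ?_
  filter_upwards [mulOp_apply (Bd.const (X := X) c) g, Lp.coeFn_smul c g] with x h1 h2
  rw [h1, smul_apply, one_apply_eq_self, h2, Pi.smul_apply,
    smul_eq_mul]

lemma mulOp_star {a : X → ℂ} (ha : Bd a) : mulOp ν (fun x => conj (a x)) = star (mulOp ν a) := by
  rw [ContinuousLinearMap.star_eq_adjoint, ContinuousLinearMap.eq_adjoint_iff]
  intro f g
  rw [L2.inner_def, L2.inner_def]
  refine integral_congr_ae ?_
  filter_upwards [mulOp_apply ha.conj f, mulOp_apply ha g] with x h1 h2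
  rw [h1, h2]
  simp only [RCLike.inner_apply, map_mul, Complex.conj_conj]
  ring

lemma norm_mulOp_le {a : X → ℂ} (ha : Bd a) {C : ℝ} (hC : 0 ≤ C) (h : ∀ᵐ x ∂ν, ‖a x‖ ≤ C) :
    ‖mulOp ν a‖ ≤ C := by
  refine ContinuousLinearMap.opNorm_le_bound _ hC fun g => ?_
  refine Lp.norm_le_mul_norm_of_ae_le_mul ?_
  filter_upwards [mulOp_apply ha g, h] with x h1 h2
  rw [h1, norm_mul]
  exact mul_le_mul_of_nonneg_right h2 (norm_nonneg _)

lemma cmpOp_mul {f g : X → X} (hf : MeasurePreserving f ν ν) (hg : MeasurePreserving g ν ν) :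
    cmpOp hf * cmpOp hg = cmpOp (hg.comp hf) := by
  ext1 u
  refine Lp.ext ?_
  filter_upwards [cmpOp_apply hf (cmpOp hg u), cmpOp_apply (hg.comp hf) u,
    hf.quasiMeasurePreserving.ae (cmpOp_apply hg u)] with x h1 h2 h3
  rw [mul_apply_eq_comp, h1, h2, h3]; rfl

lemma cmpOp_congr {f g : X → X} (hf : MeasurePreserving f ν ν) (hg : MeasurePreserving g ν ν)
    (h : f =ᵐ[ν] g) : cmpOp hf = cmpOp hg := by
  ext1 u
  refine Lp.ext ?_
  filter_upwards [cmpOp_apply hf u, cmpOp_apply hg u, h] with x h1 h2 h3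
  rw [h1, h2, h3]

lemma cmpOp_eq_one {f : X → X} (hf : MeasurePreserving f ν ν) (h : ∀ᵐ x ∂ν, f x = x) :
    cmpOp hf = 1 := by
  ext1 u
  refine Lp.ext ?_
  filter_upwards [cmpOp_apply hf u, h] with x h1 h2
  rw [h1, h2, one_apply_eq_self]

lemma cmpOp_mul_mulOp {f : X → X} (hf : MeasurePreserving f ν ν) {a : X → ℂ} (ha : Bd a) :
    cmpOp hf * mulOp ν a = mulOp ν (fun x => a (f x)) * cmpOp hf := by
  ext1 u
  refine Lp.ext ?_
  filter_upwards [cmpOp_apply hf (mulOp ν a u), cmpOp_apply hf u,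
    hf.quasiMeasurePreserving.ae (mulOp_apply ha u),
    mulOp_apply (ha.comp hf.measurable) (cmpOp hf u)] with x h1 h2 h3 h4
  rw [mul_apply_eq_comp, mul_apply_eq_comp, h1, h4, h3, h2]

/-- An isometry with a right inverse: the adjoint is the inverse. -/
lemma star_cmpOp {f g : X → X} (hf : MeasurePreserving f ν ν) (hg : MeasurePreserving g ν ν)
    (h : cmpOp hf * cmpOp hg = 1) : star (cmpOp hf) = cmpOp hg := by
  have h1 : star (cmpOp hf) * cmpOp hf = 1 := by
    rw [ContinuousLinearMap.star_eq_adjoint]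
    ext1 u
    refine ext_inner_right ℂ fun v => ?_
    rw [mul_apply_eq_comp, ContinuousLinearMap.adjoint_inner_left,
      one_apply_eq_self]
    exact (Lp.compMeasurePreservingₗᵢ ℂ f hf).inner_map_map u v
  calc star (cmpOp hf) = star (cmpOp hf) * (cmpOp hf * cmpOp hg) := by rw [h, mul_one]
    _ = cmpOp hg := by rw [← mul_assoc, h1, one_mul]

end Ops

end Crest.Agent.R113
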