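import Crest.Agent.R113.Hit

/-! Row 113: the exceptional set and the weight off it, for `poinc_one`. -/

set_option autoImplicit false

namespace Crest.Agent.R113

open MeasureTheory Finset

variable {a : T} {W : ℕ → ℕ → ℝ → ℝ}

/-- Points whose first `u` steps meet `Z m` or a barrier of level `> 2 m`. -/
def Design.exc (d : Design a W) (m u : ℕ) : Set T :=
  ⋃ v ∈ range u, (fun x => x + v • a) ⁻¹' (d.Z m ∪ ⋃ j, ⋃ _ : 2 * m + 1 ≤ j, d.B j)

lemma Design.measurableSet_exc (d : Design a W) (m u : ℕ) : MeasurableSet (d.exc m u) :=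
  Finset.measurableSet_biUnion _ fun _ _ => measurable_add_const _ ((d.Z_meas m).union
    (MeasurableSet.iUnion fun j => MeasurableSet.iUnion fun _ => d.meas j))

lemma Design.measure_exc (d : Design a W) {m u : ℕ} (hu : u ≤ d.N m) :
    2 * ((2 ^ (m + 1) : ℕ) : ℝ) * volume.real (d.exc m u) ≤ 1000 / 2 ^ m := by
  have h1 : volume.real (d.exc m u) ≤ u * (1 / (64 ^ m) ^ 2 + 1 / (8 * 64 ^ (2 * m + 1))) := by
    refine (measureReal_biUnion_finset_le _ _).trans ?_
    refine (Finset.sum_le_card_nsmul _ _ (1 / (64 ^ m) ^ 2 + 1 / (8 * 64 ^ (2 * m + 1)) : ℝ)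
      fun v _ => ?_).trans_eq (by rw [card_range, nsmul_eq_mul])
    rw [measureReal_def, measure_preimage_add_right, ← measureReal_def]
    exact (measureReal_union_le _ _).trans
      (add_le_add (d.Z_le m) (d.toBars.measure_tail (2 * m + 1)))
  have h2 : (u : ℝ) ≤ 128 * 64 ^ m := by
    exact_mod_cast hu.trans ((d.N_le m).trans (d.Λ_le m))
  have h3 : (2 : ℝ) ^ m * 2 ^ m ≤ 64 ^ m := by
    rw [← mul_pow]; exact pow_le_pow_left₀ (by norm_num) (by norm_num) m
  have h4 : volume.real (d.exc m u) ≤ 129 / 64 ^ m := by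
    refine h1.trans ((mul_le_mul_of_nonneg_right h2 (by positivity)).trans ?_)
    rw [show (64 : ℝ) ^ (2 * m + 1) = (64 ^ m) ^ 2 * 64 by ring]
    have : (0 : ℝ) < 64 ^ m := by positivity
    generalize (64 : ℝ) ^ m = t at this
    field_simp
    norm_num
  have h5 : (0 : ℝ) < 2 ^ m := by positivity
  refine (mul_le_mul_of_nonneg_left h4 (by positivity)).trans ?_
  push_cast
  rw [pow_succ, mul_div_assoc', div_le_div_iff₀ (by positivity) h5]
  nlinarith

lemma Design.bd_F (d : Design a W) : Bd d.F :=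
  Bd.of_abs d.F_cont.measurable (C := 1) fun x => abs_le.2 ⟨by linarith [d.F_nonneg x], d.F_le x⟩

lemma Design.wt_eq (d : Design a W) {m u : ℕ} (hu : u ≤ d.N m) (h : T → ℝ) {x : T}
    (hx : x ∉ d.exc m u) :
    wt a d.F h u x = Real.exp (-(∑ v ∈ range u, d.G m (x + v • a)) -
      ∑ j ∈ Icc m (2 * m), d.c j * hit a (d.B j) u x + (h (x + u • a) - h x)) := by
  have h1 : ∀ v ∈ range u, d.F (x + v • a) = Real.exp (-(d.G m (x + v • a) +
      ∑ j ∈ Icc m (2 * m), (d.B j).indicator (fun _ => d.c j) (x + v • a))) := by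
    intro v hv
    have h2 : x + v • a ∉ d.Z m ∪ ⋃ j, ⋃ _ : 2 * m + 1 ≤ j, d.B j := fun h2 =>
      hx (Set.mem_biUnion (Finset.mem_coe.2 hv) h2)
    refine d.F_eq m (2 * m) _ (fun h3 => h2 (Or.inl h3)) fun j _ hj h3 => h2 (Or.inr ?_)
    exact Set.mem_iUnion₂.2 ⟨j, hj, h3⟩
  rw [wt, Finset.prod_congr rfl h1, ← Real.exp_sum, ← Real.exp_add]
  congr 2
  rw [Finset.sum_neg_distrib, Finset.sum_add_distrib, Finset.sum_comm, neg_add, sub_eq_add_neg]
  congr 2
  refine Finset.sum_congr rfl fun j hj => ?_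
  exact sum_indicator_eq_hit (d.gap j) (hu.trans (d.N_mono (Finset.mem_Icc.1 hj).1)) _ _

lemma Design.wt_mono (d : Design a W) {i m u : ℕ} (him : i ≤ m) (hu : u ≤ d.N m) {h : T → ℝ}
    (hW : ∀ x, |h x| ≤ W i (d.Λ i) (d.Γ i)) {x y : T} (hx : x ∉ d.exc m u) (hy : y ∉ d.exc m u)
    (hlt : rk a d.B m u y < rk a d.B m u x) : 2 * wt a d.F h u x ≤ wt a d.F h u y := by
  obtain ⟨j, hj, h1⟩ := lex (fun j => hit_le (a := a) (d.B j) u x)
    (fun j => hit_le (a := a) (d.B j) u y) d.c_nonneg hlt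
  have hmj := (Finset.mem_Icc.1 hj).1
  have h2 := d.cost i j (him.trans hmj)
  have h3 : 0 ≤ ∑ v ∈ range u, d.G m (x + v • a) := Finset.sum_nonneg fun v _ => d.G_nonneg m _
  have hΓ : 0 ≤ d.Γ m := (d.G_nonneg m 0).trans (d.G_le m 0)
  have h4 : ∑ v ∈ range u, d.G m (y + v • a) ≤ d.N j * d.Γ j := by
    refine (Finset.sum_le_card_nsmul _ _ (d.Γ m) fun v _ => d.G_le m _).trans ?_
    rw [card_range, nsmul_eq_mul]
    exact mul_le_mul (by exact_mod_cast hu.trans (d.N_mono hmj)) (d.Γ_mono hmj) hΓ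
      (Nat.cast_nonneg _)
  rw [d.wt_eq hu h hx, d.wt_eq hu h hy]
  have h5 : (2 : ℝ) ≤ Real.exp 1 := by linarith [Real.add_one_le_exp (1 : ℝ)]
  refine (mul_le_mul_of_nonneg_right h5 (Real.exp_pos _).le).trans ?_
  rw [← Real.exp_add, Real.exp_le_exp]
  linarith [abs_le.1 (hW x), abs_le.1 (hW y), abs_le.1 (hW (x + u • a)),
    abs_le.1 (hW (y + u • a))]

end Crest.Agent.R113
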