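import Crest.Agent.R113.Level
import Crest.Agent.R113.Hit
import Crest.Agent.R113.PoincAux

/-! Row 113: the Poincaré inequality (no long range off-diagonal mass). -/

set_option autoImplicit false

namespace Crest.Agent.R113

open MeasureTheory Finset

variable {a : T} {W : ℕ → ℕ → ℝ → ℝ}

/-- `Fam.level` with `r = rk a B m u`, `L = 2 ^ (m + 1)`,
`Z = {x | ∃ v < u, x + v a ∈ Z m ∪ ⋃_{j ≥ 2 m + 1} B j}`, of measure at most
`128 · 64^m (64^{-2m} + 64^{-2m-1} / 8)`. Off `Z`, `F_eq` (with `M = 2 m`) and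
`sum_indicator_eq_hit` give `wt x = exp (-∑_v G m (x + v a) - ∑_j c j hit_j x + h (x + u a) - h x)`;
`lex`, `cost i j`, `N_mono`, `Γ_mono`, `exp 1 ≥ 2` give `hmono`. Finally `abs_hit_le_abs_rk`. -/
theorem poinc_one (d : Design a W) (𝓕 : Fam a d.F) {i m u : ℕ} (him : i ≤ m) (hu : u ≤ d.N m)
    {h : T → ℝ} (hh : Bd h) (hW : ∀ x, |h x| ≤ W i (d.Λ i) (d.Γ i)) :
    (∫ p, |(hit a (d.B m) u p.1 : ℝ) - hit a (d.B m) u (p.1 + p.2 • a)| ∂(𝓕.K h).ν) / 4 ≤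
      (∫ x, (𝓕.K h).φ x * ((rk a d.B m u x : ℝ) - rk a d.B m u (x - u • a))) + 1000 / 2 ^ m := by
  have h1 := 𝓕.level d.bd_F hh u (measurable_rk d.meas m u) (rk_le d.B m u)
    (d.measurableSet_exc m u) (fun x hx => by rw [d.wt_eq hu h hx]; exact Real.exp_pos _)
    fun x y hx hy hlt => d.wt_mono him hu hW hx hy hlt
  have hb : Bd fun x => (rk a d.B m u x : ℝ) :=
    Bd.of_abs (measurable_from_top.comp (measurable_rk d.meas m u)) (C := 2 ^ (m + 1)) fun x => by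
      rw [Nat.abs_cast]; exact_mod_cast rk_le d.B m u x
  have hm : Measurable fun p : T × ℤ => p.1 + p.2 • a :=
    measurable_fst.add ((measurable_of_countable fun k : ℤ => k • a).comp measurable_snd)
  have := (𝓕.K h).fin
  have h2 : ∫ p, |(hit a (d.B m) u p.1 : ℝ) - hit a (d.B m) u (p.1 + p.2 • a)| ∂(𝓕.K h).ν ≤
      ∫ p, |(rk a d.B m u p.1 : ℝ) - rk a d.B m u (p.1 + p.2 • a)| ∂(𝓕.K h).ν :=
    integral_mono_of_nonneg (ae_of_all _ fun p => abs_nonneg _)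
      (((hb.comp measurable_fst).sub (hb.comp hm)).integrable _).abs
      (ae_of_all _ fun p => abs_hit_le_abs_rk d.B m u _ _)
  linarith [d.measure_exc hu]

lemma pb_dz_nonneg (x : ℝ) : 0 ≤ dz x := abs_nonneg _

lemma pb_bd_dz (β : ℝ) : Bd fun p : T × ℤ => dz (p.2 * β) :=
  Bd.of_abs ((measurable_of_countable fun D : ℤ => dz (D * β)).comp measurable_snd) (C := 1 / 2)
    fun p => by rw [dz, abs_abs]; exact abs_sub_round _

lemma pb_meas_shift : Measurable fun p : T × ℤ => p.1 + p.2 • a :=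
  measurable_fst.add ((measurable_of_countable fun D : ℤ => D • a).comp measurable_snd)

lemma pb_bd_hit {B : Set T} (hB : MeasurableSet B) (u : ℕ) : Bd fun x => (hit a B u x : ℝ) :=
  Bd.of_abs ((measurable_of_countable fun k : ℕ => (k : ℝ)).comp (measurable_hit hB u)) (C := 1)
    fun x => by
      rw [Nat.abs_cast]
      exact_mod_cast hit_le B u x

lemma pb_bd_rk {B : ℕ → Set T} (hB : ∀ j, MeasurableSet (B j)) (m u : ℕ) :
    Bd fun x => (rk a B m u x : ℝ) :=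
  Bd.of_abs ((measurable_of_countable fun k : ℕ => (k : ℝ)).comp (measurable_rk hB m u))
    (C := 2 ^ (m + 1)) fun x => by
      rw [Nat.abs_cast]
      exact_mod_cast rk_le B m u x

lemma pb_bd_abs {X : Type*} [MeasurableSpace X] {f : X → ℝ} (hf : Bd f) : Bd fun x => |f x| :=
  ⟨hf.1.abs, hf.2.imp fun _ hC x => by simpa using hC x⟩

lemma pb_mass_le (K : Kern a) : K.ν.real Set.univ ≤ 1 := by
  rw [K.mass]
  calc ∫ x, K.φ x ≤ ∫ _x : T, (1 : ℝ) :=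
        integral_mono (K.bd.integrable _) (integrable_const _) K.le_one
    _ = 1 := by simp

lemma pb_center (K : Kern a) (t : ℝ) {r : T → ℝ} (hr : Bd r) (c : T) :
    ∫ x, K.φ x * (r x - r (x - c)) = ∫ x, (K.φ x - t) * (r x - r (x - c)) := by
  have hr' : Bd fun x => r (x - c) := hr.comp (measurable_sub_const c)
  have h0 : ∫ x, (r x - r (x - c)) = 0 := by
    rw [integral_sub (hr.integrable _) (hr'.integrable _), integral_sub_right_eq_self r c, sub_self]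
  simp only [sub_mul (K.φ _) t]
  rw [integral_sub ((K.bd.mul (hr.sub hr')).integrable _)
    (((Bd.const t).mul (hr.sub hr')).integrable _), integral_const_mul, h0, mul_zero, sub_zero]

lemma pb_level (d : Design a W) (𝓕 : Fam a d.F) {i m : ℕ} (him : i ≤ m)
    {h : T → ℝ} (hh : Bd h) (hW : ∀ x, |h x| ≤ W i (d.Λ i) (d.Γ i)) :
    ∫ p, dz (p.2 * d.α m) ∂(𝓕.K h).ν ≤ 4 * ((∑ u ∈ Icc 1 (d.N m),
      ∫ x, ((𝓕.K h).φ x - 𝓕.t) * ((rk a d.B m u x : ℝ) - rk a d.B m u (x - u • a))) / d.N m) +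
        4001 / 2 ^ m := by
  have := (𝓕.K h).fin
  have hN : (0 : ℝ) < d.N m := by
    have := d.N_ge m
    have h2 : 0 < 16 * 64 ^ m := by positivity
    exact_mod_cast lt_of_lt_of_le h2 this
  have hb : ∀ u, Bd fun p : T × ℤ =>
      |(hit a (d.B m) u p.1 : ℝ) - hit a (d.B m) u (p.1 + p.2 • a)| := fun u =>
    pb_bd_abs (((pb_bd_hit (d.meas m) u).comp measurable_fst).sub
      ((pb_bd_hit (d.meas m) u).comp pb_meas_shift))
  have h1 : ∫ p, (d.N m : ℝ) * (dz (p.2 * d.α m) - 1 / 2 ^ m) ∂(𝓕.K h).ν ≤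
      ∫ p, ∑ u ∈ Icc 1 (d.N m), |(hit a (d.B m) u p.1 : ℝ) - hit a (d.B m) u (p.1 + p.2 • a)|
        ∂(𝓕.K h).ν :=
    integral_mono (((Bd.const _).mul ((pb_bd_dz _).sub (Bd.const _))).integrable _)
      ((Bd.sum _ fun u _ => hb u).integrable _) fun p => d.sep m p.1 p.2
  rw [integral_const_mul, integral_sub ((pb_bd_dz _).integrable _) (integrable_const _),
    integral_const, integral_finsetSum _ fun u _ => (hb u).integrable _, smul_eq_mul] at h1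
  have h2 : ∑ u ∈ Icc 1 (d.N m), ∫ p, |(hit a (d.B m) u p.1 : ℝ) -
      hit a (d.B m) u (p.1 + p.2 • a)| ∂(𝓕.K h).ν ≤ ∑ u ∈ Icc 1 (d.N m), (4 * (∫ x,
        ((𝓕.K h).φ x - 𝓕.t) * ((rk a d.B m u x : ℝ) - rk a d.B m u (x - u • a))) +
          4000 / 2 ^ m) := by
    refine sum_le_sum fun u hu => ?_
    have h3 := poinc_one d 𝓕 him (mem_Icc.1 hu).2 hh hW
    rw [pb_center _ 𝓕.t (pb_bd_rk d.meas m u)] at h3
    have h4 : (4000 : ℝ) / 2 ^ m = 4 * (1000 / 2 ^ m) := by ring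
    linarith
  rw [sum_add_distrib, ← mul_sum, sum_const, Nat.card_Icc, add_tsub_cancel_right,
    nsmul_eq_mul] at h2
  have h3 : (𝓕.K h).ν.real Set.univ * (1 / 2 ^ m) ≤ 1 / 2 ^ m :=
    mul_le_of_le_one_left (by positivity) (pb_mass_le _)
  have h4 := mul_le_mul_of_nonneg_left h3 hN.le
  refine le_of_mul_le_mul_left ?_ hN
  rw [mul_add, ← mul_assoc, mul_comm (d.N m : ℝ) 4, mul_assoc, mul_div_cancel₀ _ hN.ne']
  have h5 : (d.N m : ℝ) * (4001 / 2 ^ m) = d.N m * (4000 / 2 ^ m) + d.N m * (1 / 2 ^ m) := by ring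
  rw [mul_sub] at h1
  linarith

lemma pb_geom (i K : ℕ) : ∑ k ∈ range K, (1 : ℝ) / 2 ^ (i + k) ≤ 2 / 2 ^ i := by
  have h : ∑ k ∈ range K, (1 : ℝ) / 2 ^ (i + k) = 2 / 2 ^ i - 2 / 2 ^ (i + K) := by
    induction K with
    | zero => simp
    | succ K ih =>
      rw [sum_range_succ, ih, ← add_assoc, pow_succ]
      field_simp
      ring
  rw [h]
  have : (0 : ℝ) ≤ 2 / 2 ^ (i + K) := by positivity
  linarith

lemma pb_bd_sum (α : ℕ → ℝ) (i K : ℕ) :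
    Bd fun p : T × ℤ => ∑ k ∈ range K, dz (p.2 * α (i + k)) / (k + 1) :=
  Bd.sum _ fun k _ => by
    simpa only [div_eq_mul_inv] using (pb_bd_dz (α (i + k))).mul (Bd.const ((k : ℝ) + 1)⁻¹)

/-- Average `poinc_one` over `u ∈ [1, N m]`, weight level `m = i + k` by `1 / (k + 1)`, sum over
`k < K`. Left side: `sep` (mass of `ν` is at most `1`). Right side: replace `φ` by `φ - t`
(`∫ (rk x - rk (x - u a)) = 0`) and use `l2`; `∑_k 2^{-(i+k)} ≤ 2 · 2^{-i}`. -/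
theorem poinc_sum (d : Design a W) : ∃ C : ℝ, 0 ≤ C ∧ ∀ (𝓕 : Fam a d.F) (i K : ℕ) (h : T → ℝ),
    Bd h → (∀ x, |h x| ≤ W i (d.Λ i) (d.Γ i)) →
    ∫ p, ∑ k ∈ range K, dz (p.2 * d.α (i + k)) / (k + 1) ∂(𝓕.K h).ν ≤
      C * (√(∫ x, ((𝓕.K h).φ x - 𝓕.t) ^ 2) + 1 / 2 ^ i) := by
  obtain ⟨C, hC, hl⟩ := d.l2
  refine ⟨4 * C + 8002, by positivity, fun 𝓕 i K h hh hW => ?_⟩
  have := (𝓕.K h).fin
  have h1 := hl i K (fun x => (𝓕.K h).φ x - 𝓕.t) ((𝓕.K h).meas.sub_const _) fun x =>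
    abs_le.2 ⟨by linarith [(𝓕.K h).nonneg x, 𝓕.t_lt], by linarith [(𝓕.K h).le_one x, 𝓕.t_pos]⟩
  rw [integral_finsetSum _ fun k _ => ((pb_bd_dz _).integrable _).div_const _]
  have h2 : ∑ k ∈ range K, ∫ p, dz (p.2 * d.α (i + k)) / (k + 1) ∂(𝓕.K h).ν ≤
      ∑ k ∈ range K, (4 * ((∑ u ∈ Icc 1 (d.N (i + k)), ∫ x, ((𝓕.K h).φ x - 𝓕.t) *
        ((rk a d.B (i + k) u x : ℝ) - rk a d.B (i + k) u (x - u • a))) /
          (d.N (i + k) * (k + 1))) + 4001 * (1 / 2 ^ (i + k))) := by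
    refine sum_le_sum fun k _ => ?_
    have hk : (0 : ℝ) < k + 1 := by positivity
    rw [integral_div]
    refine (div_le_div_of_nonneg_right (pb_level d 𝓕 (Nat.le_add_right i k) hh hW) hk.le).trans ?_
    rw [add_div, mul_div_assoc, div_div]
    refine add_le_add le_rfl ?_
    rw [mul_one_div]
    exact div_le_self (by positivity) (by linarith [(Nat.cast_nonneg k : (0 : ℝ) ≤ k)])
  rw [sum_add_distrib, ← mul_sum, ← mul_sum] at h2
  have h3 := pb_geom i K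
  have h4 : 0 ≤ √(∫ x, ((𝓕.K h).φ x - 𝓕.t) ^ 2) := Real.sqrt_nonneg _
  have h5 : C / 2 ^ i = C * (1 / 2 ^ i) := by ring
  have h6 : (2 : ℝ) / 2 ^ i = 2 * (1 / 2 ^ i) := by ring
  nlinarith

/-- Markov's inequality for `poinc_sum`; the sets `{κ ≤ ∑_{k<K} …}` increase with `K` and cover
`{ε 64^i ≤ |D|}` by `nr` (`tendsto_measure_iUnion_atTop`). -/
theorem poinc (d : Design a W) {ε : ℝ} (hε : 0 < ε) : ∃ C : ℝ, 0 ≤ C ∧
    ∀ (𝓕 : Fam a d.F) (i : ℕ) (h : T → ℝ), Bd h → (∀ x, |h x| ≤ W i (d.Λ i) (d.Γ i)) →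
      (𝓕.K h).ν.real {p | ε * 64 ^ i ≤ |(p.2 : ℝ)|} ≤
        C * (√(∫ x, ((𝓕.K h).φ x - 𝓕.t) ^ 2) + 1 / 2 ^ i) := by
  obtain ⟨C, hC, hs⟩ := poinc_sum d
  obtain ⟨κ, hκ, hn⟩ := d.nr ε hε
  refine ⟨C / κ, by positivity, fun 𝓕 i h hh hW => ?_⟩
  have := (𝓕.K h).fin
  let S : ℕ → Set (T × ℤ) := fun K =>
    {p | κ ≤ ∑ k ∈ range K, dz (p.2 * d.α (i + k)) / (k + 1)}
  have hnn : ∀ (p : T × ℤ) (k : ℕ), 0 ≤ dz (p.2 * d.α (i + k)) / (k + 1) := fun p k =>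
    div_nonneg (pb_dz_nonneg _) (by positivity)
  have hmono : Monotone S := fun K K' hK p hp =>
    le_trans hp (sum_le_sum_of_subset_of_nonneg (range_mono hK) fun k _ _ => hnn p k)
  have hS : ∀ K, (𝓕.K h).ν.real (S K) ≤
      C / κ * (√(∫ x, ((𝓕.K h).φ x - 𝓕.t) ^ 2) + 1 / 2 ^ i) := fun K => by
    have h1 := mul_meas_ge_le_integral_of_nonneg (μ := (𝓕.K h).ν)
      (ae_of_all _ fun p => sum_nonneg fun k _ => hnn p k) ((pb_bd_sum d.α i K).integrable _) κ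
    rw [div_mul_eq_mul_div, le_div_iff₀ hκ, mul_comm]
    exact h1.trans (hs 𝓕 i K h hh hW)
  have hlim := (ENNReal.tendsto_toReal (measure_ne_top (𝓕.K h).ν _)).comp
    (tendsto_measure_iUnion_atTop (μ := (𝓕.K h).ν) hmono)
  refine le_trans (measureReal_mono (fun p hp => ?_)) (le_of_tendsto' hlim hS)
  exact Set.mem_iUnion.2 (hn i p.2 hp)

end Crest.Agent.R113
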