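import Crest.Agent.R113.Defs

/-! Row 113: the projection `Pj p E` onto the range of `E p` (abstract tracial layer). -/

set_option autoImplicit false

namespace Crest.Agent.R113

open Crest.Agent.R95

variable {A : Type*} [CStarAlgebra A]

lemma Gm_sa {p E : A} (hp : IsStarProjection p) (hE : IsSelfAdjoint E) :
    IsSelfAdjoint (Gm p E) := by
  simp [IsSelfAdjoint, Gm, star_mul, hp.isSelfAdjoint.star_eq, hE.star_eq, mul_assoc]

/-- `Gm p E ≥ c > 0`: with the spectral order, `E * E ≥ c • 1` for some `0 < c ≤ 1` because `E` is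
selfadjoint and invertible, so `p (E E) p + (1 - p) ≥ c p + c (1 - p) = c`. -/
lemma Gm_spec {p E : A} (hp : IsStarProjection p) (hE : IsSelfAdjoint E) (hu : IsUnit E) :
    ∀ x ∈ spectrum ℝ (Gm p E), 0 < x := by
  rcases subsingleton_or_nontrivial A with hA | hA
  · simp
  let _ := CStarAlgebra.spectralOrder A
  have _ := CStarAlgebra.spectralOrderedRing A
  have hEE : IsSelfAdjoint (E * E) := by simp [IsSelfAdjoint, star_mul, hE.star_eq]
  have hpos : ∀ x ∈ spectrum ℝ (E * E), 0 < x := by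
    intro x hx
    have h0 : 0 ≤ x := spectrum_star_mul_self_nonneg (b := E) x (by rwa [hE.star_eq])
    refine lt_of_le_of_ne h0 ?_
    rintro rfl
    exact (spectrum.zero_notMem_iff ℝ).mpr (hu.mul hu) hx
  obtain ⟨r, hr, hle⟩ := (CFC.exists_pos_algebraMap_le_iff hEE).2 hpos
  refine (CFC.exists_pos_algebraMap_le_iff (Gm_sa hp hE)).1 ⟨min r 1, lt_min hr one_pos, ?_⟩
  have h1 : 0 ≤ p * (E * E - algebraMap ℝ A r) * p := by
    have := star_left_conjugate_nonneg (sub_nonneg.2 hle) p
    rwa [hp.isSelfAdjoint.star_eq] at this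
  have h2 : 0 ≤ (r - min r 1) • p := smul_nonneg (sub_nonneg.2 (min_le_left _ _)) hp.nonneg
  have h3 : 0 ≤ (1 - min r 1) • (1 - p) :=
    smul_nonneg (sub_nonneg.2 (min_le_right _ _)) hp.one_sub.nonneg
  have h4 : Gm p E - algebraMap ℝ A (min r 1) =
      p * (E * E - algebraMap ℝ A r) * p + (r - min r 1) • p + (1 - min r 1) • (1 - p) := by
    simp only [Gm, Algebra.algebraMap_eq_smul_one, mul_sub, sub_mul, mul_smul_comm,
      smul_mul_assoc, mul_one, hp.isIdempotentElem.eq]
    module
  rw [← sub_nonneg, h4]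
  exact add_nonneg (add_nonneg h1 h2) h3

lemma Gm_isUnit {p E : A} (hp : IsStarProjection p) (hE : IsSelfAdjoint E) (hu : IsUnit E) :
    IsUnit (Gm p E) := by
  by_contra h
  exact lt_irrefl _ (Gm_spec hp hE hu 0 ((spectrum.zero_mem_iff ℝ).2 h))

lemma Gm_mul {p E : A} (hp : IsStarProjection p) : Gm p E * p = p * (E * E) * p := by
  rw [Gm, add_mul, hp.one_sub_mul_self, add_zero, mul_assoc _ p p, hp.isIdempotentElem.eq]

lemma mul_Gm {p E : A} (hp : IsStarProjection p) : p * Gm p E = p * (E * E) * p := by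
  rw [Gm, mul_add, hp.mul_one_sub_self, add_zero, ← mul_assoc, ← mul_assoc,
    hp.isIdempotentElem.eq]

/-- `p * Gm = Gm * p = p (E E) p`. -/
lemma Gm_comm {p E : A} (hp : IsStarProjection p) : Commute p (Gm p E) := by
  exact (mul_Gm hp).trans (Gm_mul hp).symm

lemma Gm_inv_comm {p E : A} (hp : IsStarProjection p) : Commute p (Ring.inverse (Gm p E)) := by
  by_cases h : IsUnit (Gm p E)
  · obtain ⟨u, hu⟩ := h
    have h1 : Commute p (u : A) := hu ▸ Gm_comm hp
    rw [← hu, Ring.inverse_unit]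
    exact h1.units_inv_right
  · rw [Ring.inverse_non_unit _ h]
    exact Commute.zero_right _

lemma Pj_mul_aux {p E : A} (hp : IsStarProjection p) (hE : IsSelfAdjoint E) (hu : IsUnit E) :
    Pj p E * (E * p) = E * p := by
  calc Pj p E * (E * p) = E * p * (Ring.inverse (Gm p E) * (p * (E * E) * p)) := by
        simp only [Pj, mul_assoc]
    _ = E * p := by
        rw [← Gm_mul hp, ← mul_assoc (Ring.inverse _),
          Ring.inverse_mul_cancel _ (Gm_isUnit hp hE hu), one_mul, mul_assoc,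
          hp.isIdempotentElem.eq]

lemma Pj_proj {p E : A} (hp : IsStarProjection p) (hE : IsSelfAdjoint E) (hu : IsUnit E) :
    IsStarProjection (Pj p E) := by
  refine ⟨?_, ?_⟩
  · calc Pj p E * Pj p E = Pj p E * (E * p) * Ring.inverse (Gm p E) * p * E := by
          simp only [Pj, mul_assoc]
      _ = Pj p E := by rw [Pj_mul_aux hp hE hu, Pj]
  · simp [IsSelfAdjoint, Pj, star_mul, hp.isSelfAdjoint.star_eq, hE.star_eq, mul_assoc,
      (Gm_sa hp hE).ringInverse.star_eq]

lemma Pj_mul {p E : A} (hp : IsStarProjection p) (hE : IsSelfAdjoint E) (hu : IsUnit E) :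
    Pj p E * (E * p) = E * p := by
  exact Pj_mul_aux hp hE hu

/-- If `p` is invariant under `X` and `S E = E X` then `Pj p E` is invariant under `S`. -/
lemma Pj_inv {p E X S : A} (hp : IsStarProjection p) (hE : IsSelfAdjoint E) (hu : IsUnit E)
    (hX : p * (X * p) = X * p) (hS : S * E = E * X) :
    Pj p E * (S * Pj p E) = S * Pj p E := by
  have h1 : S * Pj p E = E * p * (X * p * Ring.inverse (Gm p E) * p * E) := by
    calc S * Pj p E = S * E * p * Ring.inverse (Gm p E) * p * E := by simp only [Pj, mul_assoc]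
      _ = E * (X * p) * Ring.inverse (Gm p E) * p * E := by rw [hS, mul_assoc E X p]
      _ = E * (p * (X * p)) * Ring.inverse (Gm p E) * p * E := by rw [hX]
      _ = _ := by simp only [mul_assoc]
  rw [h1, ← mul_assoc (Pj p E), Pj_mul hp hE hu]

/-- Invariance passes to powers. -/
lemma inv_pow {q S : A} (hq : q * q = q) (h : q * (S * q) = S * q) (n : ℕ) :
    q * (S ^ n * q) = S ^ n * q := by
  induction n with
  | zero => rw [pow_zero, one_mul, hq]
  | succ n ih =>
    rw [pow_succ, mul_assoc (S ^ n), ← h, ← mul_assoc (S ^ n), ← mul_assoc q, ih]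

variable [Tr A]

lemma tr_add (x y : A) : tr (x + y) = tr x + tr y := by simp [tr]
lemma tr_sub (x y : A) : tr (x - y) = tr x - tr y := by simp [tr]
lemma tr_smul (c : ℝ) (x : A) : tr (c • x) = c * tr x := by simp [tr]
lemma tr_csmul (c : ℝ) (x : A) : tr ((c : ℂ) • x) = c * tr x := by simp [tr]
lemma tr_comm (x y : A) : tr (x * y) = tr (y * x) := by rw [tr, tr, τ_comm]
lemma tr_star (x : A) : tr (star x) = tr x := by simp [tr, τ_star]
lemma tr_one : tr (1 : A) = 1 := by simp [tr, τ_one]
lemma n2_sq_tr (x : A) : n2 x ^ 2 = tr (star x * x) := n2_sq x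

/-- `tr` as a continuous real-linear map. -/
noncomputable def trL (A : Type*) [CStarAlgebra A] [Tr A] : A →L[ℝ] ℝ :=
  Complex.reCLM.comp ((τ : A →L[ℂ] ℂ).restrictScalars ℝ)

@[simp] lemma trL_apply (x : A) : trL A x = tr x := rfl

lemma tr_Pj {p E : A} (hp : IsStarProjection p) (hE : IsSelfAdjoint E) (hu : IsUnit E) :
    tr (Pj p E) = tr p := by
  have h1 : Pj p E = E * p * (p * Ring.inverse (Gm p E) * p * E) := by
    rw [Pj]
    simp only [← mul_assoc]
    rw [mul_assoc E p p, hp.isIdempotentElem.eq]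
  have h2 : p * Ring.inverse (Gm p E) * p * E * (E * p) = p := by
    calc _ = p * (Ring.inverse (Gm p E) * (p * (E * E) * p)) := by simp only [mul_assoc]
      _ = p := by
        rw [← Gm_mul hp, ← mul_assoc (Ring.inverse _),
          Ring.inverse_mul_cancel _ (Gm_isUnit hp hE hu), one_mul, hp.isIdempotentElem.eq]
  rw [h1, tr_comm, h2]

/-- Faithfulness (`n2_sq_proj` for `p` and for `1 - p`). -/
lemma tr_proj_pos {p : A} (hp : IsStarProjection p) (h0 : p ≠ 0) : 0 < tr p := by
  rw [tr, ← n2_sq_proj hp]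
  exact pow_pos (lt_of_le_of_ne (n2_nonneg _) fun h => h0 (n2_eq_zero.1 h.symm)) 2

lemma tr_proj_lt {p : A} (hp : IsStarProjection p) (h1 : p ≠ 1) : tr p < 1 := by
  have h := tr_proj_pos hp.one_sub (sub_ne_zero.2 h1.symm)
  rw [tr_sub, tr_one] at h
  linarith

end Crest.Agent.R113
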