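import Crest.Agent.R113.Convex
import Crest.Agent.R113.Op

/-! Row 113: elementary facts on kernels and families. -/

set_option autoImplicit false

namespace Crest.Agent.R113

open MeasureTheory Finset

variable {a : T} {F : T → ℝ}

lemma sa_mass (K : Kern a) : K.ν.real Set.univ = ∫ x, K.φ x := by
  simpa using K.fst (fun _ => 1) (Bd.const 1)

lemma sa_ind_le (K : Kern a) {Z : Set T} (hZ : MeasurableSet Z) :
    ∫ x, Z.indicator (fun _ => (1 : ℝ)) x * K.φ x ≤ volume.real Z := by
  have hb : Bd (Z.indicator fun _ => (1 : ℝ)) := (Bd.const 1).indicator hZ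
  have h1 : ∫ x, Z.indicator (fun _ => (1 : ℝ)) x = volume.real Z := by
    rw [integral_indicator hZ]; simp
  rw [← h1]
  exact integral_mono ((hb.mul K.bd).integrable _) (hb.integrable _) fun x =>
    mul_le_of_le_one_right (Set.indicator_nonneg (fun _ _ => zero_le_one) x) (K.le_one x)

lemma sa_real_eq {X : Type*} [MeasurableSpace X] (ν : Measure X) {f : X → T} (hf : Measurable f)
    {Z : Set T} (hZ : MeasurableSet Z) :
    ν.real {p | f p ∈ Z} = ∫ p, Z.indicator (fun _ => (1 : ℝ)) (f p) ∂ν := by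
  have h1 : (fun p => Z.indicator (fun _ => (1 : ℝ)) (f p)) =
      (f ⁻¹' Z).indicator fun _ => (1 : ℝ) := rfl
  rw [h1, integral_indicator (hf hZ)]
  simp
  rfl

lemma sa_meas (a : T) : Measurable fun p : T × ℤ => p.1 + p.2 • a :=
  measurable_from_prod_countable_left fun k => measurable_add_const (k • a)

lemma sa_fst_le (K : Kern a) {Z : Set T} (hZ : MeasurableSet Z) :
    K.ν.real {p | p.1 ∈ Z} ≤ volume.real Z := by
  rw [sa_real_eq K.ν measurable_fst hZ, K.fst _ ((Bd.const 1).indicator hZ)]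
  exact sa_ind_le K hZ

lemma sa_snd_le (K : Kern a) {Z : Set T} (hZ : MeasurableSet Z) :
    K.ν.real {p | p.1 + p.2 • a ∈ Z} ≤ volume.real Z := by
  rw [sa_real_eq K.ν (sa_meas a) hZ, K.snd _ ((Bd.const 1).indicator hZ)]
  exact sa_ind_le K hZ

lemma sa_tangent (𝓕 : Fam a F) {h d : T → ℝ} (hh : Bd h) (hd : Bd d) :
    𝓕.Ψ h + ∫ x, d x * (𝓕.K h).φ x ≤ 𝓕.Ψ (h + d) := by
  simpa using cvx_taylor (𝓕.d1 h d hh hd) (𝓕.d2 h d hh hd) (m := 0) zero_le_one
    fun s _ => integral_nonneg fun p => sq_nonneg _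

lemma sa_mono (𝓕 : Fam a F) (hF : Measurable F) {h : T → ℝ} (hh : Bd h) {B Z : Set T}
    (hB : MeasurableSet B) (hZ : MeasurableSet Z) {κ : ℝ} (hκ : 0 < κ)
    (h1 : ∀ x, x ∉ B → x ∉ Z → wt a F h 1 x = κ) (h2 : ∀ x, x ∉ Z → wt a F h 1 x ≤ κ) :
    ∫ x in Bᶜ, max ((𝓕.K h).φ x - (𝓕.K h).φ (x + a)) 0 ≤ 2 * volume.real Z := by
  classical
  set φ := (𝓕.K h).φ with hφ
  have hφb : Bd φ := (𝓕.K h).bd
  have hφa : Bd fun x => φ (x + a) := hφb.comp (measurable_add_const a)
  have hw : Measurable (wt a F h 1) := by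
    unfold wt
    exact (Finset.measurable_prod _ fun j _ => hF.comp (measurable_add_const _)).mul
      (((hh.1.comp (measurable_add_const _)).sub hh.1).exp)
  set C : Set T := ((Bᶜ ∩ Zᶜ) ∩ {x | φ (x + a) < φ x}) ∪ {x | κ < wt a F h 1 x} with hC
  have hCm : MeasurableSet C := ((hB.compl.inter hZ.compl).inter
    (measurableSet_lt hφa.1 hφb.1)).union (measurableSet_lt measurable_const hw)
  have hg := 𝓕.gap h hh 1 Cᶜ ∅ κ hCm.compl MeasurableSet.empty (Set.empty_subset _) hκ
    (fun x hx => by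
      rcases not_not.1 hx with ⟨⟨e1, e2⟩, _⟩ | e
      · exact (h1 x e1 e2).ge
      · exact le_of_lt e)
    (fun x hx => le_of_not_gt fun e => hx (Or.inr e)) (fun x hx => hx.elim)
  simp only [compl_compl, Set.mem_empty_iff_false, false_and, Set.ofPred_false, measureReal_empty,
    zero_div, add_zero, one_smul, ← hφ] at hg
  have hgb : Bd fun x => φ x - φ (x + a) := hφb.sub hφa
  have hmb : Bd fun x => max (φ x - φ (x + a)) 0 :=
    ⟨hgb.1.max measurable_const, hgb.2.imp fun M hM x => le_trans (by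
      rw [Real.norm_eq_abs, Real.norm_eq_abs, abs_of_nonneg (le_max_right _ _)]
      exact max_le (le_abs_self _) (abs_nonneg _)) (hM x)⟩
  have hi : Bd (Z.indicator fun _ => (2 : ℝ)) := (Bd.const 2).indicator hZ
  have e1 : ∫ x, Bᶜ.indicator (fun x => max (φ x - φ (x + a)) 0) x ≤
      ∫ x, (C.indicator (fun x => φ x - φ (x + a)) x + Z.indicator (fun _ => (2 : ℝ)) x) := by
    refine integral_mono ((hmb.indicator hB.compl).integrable _)
      (((hgb.indicator hCm).add hi).integrable _) fun x => ?_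
    have b1 := (𝓕.K h).nonneg x
    have b2 := (𝓕.K h).le_one x
    have b3 := (𝓕.K h).nonneg (x + a)
    have b4 := (𝓕.K h).le_one (x + a)
    rw [← hφ] at b1 b2 b3 b4
    show Bᶜ.indicator _ x ≤ C.indicator _ x + Z.indicator _ x
    rw [Set.indicator_apply, Set.indicator_apply, Set.indicator_apply]
    by_cases hxZ : x ∈ Z
    · rw [if_pos hxZ]
      have : max (φ x - φ (x + a)) 0 ≤ 1 := max_le (by linarith) zero_le_one
      split_ifs <;> linarith
    · rw [if_neg hxZ, add_zero]
      have hxC : x ∈ C ↔ x ∉ B ∧ φ (x + a) < φ x :=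
        ⟨fun e => e.elim (fun e => ⟨e.1.1, e.2⟩) fun e => absurd (h2 x hxZ) (not_le.2 e),
          fun e => Or.inl ⟨⟨e.1, hxZ⟩, e.2⟩⟩
      simp only [hxC, Set.mem_compl_iff]
      by_cases hxB : x ∈ B
      · simp [hxB]
      · by_cases hlt : φ (x + a) < φ x
        · simp [hxB, hlt, hlt.le]
        · simp [hxB, hlt, not_lt.1 hlt]
  rw [integral_indicator hB.compl, integral_add ((hgb.indicator hCm).integrable _)
    (hi.integrable _), integral_indicator hCm, integral_indicator hZ,
    integral_sub (hφb.integrable _) (hφa.integrable _)] at e1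
  simp only [integral_const, MeasurableSet.univ, measureReal_restrict_apply, Set.univ_inter,
    smul_eq_mul] at e1
  linarith

lemma sa_short (K : Kern a) {B : Set T} (hB : MeasurableSet B) {d : T → ℝ} (hd : Bd d)
    (h : ∀ x, x ∉ B → d (x + a) = d x - 1) (D₀ : ℕ) :
    K.ν.real {p | p.2 ≠ 0 ∧ |p.2| ≤ D₀} ≤
      (∫ p, (d (p.1 + p.2 • a) - d p.1) ^ 2 ∂K.ν) + (2 * D₀ + 1) * volume.real B := by
  have := K.fin
  have hdb : Bd fun p : T × ℤ => d (p.1 + p.2 • a) - d p.1 :=
    (hd.comp (sa_meas a)).sub (hd.comp measurable_fst)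
  have hint : Integrable (fun p : T × ℤ => (d (p.1 + p.2 • a) - d p.1) ^ 2) K.ν := by
    simpa only [sq] using (hdb.mul hdb).integrable K.ν
  have hsub : {p : T × ℤ | p.2 ≠ 0 ∧ |p.2| ≤ D₀} ⊆ {p | 1 ≤ (d (p.1 + p.2 • a) - d p.1) ^ 2} ∪
      ⋃ j ∈ Icc (-(D₀ : ℤ)) D₀, {p : T × ℤ | p.1 ∈ (fun x => x + j • a) ⁻¹' B} := by
    rintro ⟨x, D⟩ ⟨hD0, hD⟩
    by_contra hcon
    simp only [Set.mem_union, Set.mem_ofPred_eq, Set.mem_iUnion, Set.mem_preimage, not_or,
      not_exists, mem_Icc] at hcon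
    obtain ⟨hc1, hc2⟩ := hcon
    have key : ∀ D : ℤ, |D| ≤ D₀ → d (x + D • a) = d x - D := by
      intro D
      induction D using Int.induction_on with
      | zero => intro _; simp
      | succ n ih =>
        intro hn
        rw [abs_le] at hn
        rw [add_zsmul, one_zsmul, ← add_assoc, h _ (hc2 n ⟨by omega, by omega⟩),
          ih (abs_le.2 ⟨by omega, by omega⟩)]
        push_cast; ring
      | pred n ih =>
        intro hn
        rw [abs_le] at hn
        have e1 := h _ (hc2 (-(n : ℤ) - 1) ⟨by omega, by omega⟩)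
        rw [add_assoc, ← add_one_zsmul, sub_add_cancel, ih (abs_le.2 ⟨by omega, by omega⟩)] at e1
        push_cast at e1 ⊢
        linarith
    refine hc1 ?_
    rw [key D hD, sub_sub_cancel_left, neg_sq]
    have : 1 ≤ D ^ 2 := by
      have h0 : D ≠ 0 := hD0
      have : 0 < D ^ 2 := by positivity
      omega
    exact_mod_cast this
  refine le_trans (measureReal_mono hsub) (le_trans (measureReal_union_le _ _) (add_le_add ?_ ?_))
  · simpa using mul_meas_ge_le_integral_of_nonneg (ae_of_all _ fun p => sq_nonneg _) hint 1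
  · refine le_trans (measureReal_biUnion_finset_le _ _) ?_
    refine le_trans (sum_le_sum (g := fun _ => volume.real B) fun j _ =>
      (sa_fst_le K (measurable_add_const _ hB)).trans (le_of_eq ?_)) (le_of_eq ?_)
    · rw [measureReal_def, measure_preimage_add_right, measureReal_def]
    · rw [sum_const, Int.card_Icc, nsmul_eq_mul,
        show ((D₀ : ℤ) + 1 - -(D₀ : ℤ)).toNat = 2 * D₀ + 1 by omega]
      push_cast; rfl

end Crest.Agent.R113
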