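import Crest.Agent.R113.Convex
import Crest.Agent.R113.Block

/-! Row 113: proof of `deform` (with `Kern.mass` and `Fam.tangent` as hypotheses). -/

set_option autoImplicit false

namespace Crest.Agent.R113

open MeasureTheory Finset

/-- bounded measurable functions on the circle -/
def sbBd : Submodule ℝ (T → ℝ) where
  carrier := {f | Bd f}
  add_mem' := fun ha hb => Bd.add ha hb
  zero_mem' := Bd.const (0 : ℝ)
  smul_mem' := fun s _ hf => (Bd.const s).mul hf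

/-- pairing with a bounded function -/
noncomputable def sbPair (ψ : T → ℝ) (hψ : Bd ψ) : sbBd →ₗ[ℝ] ℝ where
  toFun d := ∫ x, d.1 x * ψ x
  map_add' d e := by
    rw [← integral_add ((Bd.mul d.2 hψ).integrable _) ((Bd.mul e.2 hψ).integrable _)]
    exact integral_congr_ae (ae_of_all _ fun x => add_mul _ _ _)
  map_smul' s d := by
    rw [RingHom.id_apply, smul_eq_mul, ← integral_const_mul]
    exact integral_congr_ae (ae_of_all _ fun x => mul_assoc _ _ _)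

lemma sb_abs_int {f ψ : T → ℝ} {C : ℝ} (hf : ∀ x, |f x| ≤ C) (hψ : ∀ x, |ψ x| ≤ 1) :
    |∫ x, f x * ψ x| ≤ C := by
  have := norm_integral_le_of_norm_le_const (μ := (volume : Measure T)) (f := fun x => f x * ψ x)
    (C := C) (ae_of_all _ fun x => by
      rw [Real.norm_eq_abs, abs_mul]
      nlinarith [hf x, hψ x, abs_nonneg (f x), abs_nonneg (ψ x)])
  simpa using this

lemma sb_params {δ : ℝ} (hδ : 0 < δ) (Λ Γ : ℝ) (hΛ : 0 < Λ) :
    ∃ V : ℕ, 2 ≤ V ∧ 2 * Γ ≤ δ * V ∧ 2 * Λ / (V - 1) ≤ (δ ^ 2 / 24) ^ 2 := by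
  obtain ⟨V, hV⟩ := exists_nat_ge (max 2 (max (2 * Γ / δ) (2 * Λ / (δ ^ 2 / 24) ^ 2 + 1)))
  have h1 : (2 : ℝ) ≤ V := (le_max_left _ _).trans hV
  have h2 : 2 * Γ / δ ≤ V := ((le_max_left _ _).trans (le_max_right _ _)).trans hV
  have h3 : 2 * Λ / (δ ^ 2 / 24) ^ 2 + 1 ≤ V := ((le_max_right _ _).trans (le_max_right _ _)).trans hV
  refine ⟨V, by exact_mod_cast h1, by rwa [div_le_iff₀' hδ] at h2, ?_⟩
  rw [div_le_iff₀' (by linarith), ← div_le_iff₀ (by positivity)]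
  linarith

theorem deform_aux (hmass : ∀ (a : T) (K : Kern a), K.ν.real Set.univ = ∫ x, K.φ x)
    (htan : ∀ (a : T) (F : T → ℝ) (𝓕 : Fam a F) (h d : T → ℝ), Bd h → Bd d →
      𝓕.Ψ h + ∫ x, d x * (𝓕.K h).φ x ≤ 𝓕.Ψ (h + d))
    {δ : ℝ} (hδ : 0 < δ) (hδ1 : δ ≤ 1) {Λ : ℕ} (hΛ : 1 ≤ Λ) {Γ : ℝ} (hΓ : 0 ≤ Γ) :
    ∃ Ω : ℝ, 0 ≤ Ω ∧ ∀ (a : T) (F : T → ℝ) (𝓕 : Fam a F) (B : Set T) (G : T → ℝ),
      MeasurableSet B → Ret a B Λ → Measurable G → (∀ x, |G x| ≤ Γ) →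
      ∃ (h d : T → ℝ) (v : ℝ), Bd h ∧ Bd d ∧ (∀ x, |h x| ≤ Ω) ∧ 0 ≤ v ∧ v ≤ Ω ∧
        (∀ x, x ∉ B → h (x + a) = h x + G x - v) ∧ (∀ x, x ∉ B → d (x + a) = d x - 1) ∧
        ∫ p, (d (p.1 + p.2 • a) - d p.1) ^ 2 ∂(𝓕.K h).ν ≤ δ ∧
        ∫ y in start a B, |bsum a B (fun x => (𝓕.K h).φ x - (𝓕.K 0).φ x) y| ≤ 2 * δ ∧
        ∫ x, (dep a B x : ℝ) * ((𝓕.K h).φ x - (𝓕.K 0).φ x) ≤ 2 * δ * Λ := by
  have hΛ1 : (1 : ℝ) ≤ Λ := by exact_mod_cast hΛ
  obtain ⟨V, hV, hVΓ, hVΔ⟩ := sb_params hδ Λ Γ (by linarith)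
  have hV2 : (2 : ℝ) ≤ V := by exact_mod_cast hV
  set Δ : ℝ := 2 * Λ / (V - 1) with hΔ
  set η : ℝ := 2 * Λ * Γ with hη
  have hη0 : 0 ≤ η := by positivity
  set R : ℝ := (η + 2 * V * Λ) / δ with hR
  have hRδ : R * δ = η + 2 * V * Λ := by rw [hR]; field_simp
  have hVΛ : 2 ≤ (V : ℝ) * Λ := by nlinarith
  have hR0 : 0 < R := div_pos (by nlinarith) hδ
  have hR4 : 4 ≤ R := by nlinarith
  have hsq : √Δ ≤ δ ^ 2 / 24 := Real.sqrt_le_iff.2 ⟨by positivity, hVΔ⟩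
  have hδ2 : δ ^ 2 ≤ δ := by nlinarith
  have hΔδ : 3 * Δ ≤ δ := by nlinarith
  refine ⟨Λ * Γ + 2 * V * Λ + R, by positivity, fun a F 𝓕 B G hB hRet hG hGΓ => ?_⟩
  obtain ⟨H, hHm, hHb, hH⟩ := exists_untwist hB hRet hG hGΓ
  have hHB : Bd H := Bd.of_abs hHm hHb
  have hφ1 : ∀ h x, |(𝓕.K h).φ x| ≤ 1 := fun h x =>
    abs_le.2 ⟨by linarith [(𝓕.K h).nonneg x], (𝓕.K h).le_one x⟩
  have hψ1 : ∀ h x, |(𝓕.K h).φ x - (𝓕.K 0).φ x| ≤ 1 := fun h x =>
    abs_le.2 ⟨by linarith [(𝓕.K h).nonneg x, (𝓕.K 0).le_one x],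
      by linarith [(𝓕.K h).le_one x, (𝓕.K 0).nonneg x]⟩
  have hψ : ∀ h, Bd fun x => (𝓕.K h).φ x - (𝓕.K 0).φ x := fun h => (𝓕.K h).bd.sub (𝓕.K 0).bd
  have hHk : ∀ k : sbBd, Bd (H + k.1) := fun k => hHB.add k.2
  let P₀ := sbPair _ (𝓕.K 0).bd
  let D : sbBd → sbBd →ₗ[ℝ] ℝ := fun k => sbPair _ (hψ (H + k.1))
  have hD : ∀ k d : sbBd, D k d = (∫ x, d.1 x * (𝓕.K (H + k.1)).φ x) - P₀ d := fun k d => by
    show ∫ x, d.1 x * _ = _ - ∫ x, d.1 x * _
    rw [← integral_sub ((Bd.mul d.2 (𝓕.K _).bd).integrable _) ((Bd.mul d.2 (𝓕.K _).bd).integrable _)]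
    exact integral_congr_ae (ae_of_all _ fun x => mul_sub _ _ _)
  have hline : ∀ (k d : sbBd) (s : ℝ), H + (k + s • d).1 = H + k.1 + s • d.1 := fun k d s => by
    rw [add_assoc]; rfl
  let S : Set sbBd := {b | (∀ x, |b.1 x| ≤ R) ∧ ∀ x, x ∉ B → b.1 (x + a) = b.1 x}
  let e : sbBd := ⟨fun x => (dep a B x : ℝ), bd_dep hB hRet⟩
  have he : ∀ x, |e.1 x| ≤ Λ := fun x => by
    show |(dep a B x : ℝ)| ≤ Λ
    rw [Nat.abs_cast]; exact_mod_cast (dep_lt hRet x).le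
  obtain ⟨v, hv1, hv2, b, hb, b₁, hb₁, b₂, hb₂, hQ, hDS, hDe⟩ :=
    convex_step (fun k : sbBd => 𝓕.Ψ (H + k.1) - P₀ k) D
      (fun k d => ∫ p, (d.1 (p.1 + p.2 • a) - d.1 p.1) ^ 2 ∂(𝓕.K (H + k.1)).ν)
      (fun k d s => by
        simp only [hD, hline, map_add, map_smul, smul_eq_mul]
        exact (𝓕.d1 _ _ (hHk k) d.2 s).sub
          (((hasDerivAt_id s).mul_const (P₀ d)).const_add (P₀ k) |>.congr_deriv (one_mul _)))
      (fun k d s => by
        simp only [hD, hline]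
        exact (𝓕.d2 _ _ (hHk k) d.2 s).sub_const _)
      (fun k d => integral_nonneg fun p => sq_nonneg _) (S := S)
      (fun b hb b' hb' s t hs ht hst => ⟨fun x => by
          show |s * b.1 x + t * b'.1 x| ≤ R
          refine (abs_add_le _ _).trans ?_
          rw [abs_mul, abs_mul, abs_of_nonneg hs, abs_of_nonneg ht]
          have h1 := mul_le_mul_of_nonneg_left (hb.1 x) hs
          have h2 := mul_le_mul_of_nonneg_left (hb'.1 x) ht
          have h3 : s * R + t * R = R := by rw [← add_mul, hst, one_mul]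
          linarith,
        fun x hx => by
          show s * b.1 (x + a) + t * b'.1 (x + a) = s * b.1 x + t * b'.1 x
          rw [hb.2 x hx, hb'.2 x hx]⟩)
      ⟨fun x => by simpa using hR0.le, fun _ _ => rfl⟩ e (Λ := Λ) (R := R) (η := η) (Δ := Δ) hV
      (by linarith) hR0 hΔ (by nlinarith) (fun k => sb_abs_int he (hψ1 _))
      (fun k b hb b' hb' => by
        haveI := (𝓕.K (H + k.1)).fin
        have h1 := norm_integral_le_of_norm_le_const (μ := (𝓕.K (H + k.1)).ν)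
          (f := fun p => ((b - b').1 (p.1 + p.2 • a) - (b - b').1 p.1) ^ 2) (C := 16 * R ^ 2)
          (ae_of_all _ fun p => by
            rw [Real.norm_eq_abs, abs_of_nonneg (sq_nonneg _)]
            show (b.1 _ - b'.1 _ - (b.1 _ - b'.1 _)) ^ 2 ≤ _
            have h1 := abs_le.1 (hb.1 (p.1 + p.2 • a))
            have h2 := abs_le.1 (hb'.1 (p.1 + p.2 • a))
            have h3 := abs_le.1 (hb.1 p.1)
            have h4 := abs_le.1 (hb'.1 p.1)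
            rw [show 16 * R ^ 2 = (4 * R) ^ 2 by ring]
            exact sq_le_sq' (by linarith) (by linarith))
        rw [hmass, 𝓕.int _ (hHk k)] at h1
        refine ((le_abs_self _).trans h1).trans ?_
        nlinarith [𝓕.t_lt, sq_nonneg R])
      (fun k => by
        have h1 := htan a F 𝓕 0 (H + k.1) (Bd.const (0 : ℝ)) (hHk k)
        have h2 := htan a F 𝓕 H (fun x => -H x) hHB hHB.neg
        have h3 : H + (fun x => -H x) = 0 := by funext x; simp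
        have h4 : ∫ x, (H + k.1) x * (𝓕.K 0).φ x = P₀ ⟨H, hHB⟩ + P₀ k := by
          rw [← map_add]; rfl
        have h5 := abs_le.1 (sb_abs_int hHb (hφ1 0))
        have h6 := abs_le.1 (sb_abs_int (f := fun x => -H x) (C := Λ * Γ)
          (fun x => by rw [abs_neg]; exact hHb x) (hφ1 H))
        have h7 : P₀ ⟨H, hHB⟩ = ∫ x, H x * (𝓕.K 0).φ x := rfl
        rw [h3] at h2
        rw [zero_add, h4] at h1
        simp only [map_zero, ZeroMemClass.coe_zero, add_zero]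
        linarith [h5.1, h6.1])
  refine ⟨H + (b - v • e).1, ((1 / 2 : ℝ) • (b₁ - b₂) - e).1, v, hHk _, Subtype.prop _,
    fun x => ?_, by linarith, by nlinarith, fun x hx => ?_, fun x hx => ?_, hQ.trans hΔδ, ?_, ?_⟩
  · show |H x + (b.1 x - v * e.1 x)| ≤ _
    have h1 := abs_le.1 (hHb x)
    have h2 := abs_le.1 (hb.1 x)
    have h3 : |v * e.1 x| ≤ 2 * V * Λ := by
      rw [abs_mul, abs_of_nonneg (by linarith)]
      exact mul_le_mul hv2 (he x) (abs_nonneg _) (by linarith)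
    have h4 := abs_le.1 h3
    exact abs_le.2 ⟨by linarith, by linarith⟩
  · show H (x + a) + (b.1 (x + a) - v * (dep a B (x + a) : ℝ)) =
      H x + (b.1 x - v * (dep a B x : ℝ)) + G x - v
    rw [hH x hx, hb.2 x hx, dep_add hRet hx]; push_cast; ring
  · show 1 / 2 * (b₁.1 (x + a) - b₂.1 (x + a)) - (dep a B (x + a) : ℝ) =
      1 / 2 * (b₁.1 x - b₂.1 x) - (dep a B x : ℝ) - 1
    rw [hb₁.2 x hx, hb₂.2 x hx, dep_add hRet hx]; push_cast; ring
  · obtain ⟨σ, hσm, hσ1, hσ, hσi⟩ := exists_sign hB hRet (hψ (H + (b - v • e).1))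
    have h1 := hDS (R • ⟨σ, Bd.of_abs hσm hσ1⟩) ⟨fun x => by
        show |R * σ x| ≤ R
        rw [abs_mul, abs_of_pos hR0]; nlinarith [hσ1 x],
      fun x hx => by
        show R * σ (x + a) = R * σ x
        rw [hσ x hx]⟩
    rw [map_smul, smul_eq_mul] at h1
    have h2 : D (b - v • e) ⟨σ, Bd.of_abs hσm hσ1⟩ = _ := hσi
    rw [h2, ← hRδ] at h1
    refine le_of_mul_le_mul_left ?_ hR0
    nlinarith [mul_le_mul_of_nonneg_left hsq hR0.le]
  · show D (b - v • e) e ≤ _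
    refine le_of_mul_le_mul_left (hDe.trans ?_) (show (0 : ℝ) < V by linarith)
    have h1 : η ≤ δ * V * Λ := by rw [hη]; nlinarith
    have h2 : 8 * R * √Δ ≤ δ / 3 * (η + 2 * V * Λ) := by
      rw [← hRδ]; nlinarith [mul_le_mul_of_nonneg_left hsq hR0.le]
    have h3 : η ≤ V * Λ := h1.trans (by rw [mul_assoc]; nlinarith)
    have h4 : δ / 3 * (η + 2 * V * Λ) ≤ δ * V * Λ := by nlinarith
    nlinarith

end Crest.Agent.R113
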