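import Crest.Agent.R113.Convex
import Crest.Agent.R113.BlockEst
import Crest.Agent.R113.StepAuxA
import Crest.Agent.R113.StepAuxB

/-! Row 113: the deformation step. -/

set_option autoImplicit false

namespace Crest.Agent.R113

open MeasureTheory Finset

variable {a : T} {F : T → ℝ}

lemma Kern.mass (K : Kern a) : K.ν.real Set.univ = ∫ x, K.φ x :=
  sa_mass K

lemma Kern.fst_le (K : Kern a) {Z : Set T} (hZ : MeasurableSet Z) :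
    K.ν.real {p | p.1 ∈ Z} ≤ volume.real Z :=
  sa_fst_le K hZ

lemma Kern.snd_le (K : Kern a) {Z : Set T} (hZ : MeasurableSet Z) :
    K.ν.real {p | p.1 + p.2 • a ∈ Z} ≤ volume.real Z :=
  sa_snd_le K hZ

/-- Convexity of `Ψ` (`d1`, `d2`). -/
lemma Fam.tangent (𝓕 : Fam a F) {h d : T → ℝ} (hh : Bd h) (hd : Bd d) :
    𝓕.Ψ h + ∫ x, d x * (𝓕.K h).φ x ≤ 𝓕.Ψ (h + d) :=
  sa_tangent 𝓕 hh hd

/-- `Fam.gap` with `n = 1`, `E' = ∅`, `Eᶜ = {x ∉ B ∪ Z | φ (x + a) < φ x} ∪ {κ < wt}`; the last set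
lies in `Z`. -/
lemma Fam.mono (𝓕 : Fam a F) (hF : Measurable F) {h : T → ℝ} (hh : Bd h) {B Z : Set T}
    (hB : MeasurableSet B) (hZ : MeasurableSet Z) {κ : ℝ} (hκ : 0 < κ)
    (h1 : ∀ x, x ∉ B → x ∉ Z → wt a F h 1 x = κ) (h2 : ∀ x, x ∉ Z → wt a F h 1 x ≤ κ) :
    ∫ x in Bᶜ, max ((𝓕.K h).φ x - (𝓕.K h).φ (x + a)) 0 ≤ 2 * volume.real Z :=
  sa_mono 𝓕 hF hh hB hZ hκ h1 h2

/-- If no `x + j a`, `|j| ≤ D₀`, is in `B` then `d (x + D a) - d x = -D` for `|D| ≤ D₀`. -/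
lemma Kern.short (K : Kern a) {B : Set T} (hB : MeasurableSet B) {d : T → ℝ} (hd : Bd d)
    (h : ∀ x, x ∉ B → d (x + a) = d x - 1) (D₀ : ℕ) :
    K.ν.real {p | p.2 ≠ 0 ∧ |p.2| ≤ D₀} ≤
      (∫ p, (d (p.1 + p.2 • a) - d p.1) ^ 2 ∂K.ν) + (2 * D₀ + 1) * volume.real B :=
  sa_short K hB hd h D₀

/-- The deformation by `convex_step`: `E` the submodule of `Bd` functions, `H` from
`exists_untwist`, `Φ k = Ψ (H + k) - ∫ k φ₀`, `D k d = ∫ d (φ_{H+k} - φ₀)`,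
`Q k d = ∫ (d (x + D a) - d x)² dν_{H+k}`, `S = {b | |b| ≤ R, b (x + a) = b x off B}`, `e = dep`,
`η = 2 Λ Γ`, `V ≥ 2`, `V ≥ 2 Γ / δ`, `2 Λ / (V - 1) ≤ (δ² / 24)²`, `R = (η + 2 V Λ) / δ`,
`Ω = Λ Γ + 2 V Λ + R`; test with `b' = R • (exists_sign of φ_h - φ₀)`. -/
theorem deform {δ : ℝ} (hδ : 0 < δ) (hδ1 : δ ≤ 1) {Λ : ℕ} (hΛ : 1 ≤ Λ) {Γ : ℝ} (hΓ : 0 ≤ Γ) :
    ∃ Ω : ℝ, 0 ≤ Ω ∧ ∀ (a : T) (F : T → ℝ) (𝓕 : Fam a F) (B : Set T) (G : T → ℝ),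
      MeasurableSet B → Ret a B Λ → Measurable G → (∀ x, |G x| ≤ Γ) →
      ∃ (h d : T → ℝ) (v : ℝ), Bd h ∧ Bd d ∧ (∀ x, |h x| ≤ Ω) ∧ 0 ≤ v ∧ v ≤ Ω ∧
        (∀ x, x ∉ B → h (x + a) = h x + G x - v) ∧ (∀ x, x ∉ B → d (x + a) = d x - 1) ∧
        ∫ p, (d (p.1 + p.2 • a) - d p.1) ^ 2 ∂(𝓕.K h).ν ≤ δ ∧
        ∫ y in start a B, |bsum a B (fun x => (𝓕.K h).φ x - (𝓕.K 0).φ x) y| ≤ 2 * δ ∧
        ∫ x, (dep a B x : ℝ) * ((𝓕.K h).φ x - (𝓕.K 0).φ x) ≤ 2 * δ * Λ :=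
  deform_aux (fun _ K => K.mass) (fun _ _ 𝓕 _ _ hh hd => 𝓕.tangent hh hd) hδ hδ1 hΛ hΓ

/-- `deform`, `Fam.mono` with `κ = exp (-v)`, `cob_bsum`, `cob_dep`, `block_est` with
`l₀ = √δ Λ`, `e₁ = 2 vol Z`, `e₂ = 35 δ`, `e₃ = 20 δ Λ`, `Kern.short`. -/
theorem step {δ : ℝ} (hδ : 0 < δ) (hδ1 : δ ≤ 1) {Λ : ℕ} (hΛ : 1 ≤ Λ) {Γ : ℝ} (hΓ : 0 ≤ Γ) :
    ∃ Ω : ℝ, 0 ≤ Ω ∧ ∀ (a : T) (F : T → ℝ) (𝓕 : Fam a F) (B Z : Set T) (G ψ ζ : T → ℝ),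
      Measurable F → MeasurableSet B → MeasurableSet Z → Ret a B Λ → Measurable G →
      (∀ x, |G x| ≤ Γ) → Λ * volume.real B ≤ 16 → Λ * volume.real Z ≤ δ →
      (∀ x, x ∉ B → x ∉ Z → F x = Real.exp (-G x)) →
      (∀ x ∈ B, x ∉ Z → F x ≤ Real.exp (-(3 * Ω))) → Bd ψ → Bd ζ →
      (∀ x, (𝓕.K 0).φ x - 𝓕.t = ψ x + ζ x - ζ (x + a)) → ∫ x, |ψ x| ≤ δ →
      (∀ x, |ζ x| ≤ δ * Λ) →
      ∃ h : T → ℝ, Bd h ∧ (∀ x, |h x| ≤ Ω) ∧ ∫ x, |(𝓕.K h).φ x - 𝓕.t| ≤ 1000 * √δ ∧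
        ∀ D₀ : ℕ, (𝓕.K h).ν.real {p | p.2 ≠ 0 ∧ |p.2| ≤ D₀} ≤
          δ + (2 * D₀ + 1) * volume.real B := by
  obtain ⟨Ω, hΩ, H⟩ := deform hδ hδ1 hΛ hΓ
  refine ⟨Ω, hΩ, ?_⟩
  intro a F 𝓕 B Z G ψ ζ hF hB hZ hR hG hGΓ hvB hvZ hF1 hF2 hψ hζ hcob hψδ hζδ
  obtain ⟨h, d, v, hh, hd, hhΩ, hv0, hvΩ, hh1, hd1, hQ, hS, hD⟩ := H a F 𝓕 B G hB hR hG hGΓ
  have hΛ' : (1 : ℝ) ≤ Λ := by exact_mod_cast hΛ
  have hwt : ∀ x, wt a F h 1 x = F x * Real.exp (h (x + a) - h x) := fun x => by simp [wt]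
  have hw1 : ∀ x, x ∉ B → x ∉ Z → wt a F h 1 x = Real.exp (-v) := fun x hx hz => by
    rw [hwt, hF1 x hx hz, hh1 x hx, ← Real.exp_add]
    congr 1; ring
  have hw2 : ∀ x, x ∉ Z → wt a F h 1 x ≤ Real.exp (-v) := fun x hz => by
    by_cases hx : x ∈ B
    · rw [hwt]
      calc _ ≤ Real.exp (-(3 * Ω)) * Real.exp (h (x + a) - h x) :=
            mul_le_mul_of_nonneg_right (hF2 x hx hz) (Real.exp_pos _).le
        _ ≤ _ := by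
            rw [← Real.exp_add, Real.exp_le_exp]
            linarith [(abs_le.1 (hhΩ (x + a))).2, (abs_le.1 (hhΩ x)).1]
    · exact (hw1 x hx hz).le
  have h1 := 𝓕.mono hF hh hB hZ (Real.exp_pos (-v)) hw1 hw2
  have bh := (𝓕.K h).bd
  have b0 := (𝓕.K 0).bd
  have bt : Bd fun x => (𝓕.K 0).φ x - 𝓕.t := b0.sub (Bd.const _)
  have hδΛ : 0 ≤ δ * Λ := by positivity
  have h2 : ∫ y in start a B, |bsum a B (fun x => (𝓕.K h).φ x - 𝓕.t) y| ≤ 35 * δ := by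
    have c1 := cob_bsum hB hR hψ hζ hζδ
    simp only [← hcob] at c1
    have i1 := (bd_bsum hB hR (bh.sub b0)).abs.integrable (volume.restrict (start a B))
    have i2 := (bd_bsum hB hR bt).abs.integrable (volume.restrict (start a B))
    have c2 : ∫ y in start a B, |bsum a B (fun x => (𝓕.K h).φ x - 𝓕.t) y| ≤
        ∫ y in start a B, (|bsum a B (fun x => (𝓕.K h).φ x - (𝓕.K 0).φ x) y| +
          |bsum a B (fun x => (𝓕.K 0).φ x - 𝓕.t) y|) := by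
      refine integral_mono ((bd_bsum hB hR (bh.sub (Bd.const _))).abs.integrable _)
        (i1.fun_add i2) fun y => ?_
      refine le_trans (le_of_eq ?_) (abs_add_le _ _)
      simp only [bsum, ← sum_add_distrib, sub_add_sub_cancel]
    rw [integral_add i1 i2] at c2
    nlinarith
  have h3 : ∫ x, (dep a B x : ℝ) * ((𝓕.K h).φ x - 𝓕.t) ≤ 20 * δ * Λ := by
    have c1 := cob_dep hB hR hψ hζ hζδ
    simp only [← hcob] at c1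
    have i1 := ((bd_dep hB hR).mul (bh.sub b0)).integrable volume
    have i2 := ((bd_dep hB hR).mul bt).integrable volume
    have c2 : ∫ x, (dep a B x : ℝ) * ((𝓕.K h).φ x - 𝓕.t) =
        (∫ x, (dep a B x : ℝ) * ((𝓕.K h).φ x - (𝓕.K 0).φ x)) +
          ∫ x, (dep a B x : ℝ) * ((𝓕.K 0).φ x - 𝓕.t) := by
      rw [← integral_add i1 i2]
      simp only [← mul_add, sub_add_sub_cancel]
    have c3 : Λ * ∫ x, |ψ x| ≤ Λ * δ := by gcongr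
    have c4 : δ * Λ * (1 + Λ * volume.real B) ≤ δ * Λ * (1 + 16) := by gcongr
    rw [c2]
    linarith
  refine ⟨h, hh, hhΩ, ?_, fun D₀ => ((𝓕.K h).short hB hd hd1 D₀).trans (by gcongr)⟩
  have hs : 0 < √δ := Real.sqrt_pos.2 hδ
  have hss : √δ * √δ = δ := Real.mul_self_sqrt hδ.le
  have hs1 : √δ ≤ 1 := Real.sqrt_le_one.2 hδ1
  have hδs : δ ≤ √δ := by nlinarith
  refine (block_est hB hR (𝓕.K h).meas (𝓕.K h).nonneg (𝓕.K h).le_one 𝓕.t_pos.le 𝓕.t_lt.le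
    (l₀ := √δ * Λ) (by positivity) h1 h2 h3).trans ?_
  have c1 : √δ * Λ * volume.real B ≤ √δ * 16 := by rw [mul_assoc]; gcongr
  have c2 : 4 / (√δ * Λ) * (20 * δ * Λ + Λ * (35 * δ) / 2 + Λ ^ 2 * (2 * volume.real Z)) ≤
      160 * √δ := by
    rw [div_mul_eq_mul_div, div_le_iff₀ (by positivity)]
    have c3 : (Λ : ℝ) ^ 2 * (2 * volume.real Z) ≤ 2 * (δ * Λ) := by
      calc _ = 2 * (Λ * volume.real Z * Λ) := by ring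
        _ ≤ _ := by gcongr
    have c4 : 160 * √δ * (√δ * Λ) = 160 * (δ * Λ) := by
      calc _ = 160 * (√δ * √δ * Λ) := by ring
        _ = _ := by rw [hss]
    rw [c4]
    linarith
  linarith

end Crest.Agent.R113
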