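import Crest.Agent.R113.Proj
import Crest.Agent.R177.DetFK

/-! Row 113: the derivative of `τ log`. -/

set_option autoImplicit false

namespace Crest.Agent.R113

open Crest.Agent.R95

variable {A : Type*} [CStarAlgebra A] [Tr A]

omit [Tr A] in
lemma isUnit_of_spec_pos {x : A} (h : ∀ y ∈ spectrum ℝ x, 0 < y) : IsUnit x := by
  by_contra hx
  exact lt_irrefl _ (h 0 ((spectrum.zero_mem_iff ℝ).2 hx))

omit [Tr A] in
lemma spec_bounds [Nontrivial A] {x : A} (h : ∀ y ∈ spectrum ℝ x, 0 < y) {C : ℝ}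
    (h1 : ‖x‖ ≤ C) (h2 : ‖Ring.inverse x‖ ≤ C) : ∀ y ∈ spectrum ℝ x, C⁻¹ ≤ y ∧ y ≤ C := by
  intro y hy
  have hp := h y hy
  obtain ⟨u, rfl⟩ := isUnit_of_spec_pos h
  refine ⟨?_, ?_⟩
  · have hi : y⁻¹ ∈ spectrum ℝ ((u⁻¹ : Aˣ) : A) := by
      rw [spectrum.inv₀_mem_inv_iff]; exact hy
    have h3 := spectrum.norm_le_norm_of_mem hi
    rw [Real.norm_of_nonneg (inv_nonneg.mpr hp.le)] at h3
    rw [Ring.inverse_unit] at h2
    exact inv_le_of_inv_le₀ hp (h3.trans h2)
  · have := spectrum.norm_le_norm_of_mem hy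
    rw [Real.norm_of_nonneg hp.le] at this
    exact this.trans h1

/-- Sketch: near `s` the spectra lie in `[C⁻¹, C]` (continuity of `G` and of `Ring.inverse ∘ G`,
`NormedRing.inverse_continuousAt`; `spectrum.norm_le_norm_of_mem` for `G t` and its inverse). Then
copy the proof of `Crest.Agent.R177.fk_inv` (`fk_log`, `fk_norm_u`, `fk_tr_pow` with `M = ⊤`,
`τ = trL A`, `hasDerivAt_tsum_of_isPreconnected` on a small `Ioo`, geometric series). -/
theorem hasDerivAt_tr_log {G G' : ℝ → A} (hG : ∀ t, HasDerivAt G (G' t) t) (hc : Continuous G')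
    (hsa : ∀ t, IsSelfAdjoint (G t)) (hpos : ∀ t, ∀ x ∈ spectrum ℝ (G t), 0 < x) (s : ℝ) :
    HasDerivAt (fun t => tr (cfc Real.log (G t))) (tr (Ring.inverse (G s) * G' s)) s := by
  have hA := nontrivial_of_tr A
  have hu : ∀ t, IsUnit (G t) := fun t => isUnit_of_spec_pos (hpos t)
  have cG : Continuous G := continuous_iff_continuousAt.2 fun t => (hG t).continuousAt
  have cI : Continuous fun t => Ring.inverse (G t) := continuous_iff_continuousAt.2 fun t => by
    have h1 : ContinuousAt (Ring.inverse : A → A) (G t) :=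
      NormedRing.inverse_continuousAt (hu t).unit
    exact h1.comp cG.continuousAt
  obtain ⟨C, hC1, hb⟩ : ∃ C : ℝ, 1 ≤ C ∧ ∀ t ∈ Set.Ioo (s - 1) (s + 1),
      ‖G t‖ ≤ C ∧ ‖Ring.inverse (G t)‖ ≤ C ∧ ‖G' t‖ ≤ C := by
    obtain ⟨a, ha⟩ := (isCompact_Icc (a := s - 1) (b := s + 1)).exists_bound_of_continuousOn
      cG.continuousOn
    obtain ⟨b, hb⟩ := (isCompact_Icc (a := s - 1) (b := s + 1)).exists_bound_of_continuousOn
      cI.continuousOn
    obtain ⟨c, hc⟩ := (isCompact_Icc (a := s - 1) (b := s + 1)).exists_bound_of_continuousOn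
      hc.continuousOn
    refine ⟨max 1 (max a (max b c)), le_max_left _ _, fun t ht => ⟨?_, ?_, ?_⟩⟩
    · exact (ha t (Set.Ioo_subset_Icc_self ht)).trans (by simp)
    · exact (hb t (Set.Ioo_subset_Icc_self ht)).trans (by simp)
    · exact (hc t (Set.Ioo_subset_Icc_self ht)).trans (by simp)
  have hC0 : 0 < C := by linarith
  have hr0 : 0 < (C ^ 2)⁻¹ := by positivity
  have hr1 : (C ^ 2)⁻¹ ≤ 1 := inv_le_one_of_one_le₀ (by nlinarith)
  have hsp : ∀ t ∈ Set.Ioo (s - 1) (s + 1), ∀ y ∈ spectrum ℝ (G t), C⁻¹ ≤ y ∧ y ≤ C :=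
    fun t ht => spec_bounds (hpos t) (hb t ht).1 (hb t ht).2.1
  obtain ⟨u, hu_def⟩ : ∃ u : ℝ → A, u = fun t => 1 - C⁻¹ • G t := ⟨_, rfl⟩
  obtain ⟨u', hu'_def⟩ : ∃ u' : ℝ → A, u' = fun t => -(C⁻¹ • G' t) := ⟨_, rfl⟩
  have du : ∀ t, HasDerivAt u (u' t) t := fun t => by
    rw [hu_def, hu'_def]
    exact ((hG t).const_smul C⁻¹).const_sub 1
  have nu : ∀ t ∈ Set.Ioo (s - 1) (s + 1), ‖u t‖ ≤ 1 - (C ^ 2)⁻¹ := fun t ht => by
    rw [hu_def]
    exact R177.fk_norm_u (hsa t) hC1 (hsp t ht)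
  have nu' : ∀ t ∈ Set.Ioo (s - 1) (s + 1), ‖u' t‖ ≤ C⁻¹ * C := fun t ht => by
    simp only [hu'_def, norm_neg, norm_smul, Real.norm_of_nonneg (inv_nonneg.mpr hC0.le)]
    gcongr
    exact (hb t ht).2.2
  have hgeo := summable_geometric_of_lt_one (r := 1 - (C ^ 2)⁻¹) (by linarith) (by linarith)
  have hsum : ∀ t ∈ Set.Ioo (s - 1) (s + 1),
      Summable fun n : ℕ => trL A (((n : ℝ) + 1)⁻¹ • u t ^ (n + 1)) := fun t ht => by
    refine Summable.of_norm_bounded (hgeo.mul_left ‖trL A‖) fun n => ((trL A).le_opNorm _).trans ?_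
    gcongr
    rw [norm_smul, Real.norm_of_nonneg (by positivity)]
    have h2 : ((n : ℝ) + 1)⁻¹ ≤ 1 :=
      inv_le_one_of_one_le₀ (by linarith [Nat.cast_nonneg (α := ℝ) n])
    have h3 : ‖u t ^ (n + 1)‖ ≤ (1 - (C ^ 2)⁻¹) ^ n := by
      refine (norm_pow_le _ _).trans ?_
      rw [pow_succ]
      have := nu t ht
      calc _ ≤ (1 - (C ^ 2)⁻¹) ^ n * 1 := by gcongr; linarith
        _ = _ := mul_one _
    calc _ ≤ 1 * (1 - (C ^ 2)⁻¹) ^ n := by gcongr
      _ = _ := one_mul _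
  have hs : s ∈ Set.Ioo (s - 1) (s + 1) := ⟨by linarith, by linarith⟩
  have dF : HasDerivAt (fun t => ∑' n : ℕ, trL A (((n : ℝ) + 1)⁻¹ • u t ^ (n + 1)))
      (-tr (Ring.inverse (G s) * G' s)) s := by
    have h := hasDerivAt_tsum_of_isPreconnected
      (g := fun (n : ℕ) t => trL A (((n : ℝ) + 1)⁻¹ • u t ^ (n + 1)))
      (g' := fun (n : ℕ) t => trL A (u t ^ n * u' t))
      ((hgeo.mul_right (C⁻¹ * C)).mul_left ‖trL A‖) isOpen_Ioo isPreconnected_Ioo
      (fun n y _ => R177.fk_tr_pow ⊤ (trL A) (fun a _ b _ => tr_comm a b) (du y)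
        StarSubalgebra.mem_top StarSubalgebra.mem_top n)
      (fun n y hy => ((trL A).le_opNorm _).trans (by
        have := nu y hy
        have := nu' y hy
        gcongr
        refine (norm_mul_le _ _).trans ?_
        gcongr
        exact (norm_pow_le _ _).trans (by gcongr))) hs (hsum s hs) hs
    refine HasDerivAt.congr_deriv h ?_
    have hlt : ‖u s‖ < 1 := lt_of_le_of_lt (nu s hs) (by linarith)
    have hsm := summable_geometric_of_norm_lt_one hlt
    have e1 : ∑' n : ℕ, u s ^ n = C • Ring.inverse (G s) := by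
      have h1 := geom_series_mul_neg _ hlt
      have h2 : (1 - u s) * (C • Ring.inverse (G s)) = 1 := by
        simp only [hu_def, sub_sub_cancel, smul_mul_smul_comm, inv_mul_cancel₀ hC0.ne', one_smul]
        exact Ring.mul_inverse_cancel _ (hu s)
      rw [← mul_one (∑' n : ℕ, u s ^ n), ← h2, ← mul_assoc, h1, one_mul]
    rw [← (trL A).map_tsum (hsm.mul_right _), hsm.tsum_mul_right, e1]
    simp only [hu'_def, mul_neg, smul_mul_smul_comm, mul_inv_cancel₀ hC0.ne', one_smul, map_neg,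
      trL_apply]
  have hFt : ∀ t ∈ Set.Ioo (s - 1) (s + 1), tr (cfc Real.log (G t)) =
      Real.log C * tr (1 : A) - ∑' n : ℕ, trL A (((n : ℝ) + 1)⁻¹ • u t ^ (n + 1)) := fun t ht => by
    have h1 := ((trL A).continuous.tendsto _).comp (R177.fk_log (hsa t) hC1 (hsp t ht))
    have h2 := (hsum t ht).hasSum.tendsto_sum_nat
    rw [map_sub, map_smul, smul_eq_mul, trL_apply, trL_apply] at h1
    have h3 : ∑' n : ℕ, trL A (((n : ℝ) + 1)⁻¹ • u t ^ (n + 1)) =
        Real.log C * tr (1 : A) - tr (cfc Real.log (G t)) := by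
      refine tendsto_nhds_unique h2 ?_
      convert h1 using 2 with N
      simp only [Function.comp, map_sum, hu_def]
    rw [h3]; ring
  have h := dF.const_sub (Real.log C * tr (1 : A))
  rw [neg_neg] at h
  refine h.congr_of_eventuallyEq ?_
  filter_upwards [isOpen_Ioo.mem_nhds hs] with t ht
  exact hFt t ht

end Crest.Agent.R113
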