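import Crest.Agent.R113.Op
import Crest.Agent.R113.Proj

/-! Row 113: the commutant of the right action is a tracial algebra. -/

set_option autoImplicit false

namespace Crest.Agent.R113

open MeasureTheory Crest.Agent.R95
open scoped ComplexConjugate InnerProductSpace

variable {Ω : Type*} [MeasurableSpace Ω] {μ : Measure Ω} [IsProbabilityMeasure μ] (α : Act μ)

lemma measurable_act : Measurable fun p : Ω × ℤ => α.σ p.2 p.1 :=
  measurable_from_prod_countable_left fun k => (α.mp k).measurable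

omit [IsProbabilityMeasure μ] in
lemma emb_slice (k : ℤ) : MeasurableEmbedding fun x : Ω => (x, k) :=
  measurableEmbedding_prod_mk_right k

lemma pm_eq : pm μ = Measure.sum fun k : ℤ => μ.map fun x => (x, k) := by
  rw [pm, Measure.count, Measure.prod_sum_right]
  simp only [Measure.prod_dirac]

lemma restrict_slice (k : ℤ) :
    (pm μ).restrict (Set.univ ×ˢ {k}) = μ.map fun x => (x, k) := by
  rw [← Measure.prod_restrict, Measure.restrict_univ, Measure.restrict_singleton,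
    Measure.count_singleton, one_smul, Measure.prod_dirac]

/-- Integral of a function supported on a slice. -/
lemma integral_slice {f : Ω × ℤ → ℂ} {u : Ω → ℂ} (k : ℤ)
    (h : f =ᵐ[pm μ] fun p => if p.2 = k then u p.1 else 0) :
    ∫ p, f p ∂pm μ = ∫ x, u x ∂μ := by
  have h1 : (fun p : Ω × ℤ => if p.2 = k then u p.1 else 0) =
      (Set.univ ×ˢ {k} : Set (Ω × ℤ)).indicator fun p => u p.1 := by
    funext p
    by_cases hp : p.2 = k <;> simp [Set.indicator, hp]
  rw [integral_congr_ae h, h1,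
    integral_indicator (MeasurableSet.univ.prod (measurableSet_singleton k)), restrict_slice,
    (emb_slice k).integral_map]

/-- Almost everywhere on `Ω × ℤ` means almost everywhere on every slice. -/
lemma ae_pm_iff {P : Ω × ℤ → Prop} : (∀ᵐ p ∂pm μ, P p) ↔ ∀ k, ∀ᵐ x ∂μ, P (x, k) := by
  rw [pm_eq, Measure.ae_sum_iff]
  exact forall_congr' fun k => (emb_slice k).ae_map_iff

lemma vac_apply : vac μ =ᵐ[pm μ] fun p => if p.2 = 0 then 1 else 0 := by
  refine (indicatorConstLp_coeFn).trans (ae_of_all _ fun p => ?_)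
  by_cases hp : p.2 = 0 <;> simp [Set.indicator, hp]

lemma norm_vac : ‖vac μ‖ = 1 := by
  rw [vac, norm_indicatorConstLp two_ne_zero ENNReal.ofNat_ne_top, Measure.real,
    Measure.prod_prod, measure_univ, Measure.count_singleton]
  simp

/-- `⟪vac, g⟫ = ∫ g (x, 0)`. -/
lemma inner_vac (g : H2 (pm μ)) : ⟪vac μ, g⟫_ℂ = ∫ x, g (x, 0) ∂μ := by
  rw [L2.inner_def]
  refine integral_slice 0 ?_
  filter_upwards [vac_apply (μ := μ)] with p hp
  rw [hp]
  obtain ⟨x, k⟩ := p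
  by_cases hk : k = 0 <;> simp [hk]

lemma memLp_slice (g : H2 (pm μ)) (k : ℤ) : MemLp (fun x => g (x, k)) 2 μ := by
  have h := (Lp.memLp g).restrict (Set.univ ×ˢ {k})
  rw [restrict_slice] at h
  exact (emb_slice k).memLp_map_measure_iff.1 h

lemma integrable_slice (g : H2 (pm μ)) (k : ℤ) : Integrable (fun x => g (x, k)) μ := by
  exact (memLp_slice g k).integrable one_le_two

lemma Us_mul (j k : ℤ) : Us μ j * Us μ k = Us μ (j + k) := by
  rw [Us, Us, Us, cmpOp_mul]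
  refine cmpOp_congr _ _ (ae_of_all _ fun p => ?_)
  simp [sub_sub]

lemma Us_zero : Us μ 0 = 1 := by
  exact cmpOp_eq_one _ (ae_of_all _ fun p => by simp)

lemma star_Us (j : ℤ) : star (Us μ j) = Us μ (-j) := by
  refine star_cmpOp _ _ ?_
  have h := Us_mul (μ := μ) j (-j)
  rwa [add_neg_cancel, Us_zero] at h

lemma Rs_mul (j k : ℤ) : Rs α j * Rs α k = Rs α (j + k) := by
  rw [Rs, Rs, Rs, cmpOp_mul]
  refine cmpOp_congr _ _ (ae_of_all _ fun p => ?_)
  simp [sub_sub, α.add, add_comm]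

lemma Rs_zero : Rs α 0 = 1 := by
  refine cmpOp_eq_one _ (ae_pm_iff.2 fun k => ?_)
  filter_upwards [α.zero] with x hx
  simp [hx]

lemma star_Rs (j : ℤ) : star (Rs α j) = Rs α (-j) := by
  refine star_cmpOp _ _ ?_
  have h := Rs_mul α j (-j)
  rwa [add_neg_cancel, Rs_zero] at h

omit [IsProbabilityMeasure μ] in
lemma bd_fst_iff {b : Ω → ℂ} : (Bd fun p : Ω × ℤ => b p.1) ↔ Bd b :=
  ⟨fun h => h.comp (f := fun x => (x, (0 : ℤ))) (emb_slice 0).measurable,
    fun h => h.comp measurable_fst⟩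

lemma bd_act {a : Ω → ℂ} (ha : Bd a) : Bd fun p : Ω × ℤ => a (α.σ p.2 p.1) :=
  ha.comp (measurable_act α)

/-- The generating set is closed under `star` (`mulOp_star`, `mulOp_of_not`, `star_Rs`). -/
lemma mem_NN {x : H2 (pm μ) →L[ℂ] H2 (pm μ)} :
    x ∈ NN α ↔ (∀ b, Bd b → Rm μ b * x = x * Rm μ b) ∧ ∀ j, Rs α j * x = x * Rs α j := by
  rw [NN, StarSubalgebra.mem_centralizer_iff]
  constructor
  · intro h
    exact ⟨fun b _ => (h _ (Or.inl ⟨b, rfl⟩)).1, fun j => (h _ (Or.inr ⟨j, rfl⟩)).1⟩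
  · rintro ⟨h1, h2⟩ g (⟨b, rfl⟩ | ⟨j, rfl⟩)
    · by_cases hb : Bd b
      · refine ⟨h1 b hb, ?_⟩
        have h3 : star (Rm μ b) = Rm μ fun x => conj (b x) :=
          (mulOp_star (bd_fst_iff.2 hb)).symm
        rw [h3]
        exact h1 _ hb.conj
      · have h3 : Rm μ b = 0 := mulOp_of_not fun h => hb (bd_fst_iff.1 h)
        rw [h3, star_zero, zero_mul, mul_zero]
        exact ⟨rfl, rfl⟩
    · refine ⟨h2 j, ?_⟩
      rw [star_Rs]
      exact h2 _

/-- Note `Lm α a` may be nonzero only if `fun p => a (σ p.2 p.1)` is `Bd`. -/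
lemma Lm_mem (a : Ω → ℂ) : Lm α a ∈ NN α := by
  by_cases ha : Bd fun p : Ω × ℤ => a (α.σ p.2 p.1)
  · refine (mem_NN α).2 ⟨fun b hb => ?_, fun j => ?_⟩
    · rw [Rm, Lm, ← mulOp_mul (bd_fst_iff.2 hb) ha, ← mulOp_mul ha (bd_fst_iff.2 hb)]
      simp only [mul_comm]
    · rw [Rs, Lm, cmpOp_mul_mulOp _ ha]
      simp only [α.add, sub_add_cancel]
  · rw [Lm, mulOp_of_not ha]
    exact zero_mem _

lemma Us_mem (j : ℤ) : Us μ j ∈ NN α := by
  refine (mem_NN α).2 ⟨fun b hb => ?_, fun k => ?_⟩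
  · rw [Us, Rm, cmpOp_mul_mulOp _ (bd_fst_iff.2 hb)]
  · rw [Us, Rs, cmpOp_mul, cmpOp_mul]
    refine cmpOp_congr _ _ (ae_of_all _ fun p => ?_)
    simp [sub_sub, add_comm]

lemma Lm_mul_Us {a : Ω → ℂ} (ha : Bd a) (j : ℤ) :
    Lm α a * Us μ j = Us μ j * Lm α fun x => a (α.σ j x) := by
  rw [Us, Lm, Lm, cmpOp_mul_mulOp _ (bd_act α (ha.comp (α.mp j).measurable))]
  simp only [α.add, add_sub_cancel]

lemma Lm_vac {b : Ω → ℂ} (hb : Bd b) : Lm α b (vac μ) = Rm μ b (vac μ) := by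
  refine Lp.ext ?_
  have h0 : ∀ᵐ p ∂pm μ, α.σ 0 p.1 = p.1 := ae_pm_iff.2 fun _ => α.zero
  filter_upwards [mulOp_apply (bd_act α hb) (vac μ), mulOp_apply (bd_fst_iff.2 hb) (vac μ),
    vac_apply (μ := μ), h0] with p h1 h2 h3 h4
  rw [Lm, Rm, h1, h2, h3]
  by_cases hp : p.2 = 0
  · rw [hp, h4]
  · simp [hp]

lemma Rm_Rs_apply {b : Ω → ℂ} (hb : Bd b) (j : ℤ) (g : H2 (pm μ)) :
    Rm μ b (Rs α j g) =ᵐ[pm μ] fun p => b p.1 * g (α.σ j p.1, p.2 - j) := by
  filter_upwards [mulOp_apply (bd_fst_iff.2 hb) (Rs α j g), cmpOp_apply (mp_rshift α j) g]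
    with p h1 h2
  rw [Rm, h1, Rs, h2]

lemma inner_test {b : Ω → ℂ} (hb : Bd b) (j : ℤ) (g : H2 (pm μ)) :
    ⟪Rm μ b (Rs α j (vac μ)), g⟫_ℂ = ∫ x, conj (b x) * g (x, j) ∂μ := by
  rw [L2.inner_def]
  refine integral_slice j ?_
  filter_upwards [Rm_Rs_apply α hb j (vac μ),
    (mp_rshift α j).quasiMeasurePreserving.ae (vac_apply (μ := μ))] with p h1 h2
  rw [h1, h2]
  obtain ⟨x, k⟩ := p
  by_cases hk : k = j
  · simp [hk, mul_comm]
  · simp [hk, sub_eq_zero]

omit [IsProbabilityMeasure μ] in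
lemma integral_conj_ind {s : Set Ω} (hs : MeasurableSet s) (u : Ω → ℂ) :
    ∫ x, conj (s.indicator (fun _ => (1 : ℂ)) x) * u x ∂μ = ∫ x in s, u x ∂μ := by
  rw [← integral_indicator hs]
  refine integral_congr_ae (ae_of_all _ fun x => ?_)
  by_cases hx : x ∈ s <;> simp [hx]

lemma NN_comm_apply {x : H2 (pm μ) →L[ℂ] H2 (pm μ)} (hx : x ∈ NN α) {b : Ω → ℂ} (hb : Bd b)
    (j : ℤ) (g : H2 (pm μ)) : x (Rm μ b (Rs α j g)) = Rm μ b (Rs α j (x g)) := by
  obtain ⟨h1, h2⟩ := (mem_NN α).1 hx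
  have h3 : x * Rm μ b * Rs α j = Rm μ b * Rs α j * x := by
    rw [← h1 b hb, mul_assoc, ← h2 j, mul_assoc]
  exact congrArg (fun T => T g) h3

/-- The vectors `Rm b (Rs j vac) = b(x) 1{k = j}` are total: the slice `g (·, j)` integrates to zero
on every measurable set (`ae_eq_zero_of_forall_setIntegral_eq_zero`-type lemma). -/
lemma eq_zero_of_orth {g : H2 (pm μ)}
    (h : ∀ b j, Bd b → ⟪Rm μ b (Rs α j (vac μ)), g⟫_ℂ = 0) : g = 0 := by
  refine Lp.ext ?_
  refine Filter.EventuallyEq.trans (ae_pm_iff.2 fun j => ?_) (Lp.coeFn_zero ℂ 2 (pm μ)).symm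
  refine (integrable_slice g j).ae_eq_zero_of_forall_setIntegral_eq_zero fun s hs _ => ?_
  have hb : Bd (s.indicator fun _ => (1 : ℂ)) := (Bd.const 1).indicator hs
  rw [← integral_conj_ind hs, ← inner_test α hb, h _ j hb]

/-- `vac` is separating: `⟪Rm b Rs j vac, x⋆ g⟫ = ⟪Rm b Rs j (x vac), g⟫ = 0`. -/
lemma eq_zero_of_vac {x : H2 (pm μ) →L[ℂ] H2 (pm μ)} (hx : x ∈ NN α) (h : x (vac μ) = 0) :
    x = 0 := by
  rw [← star_eq_zero]
  ext1 g
  refine eq_zero_of_orth α fun b j hb => ?_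
  rw [ContinuousLinearMap.star_eq_adjoint, ContinuousLinearMap.adjoint_inner_right,
    NN_comm_apply α hx hb, h, map_zero, map_zero, inner_zero_left]

/-- The key identity: `(x⋆ vac) (y, j) = conj ((x vac) (σ^j y, -j))`. Test against `b(y) 1{k = j}`:
`⟪x⋆ vac, Rm b Rs j vac⟫ = ⟪vac, Rm b Rs j x vac⟫`. -/
lemma star_vac {x : H2 (pm μ) →L[ℂ] H2 (pm μ)} (hx : x ∈ NN α) :
    (star x) (vac μ) =ᵐ[pm μ] fun p => conj (x (vac μ) (α.σ p.2 p.1, -p.2)) := by
  refine ae_pm_iff.2 fun j => ?_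
  have hi : Integrable (fun y => conj (x (vac μ) (α.σ j y, -j))) μ :=
    Complex.conjCLE.toContinuousLinearMap.integrable_comp
      ((α.mp j).integrable_comp_of_integrable (integrable_slice (x (vac μ)) (-j)))
  refine (integrable_slice (star x (vac μ)) j).ae_eq_of_forall_setIntegral_eq _ _ hi
    fun s hs _ => ?_
  have hb : Bd (s.indicator fun _ => (1 : ℂ)) := (Bd.const 1).indicator hs
  rw [← integral_conj_ind hs, ← inner_test α hb, ContinuousLinearMap.star_eq_adjoint,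
    ContinuousLinearMap.adjoint_inner_right, NN_comm_apply α hx hb, ← inner_conj_symm, inner_vac,
    ← integral_conj, ← integral_conj_ind hs]
  refine integral_congr_ae ?_
  filter_upwards [ae_pm_iff.1 (Rm_Rs_apply α hb j (x (vac μ))) 0] with y hy
  rw [hy, map_mul, zero_sub]

/-- `(y, j) ↦ (σ^j y, -j)` preserves `pm μ`. -/
lemma mp_flip : MeasurePreserving (fun p : Ω × ℤ => (α.σ p.2 p.1, -p.2)) (pm μ) (pm μ) := by
  have hm : Measurable fun p : Ω × ℤ => (α.σ p.2 p.1, -p.2) :=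
    (measurable_act α).prodMk measurable_snd.neg
  refine ⟨hm, ?_⟩
  rw [pm_eq, Measure.map_sum hm.aemeasurable, ← Measure.sum_comp_equiv (Equiv.neg ℤ)
    (fun k : ℤ => μ.map fun x => (x, k))]
  congr 1
  funext k
  rw [Measure.map_map hm (emb_slice k).measurable, Function.comp_apply, Equiv.neg_apply]
  conv_rhs => rw [← (α.mp k).map_eq, Measure.map_map (emb_slice (-k)).measurable
    (α.mp k).measurable]
  rfl

lemma inner_mul_vac {x : H2 (pm μ) →L[ℂ] H2 (pm μ)} (hx : x ∈ NN α) (g : H2 (pm μ)) :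
    ⟪vac μ, x g⟫_ℂ = ∫ p, x (vac μ) (α.σ p.2 p.1, -p.2) * g p ∂pm μ := by
  rw [← ContinuousLinearMap.adjoint_inner_left, ← ContinuousLinearMap.star_eq_adjoint,
    L2.inner_def]
  refine integral_congr_ae ?_
  filter_upwards [star_vac α hx] with p hp
  rw [hp]
  simp [mul_comm]

/-- Trace property: `⟪x⋆ vac, y vac⟫ = ∫ (x vac)(flip p) (y vac)(p)`, symmetric in `x, y` since
`flip` is a measure preserving involution (a.e.). -/
lemma vac_comm {x y : H2 (pm μ) →L[ℂ] H2 (pm μ)} (hx : x ∈ NN α) (hy : y ∈ NN α) :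
    ⟪vac μ, (x * y) (vac μ)⟫_ℂ = ⟪vac μ, (y * x) (vac μ)⟫_ℂ := by
  rw [mul_apply_eq_comp, mul_apply_eq_comp, inner_mul_vac α hx, inner_mul_vac α hy]
  have hm := mp_flip α
  have hs : StronglyMeasurable fun p : Ω × ℤ =>
      x (vac μ) (α.σ p.2 p.1, -p.2) * y (vac μ) p :=
    ((Lp.stronglyMeasurable (x (vac μ))).comp_measurable hm.measurable).mul
      (Lp.stronglyMeasurable (y (vac μ)))
  have h := integral_map (μ := pm μ) hm.measurable.aemeasurable
    (hs.aestronglyMeasurable (μ := (pm μ).map fun p : Ω × ℤ => (α.σ p.2 p.1, -p.2)))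
  rw [hm.map_eq] at h
  rw [h]
  have h0 : ∀ᵐ p ∂pm μ, α.σ 0 p.1 = p.1 := ae_pm_iff.2 fun _ => α.zero
  refine integral_congr_ae ?_
  filter_upwards [h0] with p hp
  simp only [α.add, neg_add_cancel, neg_neg, hp]
  rw [mul_comm]

/-- The vector state of `vac` on `NN α`. -/
noncomputable def vacState : NN α →L[ℂ] ℂ :=
  ((innerSL ℂ (vac μ)).comp (ContinuousLinearMap.apply ℂ _ (vac μ))).comp
    (NN α).toSubalgebra.toSubmodule.subtypeL

lemma vacState_apply (x : NN α) : vacState α x = ⟪vac μ, x.1 (vac μ)⟫_ℂ := rfl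

lemma vacState_star_mul (x : NN α) : (vacState α (star x * x)).re = ‖x.1 (vac μ)‖ ^ 2 := by
  have h : vacState α (star x * x) = ⟪x.1 (vac μ), x.1 (vac μ)⟫_ℂ := by
    rw [vacState_apply, ← ContinuousLinearMap.adjoint_inner_right,
      ← ContinuousLinearMap.star_eq_adjoint]
    rfl
  rw [h, inner_self_eq_norm_sq_to_K]
  norm_cast

lemma vacState_star (x : NN α) : vacState α (star x) = conj (vacState α x) := by
  rw [vacState_apply, vacState_apply, inner_conj_symm, ← ContinuousLinearMap.adjoint_inner_right,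
    ← ContinuousLinearMap.star_eq_adjoint]
  rfl

noncomputable instance trNN : Tr (NN α) where
  τ := vacState α
  τ_one := by simp [vacState_apply, inner_self_eq_norm_sq_to_K, norm_vac]
  τ_comm x y := vac_comm α x.2 y.2
  τ_star := vacState_star α
  τ_nonneg x := by rw [vacState_star_mul]; positivity
  faithful x h := by
    rw [vacState_star_mul, pow_eq_zero_iff two_ne_zero, norm_eq_zero] at h
    exact Subtype.ext (eq_zero_of_vac α x.2 h)

lemma τ_NN (x : NN α) : τ x = ⟪vac μ, x.1 (vac μ)⟫_ℂ := rfl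

lemma n2_NN (x : NN α) : n2 x = ‖x.1 (vac μ)‖ := by
  rw [← sq_eq_sq₀ (n2_nonneg _) (norm_nonneg _), n2_sq]; exact vacState_star_mul α x

/-- Real left multipliers as elements of `NN α`. -/
noncomputable def LR (a : Ω → ℝ) : NN α := ⟨Lm α fun x => (a x : ℂ), Lm_mem α _⟩

/-- The shift as an element of `NN α`. -/
noncomputable def UN (j : ℤ) : NN α := ⟨Us μ j, Us_mem α j⟩

end Crest.Agent.R113
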