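import Crest.Agent.R113.Op

/-! Row 113: the Fourier basis of `L²(T × ℤ)` and the extension of the weight to `ℂ`. -/

set_option autoImplicit false

namespace Crest.Agent.R113

open MeasureTheory Set
open scoped ComplexConjugate InnerProductSpace

section Slice
variable {Ω : Type*} [MeasurableSpace Ω] (μ : Measure Ω) [IsProbabilityMeasure μ]

lemma mp_slice (k : ℤ) : MeasurePreserving (fun x : Ω => (x, k)) μ
    ((pm μ).restrict (univ ×ˢ {k})) := by
  refine ⟨measurable_prodMk_right, ?_⟩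
  rw [← Measure.prod_restrict, Measure.restrict_univ, Measure.restrict_singleton,
    Measure.count_singleton, one_smul, Measure.prod_dirac]

lemma ae_eq_zero_of_slices {g : Ω × ℤ → ℂ} (h : ∀ k, ∀ᵐ x ∂μ, g (x, k) = 0) :
    g =ᵐ[pm μ] 0 := by
  have hU : (⋃ k : ℤ, (univ : Set Ω) ×ˢ ({k} : Set ℤ)) = univ := by
    ext p; simp
  have : ∀ᵐ p ∂(pm μ).restrict (⋃ k : ℤ, (univ : Set Ω) ×ˢ ({k} : Set ℤ)), g p = 0 := by
    rw [ae_restrict_iUnion_iff]
    intro k
    rw [← (mp_slice μ k).map_eq, (measurableEmbedding_prod_mk_right k).ae_map_iff]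
    exact h k
  rwa [hU, Measure.restrict_univ] at this

end Slice

lemma volume_T : (volume : Measure T) = AddCircle.haarAddCircle := by
  rw [AddCircle.volume_eq_smul_haarAddCircle]; simp

/-- The function `fourier b x · 1{j = k}`. -/
noncomputable def fb (k b : ℤ) : T × ℤ → ℂ := fun p => if p.2 = k then fourier b p.1 else 0

lemma fb_eq (k b : ℤ) :
    fb k b = (univ ×ˢ ({k} : Set ℤ)).indicator fun p : T × ℤ => fourier b p.1 := by
  funext p
  by_cases h : p.2 = k <;> simp [fb, h]

lemma memLp_fb (k b : ℤ) : MemLp (fb k b) 2 (pm (volume : Measure T)) := by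
  rw [fb_eq, memLp_indicator_iff_restrict (MeasurableSet.univ.prod (measurableSet_singleton k))]
  have : IsFiniteMeasure ((pm (volume : Measure T)).restrict (univ ×ˢ {k})) := by
    rw [← (mp_slice volume k).map_eq]; infer_instance
  refine MemLp.of_bound
    ((fourier b).continuous.measurable.comp measurable_fst).aestronglyMeasurable 1
    (ae_of_all _ fun p => ?_)
  simp

lemma inner_fb (k b : ℤ) (g : H2 (pm (volume : Measure T))) :
    ⟪(memLp_fb k b).toLp _, g⟫_ℂ = fourierCoeff (fun x : T => g (x, k)) b := by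
  rw [L2.inner_def, fourierCoeff, ← volume_T]
  have h1 : ∫ p, ⟪((memLp_fb k b).toLp _) p, g p⟫_ℂ ∂pm (volume : Measure T) =
      ∫ p, (univ ×ˢ ({k} : Set ℤ)).indicator
        (fun p : T × ℤ => fourier (-b) p.1 • g p) p ∂pm (volume : Measure T) := by
    refine integral_congr_ae ?_
    filter_upwards [(memLp_fb k b).coeFn_toLp] with p hp
    rw [hp]
    by_cases h : p.2 = k
    · simp [fb, h, mul_comm]
    · simp [fb, h]
  rw [h1, integral_indicator (MeasurableSet.univ.prod (measurableSet_singleton k)),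
    ← (mp_slice volume k).integral_comp (measurableEmbedding_prod_mk_right k)]

lemma orthonormal_fb :
    Orthonormal ℂ fun q : ℤ × ℤ => (memLp_fb q.1 q.2).toLp (fb q.1 q.2) := by
  classical
  rw [orthonormal_iff_ite]
  rintro ⟨k, b⟩ ⟨l, c⟩
  rw [inner_fb]
  have h1 : (fun x : T => ((memLp_fb l c).toLp (fb l c)) (x, k)) =ᵐ[AddCircle.haarAddCircle]
      fun x => fb l c (x, k) := by
    rw [← volume_T]
    exact (mp_slice volume k).quasiMeasurePreserving.ae
      (ae_restrict_of_ae (memLp_fb l c).coeFn_toLp)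
  rw [fourierCoeff_congr_ae h1]
  by_cases h : k = l
  · subst h
    have : (fun x : T => fb k c (x, k)) = fourier c := by funext x; simp [fb]
    rw [this, fourierCoeff_fourier]
    simp [Pi.single_apply]
  · have : (fun x : T => fb l c (x, k)) = fun _ => 0 := by funext x; simp [fb, h]
    rw [this]
    simp [fourierCoeff, h]

lemma eq_zero_of_fb {g : H2 (pm (volume : Measure T))}
    (h : ∀ k b, ⟪(memLp_fb k b).toLp _, g⟫_ℂ = 0) : g = 0 := by
  refine Lp.ext ?_
  refine (ae_eq_zero_of_slices volume fun k => ?_).trans (Lp.coeFn_zero _ _ _).symm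
  have hm : MemLp (fun x : T => g (x, k)) 2 AddCircle.haarAddCircle := by
    rw [← volume_T]
    exact ((Lp.memLp g).restrict _).comp_measurePreserving (mp_slice volume k)
  have h0 : hm.toLp _ = 0 := by
    refine fourierBasis.repr.injective ?_
    ext b
    rw [fourierBasis_repr, fourierCoeff_congr_ae hm.coeFn_toLp, ← inner_fb, h]
    simp
  have h3 : ∀ᵐ x : T ∂AddCircle.haarAddCircle, g (x, k) = 0 := by
    filter_upwards [hm.coeFn_toLp, Lp.coeFn_zero ℂ 2 (AddCircle.haarAddCircle (T := 1))]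
      with x h1 h2
    rw [← h1, h0, h2]; rfl
  rwa [← volume_T] at h3

theorem exists_basis_aux : ∃ e : HilbertBasis (ℤ × ℤ) ℂ (H2 (pm (volume : Measure T))),
    ∀ k b : ℤ, e (k, b) =ᵐ[pm (volume : Measure T)]
      fun p => if p.2 = k then fourier b p.1 else 0 := by
  refine ⟨HilbertBasis.mkOfOrthogonalEqBot orthonormal_fb ?_, fun k b => ?_⟩
  · rw [Submodule.eq_bot_iff]
    intro g hg
    refine eq_zero_of_fb fun k b => ?_
    exact (Submodule.mem_orthogonal _ _).1 hg _ (Submodule.subset_span ⟨(k, b), rfl⟩)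
  · rw [HilbertBasis.coe_mkOfOrthogonalEqBot]
    exact (memLp_fb k b).coeFn_toLp

theorem exists_ext_aux {F : T → ℝ} (hc : Continuous F) (h0 : ∀ x, 0 ≤ F x) (h1 : ∀ x, F x ≤ 1)
    (hz : ∀ x, F x = 0 ↔ x = 0) (hlog : ∫⁻ x, ENNReal.ofReal (-Real.log (F x)) = ⊤) :
    ∃ f : ℂ → ℝ, Continuous f ∧ (∀ x : T, f (fourier 1 x) = F x) ∧
      (∀ z : ℂ, ‖z‖ = 1 → 0 ≤ f z ∧ f z ≤ 1) ∧ (∀ z : ℂ, ‖z‖ = 1 → (f z = 0 ↔ z = 1)) ∧
      (∫⁻ t in Set.Ioc (0 : ℝ) (2 * Real.pi),
        ENNReal.ofReal (- Real.log (f (Complex.exp ((t : ℂ) * Complex.I)))) = ⊤) := by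
  have hinj : Function.Injective (fun x : T => fourier 1 x) := by
    intro x y h
    simp only [fourier_one] at h
    exact AddCircle.injective_toCircle one_ne_zero (Circle.ext h)
  have hemb : Topology.IsClosedEmbedding (fun x : T => fourier 1 x) :=
    (fourier 1).continuous.isClosedEmbedding hinj
  obtain ⟨f, hf⟩ := ContinuousMap.exists_extension' hemb ⟨F, hc⟩
  have hf' : ∀ x : T, f (fourier 1 x) = F x := fun x => congrFun hf x
  have hexp : ∀ s : ℝ, Complex.exp (((2 * Real.pi * s : ℝ) : ℂ) * Complex.I) =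
      fourier 1 (s : T) := by
    intro s
    rw [fourier_coe_apply]
    congr 1
    push_cast
    ring
  have hsurj : ∀ z : ℂ, ‖z‖ = 1 → ∃ x : T, fourier 1 x = z := by
    intro z hz
    obtain ⟨θ, hθ⟩ := (Complex.norm_eq_one_iff z).1 hz
    refine ⟨((θ / (2 * Real.pi) : ℝ) : T), ?_⟩
    rw [← hexp, ← hθ, mul_div_cancel₀ _ (by positivity)]
  refine ⟨f, f.continuous, hf', fun z hz1 => ?_, fun z hz1 => ?_, ?_⟩
  · obtain ⟨x, rfl⟩ := hsurj z hz1
    rw [hf']; exact ⟨h0 x, h1 x⟩
  · obtain ⟨x, rfl⟩ := hsurj z hz1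
    rw [hf', hz]
    constructor
    · rintro rfl; exact fourier_eval_zero 1
    · intro h; exact hinj (h.trans (fourier_eval_zero 1).symm)
  · have h2 := UnitAddCircle.lintegral_preimage 0 fun x => ENNReal.ofReal (-Real.log (F x))
    rw [hlog, zero_add] at h2
    have hpi : (0 : ℝ) < 2 * Real.pi := by positivity
    have hme : MeasurableEmbedding fun s : ℝ => 2 * Real.pi * s :=
      measurableEmbedding_mulLeft₀ hpi.ne'
    have hpre : (fun s : ℝ => 2 * Real.pi * s) ⁻¹' Ioc 0 (2 * Real.pi) = Ioc 0 1 := by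
      rw [preimage_const_mul_Ioc₀ _ _ hpi]; simp [hpi.ne']
    have hvol : (volume : Measure ℝ) = ENNReal.ofReal |2 * Real.pi| •
        Measure.map (fun s : ℝ => 2 * Real.pi * s) volume :=
      (Real.smul_map_volume_mul_left hpi.ne').symm
    rw [hvol, Measure.restrict_smul, lintegral_smul_measure, hme.restrict_map, hme.lintegral_map,
      hpre]
    simp only [hexp, hf']
    rw [h2, smul_eq_mul, ENNReal.mul_top]
    simp [Real.pi_pos.ne']

end Crest.Agent.R113
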