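import Crest.Prelude.Def_RotationRep
import Crest.Agent.R113.Trace
import Crest.Agent.R113.CfcMul

/-! Row 113: the transfer theorem, given the Hilbert basis. -/

set_option autoImplicit false

namespace Crest.Agent.R113

open MeasureTheory Crest.AnalysisR.RotationRep

lemma trb_ext {ι E : Type*} [NormedAddCommGroup E] [InnerProductSpace ℂ E]
    (e : HilbertBasis ι ℂ E) {x y : E →L[ℂ] E} (h : ∀ i, x (e i) = y (e i)) : x = y := by
  ext v
  have h1 := x.hasSum (e.hasSum_repr v)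
  have h2 := y.hasSum (e.hasSum_repr v)
  simp only [map_smul, h] at h1 h2
  exact h1.unique h2

lemma trb_bd (n : ℤ) : Bd fun x : T => fourier n x :=
  ⟨(fourier n).continuous.measurable, 1, fun _ => (Circle.norm_coe _).le⟩

lemma trb_fourier (θ : ℝ) (k b : ℤ) (x : T) :
    fourier 1 (x + k • (θ : T)) * fourier b x =
      Complex.exp (2 * Real.pi * Complex.I * θ * k) * fourier (b + 1) x := by
  have h1 : fourier 1 (x + k • (θ : T)) = fourier 1 x * fourier 1 (k • (θ : T)) := by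
    simp only [fourier_apply, smul_add, AddCircle.toCircle_add, Circle.coe_mul]
  have h2 : fourier 1 (k • (θ : T)) = Complex.exp (2 * Real.pi * Complex.I * θ * k) := by
    rw [← AddCircle.coe_zsmul, fourier_coe_apply]
    congr 1
    simp
    ring
  rw [h1, h2, fourier_add]
  ring

section Abs
variable {A B : Type*} [Ring A] [StarRing A] [Algebra ℂ A] [Ring B] [StarRing B] [Algebra ℂ B]

lemma trb_comm (Φ : A ≃⋆ₐ[ℂ] B) {S : Set A} {p : A}
    (hp : p ∈ Set.centralizer (Set.centralizer S)) {y : B} (hy : ∀ x ∈ S, y * Φ x = Φ x * y) :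
    y * Φ p = Φ p * y := by
  have h1 : Φ.symm y * p = p * Φ.symm y := by
    refine hp (Φ.symm y) fun x hx => ?_
    apply EquivLike.injective Φ
    rw [map_mul, map_mul, StarAlgEquiv.apply_symm_apply]
    exact (hy _ hx).symm
  have := congrArg Φ h1
  rwa [map_mul, map_mul, StarAlgEquiv.apply_symm_apply] at this

lemma trb_proj (Φ : A ≃⋆ₐ[ℂ] B) {p x y : A} (hpp : IsStarProjection p)
    (hinv : (1 - p) * (x * y) * p = 0) :
    Φ p * Φ p = Φ p ∧ star (Φ p) = Φ p ∧ (Φ p = 0 → p = 0) ∧ (Φ p = 1 → p = 1) ∧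
      Φ p * (Φ x * Φ y * Φ p) = Φ x * Φ y * Φ p := by
  refine ⟨?_, ?_, fun h => ?_, fun h => ?_, ?_⟩
  · rw [← map_mul, hpp.isIdempotentElem.eq]
  · rw [← map_star, hpp.isSelfAdjoint.star_eq]
  · apply EquivLike.injective Φ
    rw [map_zero, h]
  · apply EquivLike.injective Φ
    rw [map_one, h]
  · rw [← map_mul, ← map_mul, ← map_mul]
    rw [mul_assoc, sub_mul, one_mul, sub_eq_zero] at hinv
    rw [← hinv]

end Abs

theorem transfer_aux (e : HilbertBasis (ℤ × ℤ) ℂ (H2 (pm (volume : Measure T))))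
    (he : ∀ k b : ℤ, e (k, b) =ᵐ[pm (volume : Measure T)]
      fun p => if p.2 = k then fourier b p.1 else 0)
    (θ : ℝ) {f : ℂ → ℝ} (hf : Continuous f)
    {U V p : lp (fun _ : ℤ × ℤ => ℂ) 2 →L[ℂ] lp (fun _ : ℤ × ℤ => ℂ) 2} (hUV : IsRotationPair θ U V)
    (hp : p ∈ vonNeumannGenerated {U, V}) (hpp : IsStarProjection p)
    (hinv : (1 - p) * (U * cfc (fun z : ℂ => (f z : ℂ)) V) * p = 0) :
    ∃ q : NN (rot (θ : T)), IsStarProjection q ∧ (q = 0 → p = 0) ∧ (q = 1 → p = 1) ∧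
      q * (UN (rot (θ : T)) 1 * LR (rot (θ : T)) (fun x => f (fourier 1 x)) * q) =
        UN (rot (θ : T)) 1 * LR (rot (θ : T)) (fun x => f (fourier 1 x)) * q := by
  set Φ := e.repr.symm.conjStarAlgEquiv with hΦ
  have hΦe : ∀ x i, Φ x (e i) = e.repr.symm (x (lp.single 2 i (1 : ℂ))) := by
    intro x i
    rw [hΦ, LinearIsometryEquiv.conjStarAlgEquiv_apply_apply, LinearIsometryEquiv.symm_symm,
      e.repr_self]
  have hU : Φ U = Us volume 1 := by
    refine trb_ext e fun ⟨k, b⟩ => ?_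
    rw [hΦe, hUV.1, e.repr_symm_single]
    refine Lp.ext ?_
    filter_upwards [he (k + 1) b, cmpOp_apply (mp_shift volume 1) (e (k, b)),
      (mp_shift (volume : Measure T) 1).quasiMeasurePreserving.ae (he k b)] with y h1 h2 h3
    rw [h1, Us, h2, h3]
    simp only [sub_eq_iff_eq_add]
  have hbd : Bd fun y : T × ℤ => fourier 1 ((rot (θ : T)).σ y.2 y.1) :=
    (trb_bd 1).comp (measurable_act _)
  have hV : Φ V = Lm (rot (θ : T)) fun x => fourier 1 x := by
    refine trb_ext e fun ⟨k, b⟩ => ?_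
    rw [hΦe, hUV.2, map_smul, e.repr_symm_single]
    refine Lp.ext ?_
    filter_upwards [he k (b + 1), mulOp_apply hbd (e (k, b)), he k b,
      Lp.coeFn_smul (Complex.exp (2 * Real.pi * Complex.I * θ * k)) (e (k, b + 1))]
      with y h1 h2 h3 h4
    rw [h4, Lm, h2, h3, Pi.smul_apply, h1, smul_eq_mul]
    split_ifs with h
    · rw [← trb_fourier, ← h]; rfl
    · simp
  have hn : IsStarNormal (Φ V) := by
    rw [hV, Lm]
    refine ⟨?_⟩
    rw [← mulOp_star hbd, Commute, SemiconjBy, ← mulOp_mul hbd.conj hbd, ← mulOp_mul hbd hbd.conj]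
    simp only [mul_comm]
  have hn' : IsStarNormal V := by
    have := IsStarNormal.map Φ.symm (Φ V)
    rwa [StarAlgEquiv.symm_apply_apply] at this
  have hcont : Continuous Φ := by
    have : (Φ : _ → _) = fun x => (e.repr.symm : _ →L[ℂ] _) ∘L x ∘L (e.repr.symm.symm : _ →L[ℂ] _) :=
      rfl
    rw [this]
    fun_prop
  have hg : Continuous fun z : ℂ => (f z : ℂ) := Complex.continuous_ofReal.comp hf
  have hcfc : Φ (cfc (fun z : ℂ => (f z : ℂ)) V) =
      Lm (rot (θ : T)) fun x => (f (fourier 1 x) : ℂ) := by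
    rw [StarAlgHomClass.map_cfc Φ _ V hg.continuousOn hcont hn' hn, hV, Lm,
      cfc_mulOp hbd (isCompact_sphere 0 1) (fun y => mem_sphere_zero_iff_norm.2 (Circle.norm_coe _)) hg.continuousOn]
    rfl
  have hcomm : ∀ y, (∀ x ∈ NN (rot (θ : T)), y * x = x * y) → y * Φ p = Φ p * y := by
    intro y hy
    refine trb_comm Φ hp fun x hx => hy _ ?_
    rcases hx with (rfl | rfl) | ⟨_, rfl | rfl, rfl⟩
    · rw [hU]; exact Us_mem _ _
    · rw [hV]; exact Lm_mem _ _
    · rw [map_star, hU]; exact star_mem (Us_mem _ _)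
    · rw [map_star, hV]; exact star_mem (Lm_mem _ _)
  have hmem : Φ p ∈ NN (rot (θ : T)) :=
    (mem_NN _).2 ⟨fun b hb => hcomm _ fun x hx => ((mem_NN _).1 hx).1 b hb,
      fun j => hcomm _ fun x hx => ((mem_NN _).1 hx).2 j⟩
  obtain ⟨h1, h2, h3, h4, h5⟩ := trb_proj Φ hpp hinv
  rw [hU, hcfc] at h5
  exact ⟨⟨Φ p, hmem⟩, ⟨Subtype.ext h1, Subtype.ext h2⟩, fun h => h3 (congrArg Subtype.val h),
    fun h => h4 (congrArg Subtype.val h), Subtype.ext h5⟩

end Crest.Agent.R113
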