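import Crest.Prelude.Def_RotationRep
import Crest.Agent.R113.Trace
import Crest.Agent.R113.CfcMul
import Crest.Agent.R113.TransferAux
import Crest.Agent.R113.TransferAuxB

/-! Row 113: from `ℓ²(ℤ × ℤ)` to `L²(T × ℤ)`. -/

set_option autoImplicit false

namespace Crest.Agent.R113

open MeasureTheory Crest.AnalysisR.RotationRep

/-- A Hilbert basis `e_(k,b) (x, j) = fourier b x · 1{j = k}` of `L²(T × ℤ)`.
Sketch: `e (k, b) = Rm (fourier b) (Us k vac)`; orthonormality from `orthonormal_fourier` (or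
`integral_fourier`-type computation, `volume = haarAddCircle` for period `1`); completeness: the
slices of a vector orthogonal to all `e` are in `L²(T)` and have zero Fourier coefficients
(`fourierBasis`), `ae_pm_iff`; `HilbertBasis.mkOfOrthogonalEqBot`. -/
theorem exists_basis : ∃ e : HilbertBasis (ℤ × ℤ) ℂ (H2 (pm (volume : Measure T))),
    ∀ k b : ℤ, e (k, b) =ᵐ[pm (volume : Measure T)] fun p => if p.2 = k then fourier b p.1 else 0 :=
  exists_basis_aux

/-- Sketch: `W = e.repr`, `Φ x = W.symm ∘ x ∘ W` (a continuous star algebra isomorphism, e.g.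
`LinearIsometryEquiv.conjStarAlgEquiv`). On basis vectors `Φ U = Us 1`,
`Φ V = Lm (rot θ) (fourier 1)`; `Φ (cfc f V) = cfc f (Φ V) = Lm (f ∘ fourier 1)`
(`StarAlgHom.map_cfc`/`cfc_mulOp` with the unit sphere; `V` is normal). The pull-backs of
`Rm b`, `Rs j` commute with `U, V, U⋆, V⋆` (`mem_NN`, `Lm_mem`, `Us_mem`), hence with `p`. -/
theorem transfer (θ : ℝ) {f : ℂ → ℝ} (hf : Continuous f)
    {U V p : lp (fun _ : ℤ × ℤ => ℂ) 2 →L[ℂ] lp (fun _ : ℤ × ℤ => ℂ) 2} (hUV : IsRotationPair θ U V)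
    (hp : p ∈ vonNeumannGenerated {U, V}) (hpp : IsStarProjection p)
    (hinv : (1 - p) * (U * cfc (fun z : ℂ => (f z : ℂ)) V) * p = 0) :
    ∃ q : NN (rot (θ : T)), IsStarProjection q ∧ (q = 0 → p = 0) ∧ (q = 1 → p = 1) ∧
      q * (UN (rot (θ : T)) 1 * LR (rot (θ : T)) (fun x => f (fourier 1 x)) * q) =
        UN (rot (θ : T)) 1 * LR (rot (θ : T)) (fun x => f (fourier 1 x)) * q := by
  obtain ⟨e, he⟩ := exists_basis
  exact transfer_aux e he θ hf hUV hp hpp hinv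

/-- Extension of the weight to `ℂ` (Tietze, `ContinuousMap.exists_extension` for the closed
embedding `x ↦ fourier 1 x`), and the change of variables `t = 2 π s` in the log-integral
(`AddCircle.measurePreserving_mk`/`UnitAddCircle.lintegral_preimage`). -/
theorem exists_ext {F : T → ℝ} (hc : Continuous F) (h0 : ∀ x, 0 ≤ F x) (h1 : ∀ x, F x ≤ 1)
    (hz : ∀ x, F x = 0 ↔ x = 0) (hlog : ∫⁻ x, ENNReal.ofReal (-Real.log (F x)) = ⊤) :
    ∃ f : ℂ → ℝ, Continuous f ∧ (∀ x : T, f (fourier 1 x) = F x) ∧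
      (∀ z : ℂ, ‖z‖ = 1 → 0 ≤ f z ∧ f z ≤ 1) ∧ (∀ z : ℂ, ‖z‖ = 1 → (f z = 0 ↔ z = 1)) ∧
      (∫⁻ t in Set.Ioc (0 : ℝ) (2 * Real.pi),
        ENNReal.ofReal (- Real.log (f (Complex.exp ((t : ℂ) * Complex.I)))) = ⊤) :=
  exists_ext_aux hc h0 h1 hz hlog

end Crest.Agent.R113
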