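import Crest.Agent.R113.Hit

/-! Row 113: bumps and the limit weight (auxiliary file of `Weight.lean`). -/

set_option autoImplicit false

namespace Crest.Agent.R113

open MeasureTheory Finset Filter Topology

lemma exists_chi {B : Set T} (hB : MeasurableSet B) {r η : ℝ} (hη : 0 < η)
    (hsub : ∀ x ∈ B, ‖x‖ < r) :
    ∃ (χ : T → ℝ) (Z : Set T), Continuous χ ∧ MeasurableSet Z ∧ volume.real Z ≤ η ∧
      (∀ x, 0 ≤ χ x ∧ χ x ≤ 1) ∧ (∀ x, x ∉ Z → χ x = B.indicator (fun _ => 1) x) ∧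
      ∀ x, r ≤ ‖x‖ → χ x = 0 := by
  have he : ENNReal.ofReal (η / 2) ≠ 0 := by simpa using hη
  obtain ⟨K, hKB, hK, hKm⟩ := hB.exists_isClosed_sdiff_lt (μ := volume) (measure_ne_top _ _) he
  obtain ⟨O, hBO, hO, -, hOm⟩ := hB.exists_isOpen_sdiff_lt (μ := volume) (measure_ne_top _ _) he
  have hO' : IsOpen (O ∩ {x | ‖x‖ < r}) := hO.inter (isOpen_lt continuous_norm continuous_const)
  obtain ⟨χ, h0, h1, h01⟩ := exists_continuous_zero_one_of_isClosed hO'.isClosed_compl hK
    (Set.disjoint_left.2 fun x hx hxK => hx ⟨hBO (hKB hxK), hsub x (hKB hxK)⟩)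
  refine ⟨χ, (B \ K) ∪ (O \ B), χ.continuous,
    (hB.diff hK.measurableSet).union (hO.measurableSet.diff hB), ?_, h01, fun x hx => ?_,
    fun x hx => h0 fun h => absurd h.2 (not_lt.2 hx)⟩
  · refine (measureReal_union_le _ _).trans ?_
    have a1 := ENNReal.toReal_le_of_le_ofReal (by positivity) hKm.le
    have a2 := ENNReal.toReal_le_of_le_ofReal (by positivity) hOm.le
    simp only [measureReal_def]; linarith
  · simp only [Set.mem_union, Set.mem_sdiff, not_or, not_and, not_not] at hx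
    by_cases hxB : x ∈ B
    · rw [Set.indicator_of_mem hxB]; exact h1 (hx.1 hxB)
    · rw [Set.indicator_of_notMem hxB]; exact h0 fun h => hxB (hx.2 h.1)

lemma exists_bump' {B : Set T} (hB : MeasurableSet B) {r η : ℝ} (hr : 0 < r) (hη : 0 < η)
    (hsub : ∀ x ∈ B, ‖x‖ < r) :
    ∃ (χ β : T → ℝ) (Z : Set T), Continuous χ ∧ Continuous β ∧ MeasurableSet Z ∧
      volume.real Z ≤ η ∧ (∀ x, 0 ≤ χ x ∧ χ x ≤ 1) ∧ (∀ x, 0 ≤ β x ∧ β x ≤ 1) ∧ β 0 = 1 ∧
      (∀ x, x ∉ Z → χ x = B.indicator (fun _ => 1) x ∧ β x = 0) ∧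
      ∀ x, r ≤ ‖x‖ → χ x = 0 ∧ β x = 0 := by
  obtain ⟨χ, Z, hc, hZ, hZm, h01, hoff, hr'⟩ := exists_chi hB (half_pos hη) hsub
  set ρ : ℝ := min r (η / 4) with hρ
  have hρ0 : 0 < ρ := lt_min hr (by positivity)
  have hβ : ∀ x : T, ρ ≤ ‖x‖ → max 0 (1 - ‖x‖ / ρ) = 0 := fun x hx =>
    max_eq_left (by rw [sub_nonpos, le_div_iff₀ hρ0]; linarith)
  refine ⟨χ, fun x => max 0 (1 - ‖x‖ / ρ), Z ∪ Metric.closedBall 0 ρ, hc, by fun_prop,
    hZ.union measurableSet_closedBall, ?_, h01, fun x => ⟨le_max_left _ _, max_le zero_le_one ?_⟩,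
    by simp, fun x hx => ?_, fun x hx => ⟨hr' x hx, hβ x ((min_le_left _ _).trans hx)⟩⟩
  · refine (measureReal_union_le _ _).trans ?_
    have : volume.real (Metric.closedBall (0 : T) ρ) ≤ η / 2 := by
      rw [measureReal_def, AddCircle.volume_closedBall]
      refine ENNReal.toReal_le_of_le_ofReal (by positivity) (ENNReal.ofReal_le_ofReal ?_)
      exact (min_le_right _ _).trans (by linarith [min_le_right r (η / 4)])
    linarith
  · have : 0 ≤ ‖x‖ / ρ := by positivity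
    linarith
  · simp only [Set.mem_union, not_or, mem_closedBall_zero_iff, not_le] at hx
    exact ⟨hoff x hx.1, hβ x hx.2.le⟩

lemma exists_limit' {g : ℕ → T → ℝ} {rad : ℕ → ℝ} (hc : ∀ j, Continuous (g j))
    (h0 : ∀ j x, 0 ≤ g j x) (hrad : Tendsto rad atTop (𝓝 0))
    (hs : ∀ j x, rad j ≤ ‖x‖ → g j x = 0) (h1 : ∀ j, 1 ≤ g j 0) (hi : ∀ j, 1 / 2 ≤ ∫ x, g j x) :
    ∃ F : T → ℝ, Continuous F ∧ (∀ x, 0 ≤ F x) ∧ (∀ x, F x ≤ 1) ∧ (∀ x, F x = 0 ↔ x = 0) ∧
      ∫⁻ x, ENNReal.ofReal (-Real.log (F x)) = ⊤ ∧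
      (∀ n x, F x ≤ Real.exp (-∑ j ∈ range n, g j x)) ∧
      ∀ n x, (∀ j, n ≤ j → g j x = 0) → F x = Real.exp (-∑ j ∈ range n, g j x) := by
  set S : ℕ → T → ℝ := fun n x => ∑ j ∈ range n, g j x with hS
  have cS : ∀ n, Continuous (S n) := fun n => continuous_finsetSum _ fun j _ => hc j
  set F : T → ℝ := fun x => ⨅ n, Real.exp (-S n x) with hF
  have bdd : ∀ x, BddBelow (Set.range fun n => Real.exp (-S n x)) := fun x =>
    ⟨0, by rintro _ ⟨n, rfl⟩; exact (Real.exp_pos _).le⟩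
  have hle : ∀ n x, F x ≤ Real.exp (-S n x) := fun n x => ciInf_le (bdd x) n
  have hF0 : ∀ x, 0 ≤ F x := fun x => le_ciInf fun n => (Real.exp_pos _).le
  have heq : ∀ n x, (∀ j, n ≤ j → g j x = 0) → F x = Real.exp (-S n x) := fun n x h => by
    refine le_antisymm (hle n x) (le_ciInf fun m => Real.exp_le_exp.2 (neg_le_neg ?_))
    calc S m x ≤ S (n + m) x := sum_le_sum_of_subset_of_nonneg
          (range_subset_range.2 (by omega)) fun j _ _ => h0 j x
      _ = S n x := by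
        simp only [hS]
        rw [sum_range_add, sum_eq_zero (s := range m) fun j _ => h _ (by omega), add_zero]
  have hloc : ∀ x : T, x ≠ 0 → ∃ n, ∀ᶠ y in 𝓝 x, ∀ j, n ≤ j → g j y = 0 := fun x hx => by
    have hx' : 0 < ‖x‖ / 2 := half_pos (norm_pos_iff.2 hx)
    obtain ⟨n, hn⟩ := eventually_atTop.1 (hrad.eventually (gt_mem_nhds hx'))
    refine ⟨n, ?_⟩
    filter_upwards [continuous_norm.continuousAt.eventually
      (lt_mem_nhds (show ‖x‖ / 2 < ‖x‖ by linarith))] with y hy j hj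
    exact hs j y ((hn j hj).le.trans hy.le)
  have hsmall : ∀ ε : ℝ, 0 < ε → ∀ᶠ y in 𝓝 (0 : T), F y < ε := fun ε hε => by
    obtain ⟨n, hn⟩ := ((Real.tendsto_exp_neg_atTop_nhds_zero.comp
      tendsto_natCast_atTop_atTop).eventually (gt_mem_nhds hε)).exists
    have h2 : Real.exp (-S n 0) < ε := by
      refine lt_of_le_of_lt (Real.exp_le_exp.2 (neg_le_neg ?_)) hn
      simpa using sum_le_sum (s := range n) fun j _ => h1 j
    filter_upwards [(cS n).neg.rexp.continuousAt.eventually (gt_mem_nhds h2)] with y hy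
    exact (hle n y).trans_lt hy
  have hz : F 0 = 0 := le_antisymm
    (le_of_forall_pos_le_add fun ε hε => by simpa using (hsmall ε hε).self_of_nhds.le) (hF0 0)
  have hpos : ∀ x : T, x ≠ 0 → 0 < F x := fun x hx => by
    obtain ⟨n, hn⟩ := hloc x hx
    rw [heq n x hn.self_of_nhds]; exact Real.exp_pos _
  refine ⟨F, continuous_iff_continuousAt.2 fun x => ?_, hF0, fun x => by simpa [hS] using hle 0 x,
    fun x => ⟨fun h => by_contra fun hx => (hpos x hx).ne' h, fun h => h ▸ hz⟩, ?_, hle, heq⟩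
  · by_cases hx : x = 0
    · subst hx
      rw [ContinuousAt, hz, tendsto_order]
      exact ⟨fun ε hε => Eventually.of_forall fun y => hε.trans_le (hF0 y), hsmall⟩
    · obtain ⟨n, hn⟩ := hloc x hx
      exact (cS n).neg.rexp.continuousAt.congr (hn.mono fun y hy => (heq n y hy).symm)
  · have key : ∀ n : ℕ, ENNReal.ofReal (n / 2) ≤ ∫⁻ x, ENNReal.ofReal (-Real.log (F x)) := by
      intro n
      have hint : ∀ j, Integrable (g j) volume := fun j =>
        (hc j).integrable_of_hasCompactSupport (HasCompactSupport.of_compactSpace _)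
      have a1 : (n : ℝ) / 2 ≤ ∫ x, S n x := by
        simp only [hS]
        rw [integral_finsetSum _ fun j _ => hint j]
        simpa [div_eq_mul_inv] using sum_le_sum (s := range n) fun j _ => hi j
      refine (ENNReal.ofReal_le_ofReal a1).trans ?_
      rw [ofReal_integral_eq_lintegral_ofReal (integrable_finsetSum _ fun j _ => hint j)
        (ae_of_all _ fun x => sum_nonneg fun j _ => h0 j x)]
      refine lintegral_mono_ae ?_
      have hae : ∀ᵐ x : T, x ≠ 0 := by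
        rw [ae_iff]
        have := AddCircle.volume_closedBall (T := 1) (x := (0 : T)) 0
        simpa using this
      filter_upwards [hae] with x hx
      refine ENNReal.ofReal_le_ofReal ?_
      have := Real.log_le_log (hpos x hx) (hle n x)
      rw [Real.log_exp] at this
      linarith
    refine ENNReal.eq_top_of_forall_nnreal_le fun r => le_trans ?_ (key (2 * ⌈r⌉₊))
    rw [← ENNReal.ofReal_coe_nnreal]
    refine ENNReal.ofReal_le_ofReal ?_
    have : (r : ℝ) ≤ ⌈r⌉₊ := by exact_mod_cast Nat.le_ceil r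
    push_cast; linarith

end Crest.Agent.R113
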